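import Mathlib.Algebra.Order.Chebyshev
import Vale.Agent.P076.R2.H45.Gau

/-!
# P076 : the TT* estimate by blocks of times
-/

open MeasureTheory Complex FourierTransform Filter Topology Set
open scoped ENNReal NNReal

namespace Vale.Agent.P076.R2.H831.V2

open Vale.Agent.P076 Vale.Agent.P076.H791 Vale.Agent.P076.R2.H45

variable {n : ℕ}

/-- the kernel in physical space -/
noncomputable def kk (G : E n → ℝ) (s : E n → ℝ) (h : E n → ℂ) (p : E n × E n) : ℂ :=
  h p.1 * starRingEnd ℂ (h p.2) * Ker G (p.1 - p.2) (s p.1 - s p.2)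

lemma quad {r : ℕ} {G : E n → ℝ} (hG : Integrable G) (hGm : Measurable G)
    (hG0 : ∀ η, 0 ≤ G η) {A : Set (E n)} {s : E n → ℝ} {h : E n → ℂ} (a : Adm r A s h) :
    Integrable (kk G s h) (((volume : Measure (E n)).restrict A).prod
      ((volume : Measure (E n)).restrict A)) ∧
    ∫⁻ η, ENNReal.ofReal (G η) * ‖Phi A s h η‖ₑ ^ 2 =
      ‖∫ p, kk G s h p ∂(((volume : Measure (E n)).restrict A).prod
        ((volume : Measure (E n)).restrict A))‖ₑ := by
  have hAf := a.vol
  have hfin : IsFiniteMeasure ((volume : Measure (E n)).restrict A) :=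
    ⟨by rw [Measure.restrict_apply_univ]; exact hAf⟩
  set μ : Measure (E n) := (volume : Measure (E n)).restrict A with hμ
  set F : E n → E n × E n → ℂ := fun η p => (G η : ℂ) * ((h p.1 * ph p.1 (s p.1) 0 η) *
      starRingEnd ℂ (h p.2 * ph p.2 (s p.2) 0 η)) with hF
  have hFi : Integrable (Function.uncurry F) ((volume : Measure (E n)).prod (μ.prod μ)) := by
    have h3 : Integrable (fun p : E n × (E n × E n) => ‖G p.1‖ * 1)
        ((volume : Measure (E n)).prod (μ.prod μ)) :=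
      hG.norm.mul_prod (integrable_const (1 : ℝ) (μ := μ.prod μ))
    refine Integrable.mono' h3 ?_ (Eventually.of_forall fun p => ?_)
    · exact (kern_measurable hGm a.ms a.mh).aestronglyMeasurable
    · simp only [Function.uncurry, hF]
      rw [norm_mul, Complex.norm_real]
      exact mul_le_mul_of_nonneg_left (norm_kk_le a.bh _ _ _) (norm_nonneg _)
  have e1 : ∀ η, ∫ p, F η p ∂(μ.prod μ) = ((G η * ‖Phi A s h η‖ ^ 2 : ℝ) : ℂ) := by
    intro η
    simp only [hF]
    rw [integral_const_mul, ← Phi_sq]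
    push_cast
    ring
  have e2 : ∀ p : E n × E n, ∫ η, F η p = kk G s h p := fun p => inner_int G h s p.1 p.2
  have hi : Integrable (fun η => G η * ‖Phi A s h η‖ ^ 2) := by
    have h1 := hFi.integral_prod_left
    have h2 : (fun η => ∫ p, Function.uncurry F (η, p) ∂(μ.prod μ)) =
        fun η => ((G η * ‖Phi A s h η‖ ^ 2 : ℝ) : ℂ) := by
      funext η; exact e1 η
    rw [h2] at h1
    have h3 := h1.re
    refine h3.congr (Eventually.of_forall fun η => ?_)
    simp only [RCLike.re_to_complex, Complex.ofReal_re]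
  have hk : Integrable (kk G s h) (μ.prod μ) := by
    have h1 := hFi.integral_prod_right
    have h2 : (fun p => ∫ η, Function.uncurry F (η, p)) = kk G s h := by
      funext p; exact e2 p
    rwa [h2] at h1
  have e3 : ((∫ η, G η * ‖Phi A s h η‖ ^ 2 : ℝ) : ℂ) = ∫ p, kk G s h p ∂(μ.prod μ) := by
    rw [← integral_complex_ofReal]
    have h1 : ∫ η, ((G η * ‖Phi A s h η‖ ^ 2 : ℝ) : ℂ) = ∫ η, ∫ p, F η p ∂(μ.prod μ) :=
      integral_congr_ae (Eventually.of_forall fun η => (e1 η).symm)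
    rw [h1, integral_integral_swap hFi]
    exact integral_congr_ae (Eventually.of_forall fun p => e2 p)
  have h0 : 0 ≤ ∫ η, G η * ‖Phi A s h η‖ ^ 2 :=
    integral_nonneg fun η => mul_nonneg (hG0 η) (by positivity)
  refine ⟨hk, ?_⟩
  rw [← e3, ← ofReal_norm, Complex.norm_real, Real.norm_eq_abs, abs_of_nonneg h0,
    ofReal_integral_eq_lintegral_ofReal hi
      (Eventually.of_forall fun η => mul_nonneg (hG0 η) (by positivity))]
  refine lintegral_congr fun η => ?_
  rw [ENNReal.ofReal_mul (hG0 η), ENNReal.ofReal_pow (norm_nonneg _), ofReal_norm]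

lemma enorm_kk_le {G : E n → ℝ} {s : E n → ℝ} {h : E n → ℂ} (bh : ∀ x, ‖h x‖ ≤ 1)
    (p : E n × E n) : ‖kk G s h p‖ₑ ≤ ‖Ker G (p.1 - p.2) (s p.1 - s p.2)‖ₑ := by
  unfold kk
  rw [enorm_mul, enorm_mul]
  have h1 : ‖h p.1‖ₑ ≤ 1 := by
    rw [← ofReal_norm, ← ENNReal.ofReal_one]
    exact ENNReal.ofReal_le_ofReal (bh _)
  have h2 : ‖starRingEnd ℂ (h p.2)‖ₑ ≤ 1 := by
    rw [← ofReal_norm, RCLike.norm_conj, ← ENNReal.ofReal_one]
    exact ENNReal.ofReal_le_ofReal (bh _)
  calc ‖h p.1‖ₑ * ‖starRingEnd ℂ (h p.2)‖ₑ * ‖Ker G (p.1 - p.2) (s p.1 - s p.2)‖ₑ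
      ≤ 1 * 1 * ‖Ker G (p.1 - p.2) (s p.1 - s p.2)‖ₑ := by gcongr
    _ = _ := by ring

lemma _root_.Vale.Agent.P076.R2.H45.Adm.inter {r : ℕ} {A : Set (E n)} {s : E n → ℝ} {h : E n → ℂ} (a : Adm r A s h)
    {U : Set (E n)} (hU : MeasurableSet U) : Adm r (A ∩ U) s h :=
  ⟨a.mA.inter hU, Set.inter_subset_left.trans a.sub, a.ms, a.bs, a.mh, a.bh⟩

/-- the differences of points of `A` -/
lemma diff_lt {r : ℕ} {A : Set (E n)} (hA : A ⊆ Metric.ball 0 r) {x y : E n} (hx : x ∈ A)
    (hy : y ∈ A) : ‖x - y‖ < 2 * r := by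
  have hx' := hA hx
  have hy' := hA hy
  rw [mem_ball_zero_iff] at hx' hy'
  calc ‖x - y‖ ≤ ‖x‖ + ‖y‖ := norm_sub_le _ _
    _ < r + r := add_lt_add hx' hy'
    _ = 2 * r := by ring

/-- a set of equal times -/
lemma one_block {r : ℕ} {G : E n → ℝ} (hG : Integrable G) (hGm : Measurable G)
    (hG0 : ∀ η, 0 ≤ G η) {A : Set (E n)} {s : E n → ℝ} {h : E n → ℂ} (a : Adm r A s h)
    {B : E n → ℝ≥0∞} (hB : Measurable B)
    (hK : ∀ x ∈ A, ∀ y ∈ A, ‖Ker G (x - y) (s x - s y)‖ₑ ≤ B (x - y)) {S : ℝ≥0∞}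
    (hS : ∫⁻ z in Metric.ball 0 (2 * r), B z ≤ S) :
    ∫⁻ η, ENNReal.ofReal (G η) * ‖Phi A s h η‖ₑ ^ 2 ≤ S * volume A := by
  obtain ⟨-, h2⟩ := quad hG hGm hG0 a
  rw [h2]
  refine (enorm_integral_le_lintegral_enorm _).trans ?_
  have h5 : ∀ᵐ p ∂(((volume : Measure (E n)).restrict A).prod
      ((volume : Measure (E n)).restrict A)), ‖kk G s h p‖ₑ ≤ B (p.1 - p.2) := by
    rw [Measure.prod_restrict]
    refine (ae_restrict_iff' (a.mA.prod a.mA)).2 (Eventually.of_forall fun p hp => ?_)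
    exact (enorm_kk_le a.bh p).trans (hK _ hp.1 _ hp.2)
  refine (lintegral_mono_ae h5).trans ((conv_le a.sub hB a.mA).trans ?_)
  gcongr

/-- almost orthogonality of blocks -/
lemma coarse {r : ℕ} {G : E n → ℝ} (hG : Integrable G) (hGm : Measurable G)
    (hG0 : ∀ η, 0 ≤ G η) {A : Set (E n)} {s : E n → ℝ} {h : E n → ℂ} (a : Adm r A s h)
    {q : E n → ℕ} (hq : Measurable q) {M : ℕ} (hqM : ∀ x ∈ A, q x < M)
    {B : E n → ℝ≥0∞} (hB : Measurable B)
    (hK : ∀ x ∈ A, ∀ y ∈ A, q x ≠ q y → ‖Ker G (x - y) (s x - s y)‖ₑ ≤ B (x - y)) {S : ℝ≥0∞}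
    (hS : ∫⁻ z in Metric.ball 0 (2 * r), B z ≤ S) :
    ∫⁻ η, ENNReal.ofReal (G η) * ‖Phi A s h η‖ₑ ^ 2 ≤
      (∑ m ∈ Finset.range M,
        ∫⁻ η, ENNReal.ofReal (G η) * ‖Phi (A ∩ {x | q x = m}) s h η‖ₑ ^ 2) + S * volume A := by
  classical
  obtain ⟨h1, h2⟩ := quad hG hGm hG0 a
  rw [h2]
  set μ : Measure (E n) := (volume : Measure (E n)).restrict A with hμ
  have hfin : IsFiniteMeasure μ := ⟨by rw [hμ, Measure.restrict_apply_univ]; exact a.vol⟩
  set D : Set (E n × E n) := {p | q p.1 = q p.2} with hD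
  have hDm : MeasurableSet D :=
    measurableSet_eq_fun (hq.comp measurable_fst) (hq.comp measurable_snd)
  rw [← integral_add_compl hDm h1]
  refine (enorm_add_le _ _).trans (add_le_add ?_ ?_)
  · -- the diagonal part
    set U : ℕ → Set (E n) := fun m => {x | q x = m} with hU
    have hUm : ∀ m, MeasurableSet (U m) := fun m => hq (measurableSet_singleton m)
    have e0 : ∀ᵐ p ∂(μ.prod μ), p ∈ A ×ˢ A := by
      rw [hμ, Measure.prod_restrict]
      exact ae_restrict_mem (a.mA.prod a.mA)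
    have e1 : ∫ p in D, kk G s h p ∂(μ.prod μ) =
        ∫ p in ⋃ m ∈ Finset.range M, (U m) ×ˢ (U m), kk G s h p ∂(μ.prod μ) := by
      refine setIntegral_congr_set ?_
      filter_upwards [e0] with p hp
      apply propext
      constructor
      · intro hpD
        have hpD' : q p.1 = q p.2 := hpD
        refine Set.mem_iUnion₂.2 ⟨q p.1, Finset.mem_range.2 (hqM _ hp.1), ?_⟩
        exact ⟨rfl, hpD'.symm⟩
      · intro hpU
        obtain ⟨m, -, hm1, hm2⟩ := Set.mem_iUnion₂.1 hpU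
        have hm1' : q p.1 = m := hm1
        have hm2' : q p.2 = m := hm2
        show q p.1 = q p.2
        rw [hm1', hm2']
    have e2 : ∫ p in ⋃ m ∈ Finset.range M, (U m) ×ˢ (U m), kk G s h p ∂(μ.prod μ) =
        ∑ m ∈ Finset.range M, ∫ p in (U m) ×ˢ (U m), kk G s h p ∂(μ.prod μ) := by
      refine integral_biUnion_finset _ (fun m _ => (hUm m).prod (hUm m)) ?_
        (fun m _ => h1.integrableOn)
      intro m _ m' _ hmm
      refine Set.disjoint_left.2 fun p hp hp' => hmm ?_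
      have h3 : q p.1 = m := hp.1
      have h4 : q p.1 = m' := hp'.1
      rw [← h3, ← h4]
    rw [e1, e2]
    refine (enorm_sum_le _ _).trans (Finset.sum_le_sum fun m _ => ?_)
    obtain ⟨-, h3⟩ := quad hG hGm hG0 (a.inter (hUm m))
    rw [h3]
    refine le_of_eq ?_
    congr 1
    rw [hμ, ← Measure.prod_restrict, Measure.restrict_restrict (hUm m), Set.inter_comm]
  · -- the other part
    refine (enorm_integral_le_lintegral_enorm _).trans ?_
    have h5 : ∀ᵐ p ∂((μ.prod μ).restrict Dᶜ), ‖kk G s h p‖ₑ ≤ B (p.1 - p.2) := by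
      refine (ae_restrict_iff' hDm.compl).2 ?_
      rw [hμ, Measure.prod_restrict]
      refine (ae_restrict_iff' (a.mA.prod a.mA)).2 (Eventually.of_forall fun p hp hpD => ?_)
      exact (enorm_kk_le a.bh p).trans (hK _ hp.1 _ hp.2 hpD)
    refine (lintegral_mono_ae h5).trans ?_
    refine (setLIntegral_le_lintegral _ _).trans ((conv_le a.sub hB a.mA).trans ?_)
    gcongr

/-- finitely many pieces -/
lemma Phi_split {r : ℕ} {A : Set (E n)} {s : E n → ℝ} {h : E n → ℂ} (a : Adm r A s h)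
    {q : E n → ℕ} (hq : Measurable q) {M : ℕ} (hqM : ∀ x ∈ A, q x < M) (η : E n) :
    ‖Phi A s h η‖ₑ ^ 2 ≤
      (M : ℝ≥0∞) * ∑ m ∈ Finset.range M, ‖Phi (A ∩ {x | q x = m}) s h η‖ₑ ^ 2 := by
  classical
  have hfin : IsFiniteMeasure ((volume : Measure (E n)).restrict A) :=
    ⟨by rw [Measure.restrict_apply_univ]; exact a.vol⟩
  have hUm : ∀ m, MeasurableSet {x : E n | q x = m} := fun m => hq (measurableSet_singleton m)
  have hmk : Measurable fun x : E n => h x * ph x (s x) 0 η := by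
    have h1 := measurable_kern a.ms a.mh
    have h2 : Measurable fun x : E n => ((x, η) : E n × E n) := measurable_id.prodMk measurable_const
    have h3 := Measurable.comp h1 h2
    simpa only [Function.comp_def] using h3
  have hint : Integrable (fun x : E n => h x * ph x (s x) 0 η)
      ((volume : Measure (E n)).restrict A) := by
    refine Integrable.mono' (integrable_const (1 : ℝ)) hmk.aestronglyMeasurable
      (Eventually.of_forall fun x => norm_kern_le a.bh _ _)
  have e1 : A = ⋃ m ∈ Finset.range M, (A ∩ {x | q x = m}) := by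
    ext x
    constructor
    · intro hx
      exact Set.mem_iUnion₂.2 ⟨q x, Finset.mem_range.2 (hqM x hx), hx, rfl⟩
    · intro hx
      obtain ⟨m, -, hm⟩ := Set.mem_iUnion₂.1 hx
      exact hm.1
  have e2 : Phi A s h η = ∑ m ∈ Finset.range M, Phi (A ∩ {x | q x = m}) s h η := by
    unfold Phi
    conv_lhs => rw [e1]
    refine integral_biUnion_finset _ (fun m _ => a.mA.inter (hUm m)) ?_ (fun m _ => ?_)
    · intro m _ m' _ hmm
      refine Set.disjoint_left.2 fun x hx hx' => hmm ?_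
      have h3 : q x = m := hx.2
      have h4 : q x = m' := hx'.2
      rw [← h3, ← h4]
    · exact (show IntegrableOn (fun x : E n => h x * ph x (s x) 0 η) A volume from hint).mono_set
        Set.inter_subset_left
  rw [e2]
  have e3 : ‖∑ m ∈ Finset.range M, Phi (A ∩ {x | q x = m}) s h η‖ ^ 2 ≤
      (M : ℝ) * ∑ m ∈ Finset.range M, ‖Phi (A ∩ {x | q x = m}) s h η‖ ^ 2 := by
    have h3 := norm_sum_le (Finset.range M) fun m => Phi (A ∩ {x | q x = m}) s h η
    have h4 := sq_sum_le_card_mul_sum_sq (s := Finset.range M)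
      (f := fun m => ‖Phi (A ∩ {x | q x = m}) s h η‖)
    rw [Finset.card_range] at h4
    refine le_trans ?_ h4
    gcongr
  have e4 : ∀ z : ℂ, ‖z‖ₑ ^ 2 = ENNReal.ofReal (‖z‖ ^ 2) := by
    intro z
    rw [ENNReal.ofReal_pow (norm_nonneg _), ofReal_norm]
  rw [e4]
  refine (ENNReal.ofReal_le_ofReal e3).trans (le_of_eq ?_)
  rw [ENNReal.ofReal_mul (by positivity), ENNReal.ofReal_natCast,
    ENNReal.ofReal_sum_of_nonneg fun m _ => by positivity]
  simp_rw [e4]

lemma volsum {A : Set (E n)} (hA : MeasurableSet A) {q : E n → ℕ} (hq : Measurable q) (M : ℕ) :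
    ∑ m ∈ Finset.range M, volume (A ∩ {x | q x = m}) ≤ volume A := by
  have hUm : ∀ m, MeasurableSet {x : E n | q x = m} := fun m => hq (measurableSet_singleton m)
  rw [← measure_biUnion_finset]
  · refine measure_mono (Set.iUnion₂_subset fun m _ => Set.inter_subset_left)
  · intro m _ m' _ hmm
    refine Set.disjoint_left.2 fun x hx hx' => hmm ?_
    have h3 : q x = m := hx.2
    have h4 : q x = m' := hx'.2
    rw [← h3, ← h4]
  · exact fun m _ => hA.inter (hUm m)

/-- the sum over finitely many pieces -/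
lemma pieces {r : ℕ} {G : E n → ℝ} (hGm : Measurable G) {A : Set (E n)} {s : E n → ℝ}
    {h : E n → ℂ} (a : Adm r A s h) {q : E n → ℕ} (hq : Measurable q) {M : ℕ}
    (hqM : ∀ x ∈ A, q x < M) {S : ℝ≥0∞}
    (hP : ∀ m ∈ Finset.range M, ∫⁻ η, ENNReal.ofReal (G η) *
      ‖Phi (A ∩ {x | q x = m}) s h η‖ₑ ^ 2 ≤ S * volume (A ∩ {x | q x = m})) :
    ∫⁻ η, ENNReal.ofReal (G η) * ‖Phi A s h η‖ₑ ^ 2 ≤ (M : ℝ≥0∞) * S * volume A := by
  have hPm : ∀ m, Measurable fun η => ENNReal.ofReal (G η) *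
      ‖Phi (A ∩ {x | q x = m}) s h η‖ₑ ^ 2 := fun m =>
    (ENNReal.measurable_ofReal.comp hGm).mul
      ((measurable_Phi (A := A ∩ {x | q x = m}) a.ms a.mh).enorm.pow_const 2)
  calc ∫⁻ η, ENNReal.ofReal (G η) * ‖Phi A s h η‖ₑ ^ 2
      ≤ ∫⁻ η, (M : ℝ≥0∞) * ∑ m ∈ Finset.range M, ENNReal.ofReal (G η) *
          ‖Phi (A ∩ {x | q x = m}) s h η‖ₑ ^ 2 := by
        refine lintegral_mono fun η => ?_
        calc ENNReal.ofReal (G η) * ‖Phi A s h η‖ₑ ^ 2
            ≤ ENNReal.ofReal (G η) * ((M : ℝ≥0∞) * ∑ m ∈ Finset.range M,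
              ‖Phi (A ∩ {x | q x = m}) s h η‖ₑ ^ 2) := by
              gcongr
              exact Phi_split a hq hqM η
          _ = _ := by
              rw [Finset.mul_sum, Finset.mul_sum, Finset.mul_sum]
              exact Finset.sum_congr rfl fun m _ => by ring
    _ = (M : ℝ≥0∞) * ∑ m ∈ Finset.range M, ∫⁻ η, ENNReal.ofReal (G η) *
          ‖Phi (A ∩ {x | q x = m}) s h η‖ₑ ^ 2 := by
        rw [lintegral_const_mul _ (Finset.measurable_sum _ fun m _ => hPm m),
          lintegral_finsetSum _ fun m _ => hPm m]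
    _ ≤ (M : ℝ≥0∞) * ∑ m ∈ Finset.range M, S * volume (A ∩ {x | q x = m}) := by
        gcongr with m hm
        exact hP m hm
    _ = (M : ℝ≥0∞) * (S * ∑ m ∈ Finset.range M, volume (A ∩ {x | q x = m})) := by
        rw [← Finset.mul_sum]
    _ ≤ (M : ℝ≥0∞) * (S * volume A) := by
        gcongr
        exact volsum a.mA hq M
    _ = _ := by ring

/-- **the TT* estimate by blocks of times** -/
theorem TTr_blocks {r : ℕ} {G : E n → ℝ} (hG : Integrable G) (hGm : Measurable G)
    (hG0 : ∀ η, 0 ≤ G η) {N : ℕ} (hN : 0 < N) {δ : ℝ} (hδ : 0 < δ) {B₁ B₂ : E n → ℝ≥0∞}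
    (hB₁ : Measurable B₁) (hB₂ : Measurable B₂)
    (hK₁ : ∀ z : E n, ‖z‖ < 2 * r → ∀ t : ℝ, |t| ≤ δ → ‖Ker G z t‖ₑ ≤ B₁ z)
    (hK₂ : ∀ z : E n, ‖z‖ < 2 * r → ∀ t : ℝ, N * δ ≤ |t| → ‖Ker G z t‖ₑ ≤ B₂ z)
    {S₁ S₂ : ℝ≥0∞} (hS₁ : ∫⁻ z in Metric.ball 0 (2 * r), B₁ z ≤ S₁)
    (hS₂ : ∫⁻ z in Metric.ball 0 (2 * r), B₂ z ≤ S₂) :
    TTr r (fun η => ENNReal.ofReal (G η)) (2 * (N * S₁ + S₂)) := by
  intro A s h a
  -- the index of the fine block
  set p : E n → ℕ := fun x => ⌊(s x + r) / δ⌋₊ with hp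
  have hpm : Measurable p := Nat.measurable_floor.comp ((a.ms.add_const _).div_const _)
  have hs0 : ∀ x, 0 ≤ s x + r := fun x => by
    have := (abs_le.1 (a.bs x)).1
    linarith
  have hp1 : ∀ x, (p x : ℝ) * δ ≤ s x + r := by
    intro x
    have h1 : (p x : ℝ) ≤ (s x + r) / δ := Nat.floor_le (div_nonneg (hs0 x) hδ.le)
    rwa [le_div_iff₀ hδ] at h1
  have hp2 : ∀ x, s x + r < (p x + 1 : ℝ) * δ := by
    intro x
    have h1 : (s x + r) / δ < (p x : ℝ) + 1 := Nat.lt_floor_add_one _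
    rwa [div_lt_iff₀ hδ] at h1
  set P : ℕ := ⌊(2 * r : ℝ) / δ⌋₊ + 1 with hPd
  have hpP : ∀ x, p x < P := by
    intro x
    rw [hPd, Nat.lt_succ_iff]
    refine Nat.floor_le_floor ?_
    have := (abs_le.1 (a.bs x)).2
    gcongr
    linarith
  -- coarse blocks and their parity
  have hNm : Measurable fun x => p x / N := hpm.div_const N
  have hπm : Measurable fun x => p x / N % 2 := (Measurable.of_discrete (f := fun m : ℕ => m % 2)).comp hNm
  have hrm : Measurable fun x => p x % N := (Measurable.of_discrete (f := fun m : ℕ => m % N)).comp hpm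
  have key : ∀ i ∈ Finset.range 2, ∫⁻ η, ENNReal.ofReal (G η) *
      ‖Phi (A ∩ {x | p x / N % 2 = i}) s h η‖ₑ ^ 2 ≤
      (N * S₁ + S₂) * volume (A ∩ {x | p x / N % 2 = i}) := by
    intro i _
    set A' : Set (E n) := A ∩ {x | p x / N % 2 = i} with hA'
    have a' : Adm r A' s h := a.inter (hπm (measurableSet_singleton i))
    refine (coarse hG hGm hG0 a' (q := fun x => p x / N) hNm (M := P) ?_ hB₂ ?_ hS₂).trans ?_
    · intro x _
      exact lt_of_le_of_lt (Nat.div_le_self _ _) (hpP x)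
    · intro x hx y hy hxy
      refine hK₂ _ (diff_lt a'.sub hx hy) _ ?_
      have hxi : p x / N % 2 = i := hx.2
      have hyi : p y / N % 2 = i := hy.2
      have gen : ∀ u v : E n, p u / N < p v / N → p u / N % 2 = p v / N % 2 →
          N * δ ≤ |s u - s v| := by
        intro u v h1 h2
        have h3 : p u / N + 2 ≤ p v / N := by omega
        have h4 : p u + 1 + N ≤ p v := by
          have h5 : p u < (p u / N + 1) * N := by
            have := Nat.lt_mul_div_succ (p u) hN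
            rwa [mul_comm] at this
          have h6 : (p u / N + 2) * N ≤ p v := (Nat.le_div_iff_mul_le hN).1 h3
          have h7 : (p u / N + 2) * N = (p u / N + 1) * N + N := by ring
          omega
        have h8 : ((p u + 1 + N : ℕ) : ℝ) ≤ p v := by exact_mod_cast h4
        push_cast at h8
        have h9 : ((p u : ℝ) + 1 + N) * δ ≤ p v * δ := by gcongr
        have h10 := hp1 v
        have h11 := hp2 u
        rw [abs_sub_comm]
        refine le_trans ?_ (le_abs_self _)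
        nlinarith
      rcases Nat.lt_or_gt_of_ne hxy with h1 | h1
      · exact gen x y h1 (hxi.trans hyi.symm)
      · rw [abs_sub_comm]
        exact gen y x h1 (hyi.trans hxi.symm)
    · have h1 : ∀ m ∈ Finset.range P, ∫⁻ η, ENNReal.ofReal (G η) *
          ‖Phi (A' ∩ {x | p x / N = m}) s h η‖ₑ ^ 2 ≤
          (N : ℝ≥0∞) * S₁ * volume (A' ∩ {x | p x / N = m}) := by
        intro m _
        have a'' : Adm r (A' ∩ {x | p x / N = m}) s h := a'.inter (hNm (measurableSet_singleton m))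
        refine pieces hGm a'' (q := fun x => p x % N) hrm (M := N)
          (fun x _ => Nat.mod_lt _ hN) fun j _ => ?_
        have a3 : Adm r (A' ∩ {x | p x / N = m} ∩ {x | p x % N = j}) s h :=
          a''.inter (hrm (measurableSet_singleton j))
        refine one_block hG hGm hG0 a3 hB₁ (fun x hx y hy => ?_) hS₁
        refine hK₁ _ (diff_lt a3.sub hx hy) _ ?_
        have e : p x = p y := by
          have hx1 : p x / N = m := hx.1.2
          have hx2 : p x % N = j := hx.2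
          have hy1 : p y / N = m := hy.1.2
          have hy2 : p y % N = j := hy.2
          rw [← Nat.div_add_mod (p x) N, ← Nat.div_add_mod (p y) N, hx1, hx2, hy1, hy2]
        have h3 := hp1 x
        have h4 := hp2 x
        have h5 := hp1 y
        have h6 := hp2 y
        rw [e] at h3 h4
        rw [abs_le]
        constructor <;> nlinarith
      calc _ ≤ ∑ m ∈ Finset.range P, (N : ℝ≥0∞) * S₁ * volume (A' ∩ {x | p x / N = m}) +
            S₂ * volume A' := by
              gcongr with m hm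
              exact h1 m hm
        _ = (N : ℝ≥0∞) * S₁ * ∑ m ∈ Finset.range P, volume (A' ∩ {x | p x / N = m}) +
            S₂ * volume A' := by rw [Finset.mul_sum]
        _ ≤ (N : ℝ≥0∞) * S₁ * volume A' + S₂ * volume A' := by
            gcongr
            exact volsum a'.mA hNm P
        _ = _ := by ring
  have h2 := pieces hGm a (q := fun x => p x / N % 2) hπm (M := 2)
    (fun x _ => Nat.mod_lt _ (by norm_num)) key
  exact_mod_cast h2

end Vale.Agent.P076.R2.H831.V2
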