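import Vale.Agent.P076.R2.H831.Rad

/-!
# P076 : the maximal estimate from the local density of the inverse weight on spheres
-/

open MeasureTheory Complex FourierTransform Filter Topology Set
open scoped ENNReal NNReal ComplexConjugate

namespace Vale.Agent.P076.R2.H831

open Vale.Agent.P076 Vale.Agent.P076.H791

variable {n : ℕ}

lemma amgm {a b A A' : ℝ≥0∞} (ha : a ≠ ⊤) (hb : b ≠ ⊤) (hA0 : A ≠ 0) (hA : A ≠ ⊤)
    (hA0' : A' ≠ 0) (hA' : A' ≠ ⊤) :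
    a * b ≤ 2⁻¹ * (A * a ^ 2 * A'⁻¹) + 2⁻¹ * (A' * b ^ 2 * A⁻¹) := by
  lift a to ℝ≥0 using ha
  lift b to ℝ≥0 using hb
  lift A to ℝ≥0 using hA
  lift A' to ℝ≥0 using hA'
  have h1 : A ≠ 0 := by exact_mod_cast hA0
  have h2 : A' ≠ 0 := by exact_mod_cast hA0'
  have h3 : (0 : ℝ) < A := lt_of_le_of_ne A.coe_nonneg (by exact_mod_cast h1.symm)
  have h4 : (0 : ℝ) < A' := lt_of_le_of_ne A'.coe_nonneg (by exact_mod_cast h2.symm)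
  have e2 : (2 : ℝ≥0∞)⁻¹ = ((2⁻¹ : ℝ≥0) : ℝ≥0∞) := by simp
  rw [← ENNReal.coe_inv h1, ← ENNReal.coe_inv h2, e2]
  norm_cast
  rw [← NNReal.coe_le_coe]
  push_cast
  have h5 : 0 ≤ (A * a - A' * b : ℝ) ^ 2 / (2 * A * A') := by positivity
  have h6 : (2 : ℝ)⁻¹ * (A * a ^ 2 * (A' : ℝ)⁻¹) + 2⁻¹ * (A' * b ^ 2 * (A : ℝ)⁻¹) - a * b
      = (A * a - A' * b : ℝ) ^ 2 / (2 * A * A') := by
    field_simp
    ring
  linarith

/-- Schur test with a weight -/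
lemma schur_w (ρ : ℝ) {W : Sp n → ℝ≥0∞} (hW : Measurable W) (hW0 : ∀ ω, W ω ≠ 0) {M : ℝ≥0∞}
    (hM : ∀ ω, ∫⁻ ω', ENNReal.ofReal (kr n ρ (ω, ω')) * (W ω')⁻¹ ∂sig n ≤ M) {g : Sp n → ℂ}
    (hg : Measurable g) {B : ℝ} (hB : ∀ ω, ‖g ω‖ ≤ B) (hWg : ∀ᵐ ω ∂sig n, W ω = ⊤ → g ω = 0) :
    ∫⁻ x : E n, ENNReal.ofReal (Real.exp (-‖x‖ ^ 2)) * ‖ext ρ g x‖ₑ ^ 2
      ≤ M * ∫⁻ ω, W ω * ‖g ω‖ₑ ^ 2 ∂sig n := by
  have i1 : Integrable fun x : E n => Real.exp (-‖x‖ ^ 2) * ‖ext ρ g x‖ ^ 2 := by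
    refine integrable_gauss.mul_bdd (c := (B * (sig n).real univ) ^ 2)
      (((stronglyMeasurable_ext ρ hg).norm.pow 2).aestronglyMeasurable)
      (Eventually.of_forall fun x => ?_)
    rw [norm_pow, norm_norm]
    exact pow_le_pow_left₀ (norm_nonneg _) (norm_ext_le ρ hB x) 2
  have h0 : 0 ≤ ∫ x : E n, Real.exp (-‖x‖ ^ 2) * ‖ext ρ g x‖ ^ 2 :=
    integral_nonneg fun x => by positivity
  have e1 : ∫⁻ x : E n, ENNReal.ofReal (Real.exp (-‖x‖ ^ 2)) * ‖ext ρ g x‖ₑ ^ 2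
      = ‖((∫ x : E n, Real.exp (-‖x‖ ^ 2) * ‖ext ρ g x‖ ^ 2 : ℝ) : ℂ)‖ₑ := by
    rw [← ofReal_norm, Complex.norm_real, Real.norm_eq_abs, abs_of_nonneg h0,
      ofReal_integral_eq_lintegral_ofReal i1 (Eventually.of_forall fun x => by positivity)]
    refine lintegral_congr fun x => ?_
    rw [ENNReal.ofReal_mul (Real.exp_pos _).le, ENNReal.ofReal_pow (norm_nonneg _), ofReal_norm]
  have hkm : Measurable fun p : Sp n × Sp n => ENNReal.ofReal (kr n ρ p) :=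
    (continuous_kr ρ).measurable.ennreal_ofReal
  set F : Sp n × Sp n → ℝ≥0∞ := fun p => ENNReal.ofReal (kr n ρ p) *
    (W p.1 * ‖g p.1‖ₑ ^ 2 * (W p.2)⁻¹) with hF
  have hFm : Measurable F := hkm.mul (((hW.comp measurable_fst).mul
    ((hg.comp measurable_fst).enorm.pow_const 2)).mul (hW.comp measurable_snd).inv)
  have hae : ∀ᵐ p : Sp n × Sp n ∂((sig n).prod (sig n)), (W p.1 = ⊤ → g p.1 = 0) ∧
      (W p.2 = ⊤ → g p.2 = 0) := by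
    have q1 := Measure.quasiMeasurePreserving_fst (μ := sig n) (ν := sig n)
    have q2 := Measure.quasiMeasurePreserving_snd (μ := sig n) (ν := sig n)
    filter_upwards [q1.ae hWg, q2.ae hWg] with p h1 h2
    exact ⟨h1, h2⟩
  have hpt : ∀ᵐ p : Sp n × Sp n ∂((sig n).prod (sig n)),
      ‖((kr n ρ p : ℝ) : ℂ) * (g p.1 * conj (g p.2))‖ₑ ≤ 2⁻¹ * F p + 2⁻¹ * F p.swap := by
    filter_upwards [hae] with p hp
    have e3 : ‖((kr n ρ p : ℝ) : ℂ) * (g p.1 * conj (g p.2))‖ₑ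
        = ENNReal.ofReal (kr n ρ p) * (‖g p.1‖ₑ * ‖g p.2‖ₑ) := by
      rw [enorm_mul, enorm_mul, ← ofReal_norm, Complex.norm_real, Real.norm_eq_abs,
        abs_of_nonneg (kr_nonneg ρ p)]
      congr 2
      rw [← ofReal_norm, RCLike.norm_conj, ofReal_norm]
    have e4 : 2⁻¹ * F p + 2⁻¹ * F p.swap = ENNReal.ofReal (kr n ρ p) *
        (2⁻¹ * (W p.1 * ‖g p.1‖ₑ ^ 2 * (W p.2)⁻¹) + 2⁻¹ * (W p.2 * ‖g p.2‖ₑ ^ 2 * (W p.1)⁻¹)) := by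
      simp only [hF, kr_swap, Prod.fst_swap, Prod.snd_swap]
      ring
    rw [e3, e4]
    refine mul_le_mul_right ?_ _
    by_cases h1 : g p.1 = 0
    · rw [h1, enorm_zero, zero_mul]
      exact zero_le
    by_cases h2 : g p.2 = 0
    · rw [h2, enorm_zero, mul_zero]
      exact zero_le
    exact amgm enorm_ne_top enorm_ne_top (hW0 _) (fun h => h1 (hp.1 h)) (hW0 _)
      (fun h => h2 (hp.2 h))
  rw [e1, int_ext_sq ρ hg hB]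
  refine (enorm_integral_le_lintegral_enorm _).trans ((lintegral_mono_ae hpt).trans ?_)
  have e5 : ∫⁻ p, F p.swap ∂((sig n).prod (sig n)) = ∫⁻ p, F p ∂((sig n).prod (sig n)) :=
    lintegral_prod_swap F
  have hFm' : Measurable fun p : Sp n × Sp n => F p.swap := hFm.comp measurable_swap
  rw [lintegral_add_left (hFm.const_mul _), lintegral_const_mul _ hFm,
    lintegral_const_mul _ hFm', e5, ← add_mul, ENNReal.inv_two_add_inv_two,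
    one_mul, lintegral_prod _ hFm.aemeasurable]
  have e6 : ∀ ω : Sp n, ∫⁻ ω', F (ω, ω') ∂sig n = (W ω * ‖g ω‖ₑ ^ 2) *
      ∫⁻ ω', ENNReal.ofReal (kr n ρ (ω, ω')) * (W ω')⁻¹ ∂sig n := by
    intro ω
    have hm : Measurable fun ω' => ENNReal.ofReal (kr n ρ (ω, ω')) * (W ω')⁻¹ :=
      (hkm.comp measurable_prodMk_left).mul hW.inv
    rw [← lintegral_const_mul _ hm]
    refine lintegral_congr fun ω' => ?_
    simp only [hF]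
    ring
  simp_rw [e6]
  have hWgm : Measurable fun ω => W ω * ‖g ω‖ₑ ^ 2 := hW.mul (hg.enorm.pow_const 2)
  rw [← lintegral_const_mul _ hWgm]
  refine lintegral_mono fun ω => ?_
  rw [mul_comm]
  exact mul_le_mul_left (hM ω) _

/-- the weighted spherical energies -/
noncomputable def SW (w : E n → ℝ≥0∞) (G : E n → ℂ) (ρ : Ioi (0 : ℝ)) : ℝ≥0∞ :=
  ∫⁻ ω : Sp n, w (ρ.1 • ω.1) * ‖G (ρ.1 • ω.1)‖ₑ ^ 2 ∂sig n

lemma measurable_slice_w {w : E n → ℝ≥0∞} (hw : Measurable w) (ρ : ℝ) :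
    Measurable fun ω : Sp n => w (ρ • ω.1) := by
  have c2 : Continuous fun ω : Sp n => (ρ • ω.1 : E n) := by fun_prop
  exact hw.comp c2.measurable

lemma measurable_SW {w : E n → ℝ≥0∞} (hw : Measurable w) {G : E n → ℂ} (hG : Measurable G) :
    Measurable (SW w G) := by
  have c2 : Continuous fun q : Ioi (0 : ℝ) × Sp n => (q.1.1 • q.2.1 : E n) := by fun_prop
  exact ((hw.comp c2.measurable).mul
    ((hG.comp c2.measurable).enorm.pow_const 2)).lintegral_prod_right'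

lemma En_polar (hn : 1 ≤ n) {w : E n → ℝ≥0∞} (hw : Measurable w) {G : E n → ℂ}
    (hG : Measurable G) : En w G = ∫⁻ ρ, SW w G ρ ∂nu n := by
  have hm : Measurable fun η : E n => w η * ‖G η‖ₑ ^ 2 := hw.mul (hG.enorm.pow_const 2)
  unfold En
  rw [lint_polar hn hm]
  rfl

/-- the slices vanish where the weight is infinite -/
lemma slice_zero {w : E n → ℝ≥0∞} (hw : Measurable w) {G : E n → ℂ} (hG : Measurable G)
    {ρ : Ioi (0 : ℝ)} (h : SW w G ρ < ⊤) :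
    ∀ᵐ ω ∂sig n, w (ρ.1 • ω.1) = ⊤ → G (ρ.1 • ω.1) = 0 := by
  have hm : Measurable fun ω : Sp n => w (ρ.1 • ω.1) * ‖G (ρ.1 • ω.1)‖ₑ ^ 2 :=
    (measurable_slice_w hw ρ.1).mul ((measurable_slice hG ρ.1).enorm.pow_const 2)
  filter_upwards [ae_lt_top hm h.ne] with ω hω ht
  by_contra hne
  rw [ht, ENNReal.top_mul (by simpa using hne)] at hω
  exact lt_irrefl _ hω

/-- the density condition with a majorant `m` -/
def DensB (w : E n → ℝ≥0∞) (m : ℝ → ℝ≥0∞) : Prop := ∀ ρ : ℝ, 0 < ρ → ∀ ω : Sp n,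
  ENNReal.ofReal (ρ ^ (n - 1)) *
    ∫⁻ ω', ENNReal.ofReal (kr n ρ (ω, ω')) * (w (ρ • ω'.1))⁻¹ ∂sig n ≤ m ρ

lemma dens_s3 {w : E n → ℝ≥0∞} (hw : Measurable w) (hw0 : ∀ η, w η ≠ 0) {m : ℝ → ℝ≥0∞}
    (hM : DensB w m) {G : E n → ℂ} (hG : Measurable G) {B : ℝ} (hB : ∀ η, ‖G η‖ ≤ B)
    {ρ : Ioi (0 : ℝ)} (h : SW w G ρ < ⊤) :
    ∫⁻ x : E n, ENNReal.ofReal (Real.exp (-‖x‖ ^ 2)) *
      ((m ρ.1)⁻¹ * kk n ρ * ‖pro G x ρ‖ₑ ^ 2) ≤ SW w G ρ := by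
  have h1 := schur_w ρ.1 (measurable_slice_w hw ρ.1) (fun ω => hw0 _)
    (M := (kk n ρ)⁻¹ * m ρ.1) (fun ω => by
      have h2 := hM ρ.1 ρ.2 ω
      rw [mul_comm (kk n ρ)⁻¹, ← div_eq_mul_inv]
      exact (ENNReal.le_div_iff_mul_le (Or.inl (kk_ne_zero ρ)) (Or.inl (kk_ne_top ρ))).2
        ((mul_comm _ _).le.trans h2))
    (measurable_slice hG ρ.1) (B := B) (fun ω => hB _) (slice_zero hw hG h)
  have e1 : ∀ x : E n, ENNReal.ofReal (Real.exp (-‖x‖ ^ 2)) *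
      ((m ρ.1)⁻¹ * kk n ρ * ‖pro G x ρ‖ₑ ^ 2)
      = (m ρ.1)⁻¹ * kk n ρ * (ENNReal.ofReal (Real.exp (-‖x‖ ^ 2)) * ‖pro G x ρ‖ₑ ^ 2) :=
    fun x => by ring
  have hm : Measurable fun x : E n => ENNReal.ofReal (Real.exp (-‖x‖ ^ 2)) * ‖pro G x ρ‖ₑ ^ 2 :=
    measurable_W.mul ((measurable_pro_left hG ρ).enorm.pow_const 2)
  simp_rw [e1]
  rw [lintegral_const_mul _ hm]
  calc (m ρ.1)⁻¹ * kk n ρ *
        ∫⁻ x : E n, ENNReal.ofReal (Real.exp (-‖x‖ ^ 2)) * ‖pro G x ρ‖ₑ ^ 2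
      ≤ (m ρ.1)⁻¹ * kk n ρ * ((kk n ρ)⁻¹ * m ρ.1 * SW w G ρ) := mul_le_mul_right h1 _
    _ = ((m ρ.1)⁻¹ * m ρ.1) * (kk n ρ * (kk n ρ)⁻¹) * SW w G ρ := by ring
    _ ≤ 1 * 1 * SW w G ρ := by
        gcongr
        · exact ENNReal.inv_mul_le_one _
        · exact ENNReal.mul_inv_le_one _
    _ = SW w G ρ := by ring

lemma dens_cs {m : ℝ → ℝ≥0∞} (hm : Measurable m) (hm0 : ∀ ρ, m ρ ≠ 0)
    (hmi : ∫⁻ ρ in Ioi 0, m ρ ≠ ⊤) {G : E n → ℂ} (hG : Measurable G) (x : E n) :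
    dom G x ^ 2 ≤ (∫⁻ ρ in Ioi 0, m ρ) *
      ∫⁻ ρ, (m ρ.1)⁻¹ * kk n ρ * ‖pro G x ρ‖ₑ ^ 2 ∂nu n := by
  have hv : Measurable fun ρ => (m ρ)⁻¹ := hm.inv
  have hv'm : Measurable fun ρ : Ioi (0 : ℝ) => (m ρ.1)⁻¹ := hv.comp measurable_subtype_coe
  have e1 := rad_inv (n := n) hv
  simp only [inv_inv] at e1
  rw [← e1] at hmi ⊢
  have hum : Measurable fun ρ : Ioi (0 : ℝ) => (m ρ.1)⁻¹ * kk n ρ := hv'm.mul measurable_kk
  unfold dom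
  refine cs_weight (measurable_pro_right hG x).enorm.aemeasurable hum.aemeasurable ?_ ?_
  · filter_upwards [ae_lt_top hum.inv hmi] with ρ hρ h0
    rw [Pi.inv_apply, h0, ENNReal.inv_zero] at hρ
    exact lt_irrefl _ hρ
  · refine Eventually.of_forall fun ρ ht => ?_
    exact absurd ht (ENNReal.mul_ne_top (by simpa using hm0 _) (kk_ne_top ρ))

/-- the maximal bound from the density condition -/
theorem dens_bound (hn : 1 ≤ n) {w : E n → ℝ≥0∞} (hw : Measurable w) (hw0 : ∀ η, w η ≠ 0)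
    {m : ℝ → ℝ≥0∞} (hm : Measurable m) (hm0 : ∀ ρ, m ρ ≠ 0) (hmi : ∫⁻ ρ in Ioi 0, m ρ ≠ ⊤)
    (hM : DensB w m) {G : E n → ℂ} (hG : Measurable G) {B : ℝ} (hB : ∀ η, ‖G η‖ ≤ B)
    (hE : En w G ≠ ⊤) :
    ∫⁻ x : E n, ENNReal.ofReal (Real.exp (-‖x‖ ^ 2)) * dom G x ^ 2
      ≤ (∫⁻ ρ in Ioi 0, m ρ) * En w G := by
  have hv : Measurable fun ρ => (m ρ)⁻¹ := hm.inv
  have hv'm : Measurable fun ρ : Ioi (0 : ℝ) => (m ρ.1)⁻¹ := hv.comp measurable_subtype_coe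
  rw [En_polar hn hw hG] at hE ⊢
  have hae : ∀ᵐ ρ ∂nu n, SW w G ρ < ⊤ := ae_lt_top (measurable_SW hw hG) hE
  have s1 : ∀ x : E n, ENNReal.ofReal (Real.exp (-‖x‖ ^ 2)) *
      ((∫⁻ ρ in Ioi 0, m ρ) * ∫⁻ ρ, (m ρ.1)⁻¹ * kk n ρ * ‖pro G x ρ‖ₑ ^ 2 ∂nu n)
      = (∫⁻ ρ in Ioi 0, m ρ) * ∫⁻ ρ, ENNReal.ofReal (Real.exp (-‖x‖ ^ 2)) *
          ((m ρ.1)⁻¹ * kk n ρ * ‖pro G x ρ‖ₑ ^ 2) ∂nu n := by
    intro x
    have hm1 : Measurable fun ρ : Ioi (0 : ℝ) => (m ρ.1)⁻¹ * kk n ρ * ‖pro G x ρ‖ₑ ^ 2 :=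
      (hv'm.mul measurable_kk).mul ((measurable_pro_right hG x).enorm.pow_const 2)
    rw [lintegral_const_mul _ hm1]
    ring
  have hjm := measurable_joint hv hG
  have s2 : ∫⁻ x : E n, (∫⁻ ρ, ENNReal.ofReal (Real.exp (-‖x‖ ^ 2)) *
          ((m ρ.1)⁻¹ * kk n ρ * ‖pro G x ρ‖ₑ ^ 2) ∂nu n)
      = ∫⁻ ρ, (∫⁻ x : E n, ENNReal.ofReal (Real.exp (-‖x‖ ^ 2)) *
          ((m ρ.1)⁻¹ * kk n ρ * ‖pro G x ρ‖ₑ ^ 2)) ∂nu n :=
    lintegral_lintegral_swap hjm.aemeasurable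
  have hjx : Measurable fun x : E n => ∫⁻ ρ, ENNReal.ofReal (Real.exp (-‖x‖ ^ 2)) *
          ((m ρ.1)⁻¹ * kk n ρ * ‖pro G x ρ‖ₑ ^ 2) ∂nu n := hjm.lintegral_prod_right'
  calc ∫⁻ x : E n, ENNReal.ofReal (Real.exp (-‖x‖ ^ 2)) * dom G x ^ 2
      ≤ ∫⁻ x : E n, ENNReal.ofReal (Real.exp (-‖x‖ ^ 2)) *
          ((∫⁻ ρ in Ioi 0, m ρ) * ∫⁻ ρ, (m ρ.1)⁻¹ * kk n ρ * ‖pro G x ρ‖ₑ ^ 2 ∂nu n) :=
        lintegral_mono fun x => mul_le_mul_right (dens_cs hm hm0 hmi hG x) _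
    _ = (∫⁻ ρ in Ioi 0, m ρ) * ∫⁻ ρ, (∫⁻ x : E n, ENNReal.ofReal (Real.exp (-‖x‖ ^ 2)) *
          ((m ρ.1)⁻¹ * kk n ρ * ‖pro G x ρ‖ₑ ^ 2)) ∂nu n := by
        simp_rw [s1]
        rw [lintegral_const_mul _ hjx, s2]
    _ ≤ (∫⁻ ρ in Ioi 0, m ρ) * ∫⁻ ρ, SW w G ρ ∂nu n := by
        refine mul_le_mul_right (lintegral_mono_ae ?_) _
        filter_upwards [hae] with ρ hρ
        exact dens_s3 hw hw0 hM hG hB hρ

/-- **`MP` from the density condition** -/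
theorem MP_density (hn : 1 ≤ n) {w : E n → ℝ≥0∞} (hw : Measurable w) (hw0 : ∀ η, w η ≠ 0)
    {m : ℝ → ℝ≥0∞} (hm : Measurable m) (hmi : ∫⁻ ρ in Ioi 0, m ρ ≠ ⊤) (hM : DensB w m) :
    MP w := by
  -- a positive majorant
  set m' : ℝ → ℝ≥0∞ := fun ρ => m ρ + ENNReal.ofReal (1 + ρ ^ 2)⁻¹ with hm'
  have hm'm : Measurable m' := hm.add (by fun_prop)
  have hm'0 : ∀ ρ, m' ρ ≠ 0 := by
    intro ρ h
    have h1 := (add_eq_zero.1 h).2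
    rw [ENNReal.ofReal_eq_zero] at h1
    have h2 : (0 : ℝ) < (1 + ρ ^ 2)⁻¹ := by positivity
    linarith
  have hm'i : ∫⁻ ρ in Ioi 0, m' ρ ≠ ⊤ := by
    rw [lintegral_add_left hm]
    refine ENNReal.add_ne_top.2 ⟨hmi, ?_⟩
    exact (integrable_inv_one_add_sq.integrableOn.lintegral_lt_top).ne
  have hM' : DensB w m' := fun ρ hρ ω => (hM ρ hρ ω).trans le_self_add
  intro r ε hε
  set K : ℝ≥0∞ := (∫⁻ ρ in Ioi 0, m' ρ) + 1 with hK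
  have hKt : K ≠ ⊤ := by
    simp only [hK]
    finiteness
  have hK0 : K ≠ 0 := by simp [hK]
  set c : ℝ≥0∞ := ENNReal.ofReal (Real.exp (-(r : ℝ) ^ 2) * ε ^ 2) with hc
  have hc0 : c ≠ 0 := by
    simp only [hc, ne_eq, ENNReal.ofReal_eq_zero, not_le]
    positivity
  have hct : c ≠ ⊤ := ENNReal.ofReal_ne_top
  refine ⟨ENNReal.ofReal ε * c / K, ENNReal.div_pos (mul_ne_zero (by simpa using hε) hc0) hKt,
    fun G hG hEn => ?_⟩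
  obtain ⟨B, hB⟩ := hG.bdd
  have h1 := dens_bound hn hw hw0 hm'm hm'0 hm'i hM' hG.meas hB hG.en.ne
  have hW : Measurable fun x : E n => ENNReal.ofReal (Real.exp (-‖x‖ ^ 2)) * dom G x ^ 2 :=
    (by fun_prop : Measurable fun x : E n => ENNReal.ofReal (Real.exp (-‖x‖ ^ 2))).mul
      ((measurable_dom hG.meas).pow_const 2)
  have h2 := mul_meas_ge_le_lintegral (μ := (volume : Measure (E n))) hW c
  have h3 : mset G (Ioo (-(r : ℝ)) r) ε ∩ Metric.ball 0 r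
      ⊆ {x : E n | c ≤ ENNReal.ofReal (Real.exp (-‖x‖ ^ 2)) * dom G x ^ 2} := by
    rintro x ⟨⟨s, -, hs⟩, hx⟩
    rw [mem_ball_zero_iff] at hx
    simp only [Set.mem_ofPred_eq, hc]
    rw [ENNReal.ofReal_mul (Real.exp_pos _).le, ENNReal.ofReal_pow hε.le]
    refine mul_le_mul' (ENNReal.ofReal_le_ofReal (Real.exp_le_exp.2 ?_)) (pow_le_pow_left' ?_ 2)
    · have : ‖x‖ ^ 2 ≤ (r : ℝ) ^ 2 := pow_le_pow_left₀ (norm_nonneg _) hx.le 2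
      linarith
    · refine le_trans ?_ (evo_le_dom hn hG.integrable x s)
      rw [← ofReal_norm]
      exact ENNReal.ofReal_le_ofReal hs.le
  have h4 : c * volume (mset G (Ioo (-(r : ℝ)) r) ε ∩ Metric.ball 0 r) ≤ c * ENNReal.ofReal ε := by
    calc c * volume (mset G (Ioo (-(r : ℝ)) r) ε ∩ Metric.ball 0 r)
        ≤ c * volume {x : E n | c ≤ ENNReal.ofReal (Real.exp (-‖x‖ ^ 2)) * dom G x ^ 2} :=
          mul_le_mul_right (measure_mono h3) _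
      _ ≤ _ := h2
      _ ≤ _ := h1
      _ ≤ K * (ENNReal.ofReal ε * c / K) :=
          mul_le_mul' (by rw [hK]; exact le_self_add) hEn
      _ = c * ENNReal.ofReal ε := by
          rw [ENNReal.mul_div_cancel hK0 hKt, mul_comm]
  exact (ENNReal.mul_le_mul_iff_right hc0 hct).1 h4

end Vale.Agent.P076.R2.H831
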