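import Vale.Agent.P076.R2.H831.Pol

/-!
# P076 : the local bound for the extension operator of the sphere, by a Gaussian Schur test
-/

open MeasureTheory Complex FourierTransform Filter Topology Set
open scoped ENNReal NNReal ComplexConjugate

namespace Vale.Agent.P076.R2.H831

open Vale.Agent.P076 Vale.Agent.P076.H791

variable {n : ℕ}

/-- the kernel bound on the sphere -/
def SphG (n : ℕ) : Prop := ∀ a : ℝ, 0 < a → ∀ ω : Sp n,
  ∫ ω' : Sp n, Real.exp (-(a * ‖(ω : E n) - ω'‖ ^ 2)) ∂sig n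
    ≤ n * (Real.exp 1 * (√Real.pi * √(Real.pi / a) ^ (n - 1)))

/-- the oscillating factor on the sphere of radius `ρ` -/
noncomputable def os (ρ : ℝ) (x : E n) (ω : Sp n) : ℂ :=
  cexp (((2 * Real.pi * (ρ * inner ℝ x (ω : E n)) : ℝ) : ℂ) * I)

lemma norm_os (ρ : ℝ) (x : E n) (ω : Sp n) : ‖os ρ x ω‖ = 1 := by
  rw [os, Complex.norm_exp_ofReal_mul_I]

lemma continuous_os (ρ : ℝ) : Continuous fun q : E n × Sp n => os ρ q.1 q.2 := by
  unfold os
  fun_prop

/-- the extension operator -/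
noncomputable def ext (ρ : ℝ) (g : Sp n → ℂ) (x : E n) : ℂ := ∫ ω, os ρ x ω * g ω ∂sig n

/-- the kernel -/
noncomputable def kr (n : ℕ) (ρ : ℝ) (p : Sp n × Sp n) : ℝ :=
  Real.pi ^ ((n : ℝ) / 2) * Real.exp (-((Real.pi * ρ) ^ 2 * ‖(p.1 : E n) - p.2‖ ^ 2))

lemma kr_nonneg (ρ : ℝ) (p : Sp n × Sp n) : 0 ≤ kr n ρ p := by
  unfold kr
  positivity

lemma continuous_kr (ρ : ℝ) : Continuous (kr n ρ) := by
  unfold kr
  fun_prop

lemma kr_le (ρ : ℝ) (p : Sp n × Sp n) : kr n ρ p ≤ Real.pi ^ ((n : ℝ) / 2) := by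
  unfold kr
  refine mul_le_of_le_one_right (by positivity) ?_
  rw [Real.exp_le_one_iff]
  have : 0 ≤ (Real.pi * ρ) ^ 2 * ‖(p.1 : E n) - p.2‖ ^ 2 := by positivity
  linarith

lemma kr_swap (ρ : ℝ) (p : Sp n × Sp n) : kr n ρ p.swap = kr n ρ p := by
  unfold kr
  rw [Prod.fst_swap, Prod.snd_swap, norm_sub_rev]

/-- the Gaussian Fourier transform -/
lemma gauss_ft (ξ : E n) : ∫ x : E n, ((Real.exp (-‖x‖ ^ 2) : ℝ) : ℂ) *
      cexp (((2 * Real.pi * inner ℝ x ξ : ℝ) : ℂ) * I)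
    = ((Real.pi ^ ((n : ℝ) / 2) * Real.exp (-(Real.pi ^ 2 * ‖ξ‖ ^ 2)) : ℝ) : ℂ) := by
  have h := GaussianFourier.integral_cexp_neg_mul_sq_norm_add (V := E n) (b := 1) (by simp)
    (2 * Real.pi * I) ξ
  have e1 : ∀ x : E n, ((Real.exp (-‖x‖ ^ 2) : ℝ) : ℂ) *
      cexp (((2 * Real.pi * inner ℝ x ξ : ℝ) : ℂ) * I)
      = cexp (-1 * (‖x‖ : ℂ) ^ 2 + 2 * Real.pi * I * (inner ℝ ξ x : ℝ)) := by
    intro x
    rw [Complex.ofReal_exp, ← Complex.exp_add, real_inner_comm]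
    congr 1
    push_cast
    ring
  simp_rw [e1]
  rw [h]
  have hd : Module.finrank ℝ (E n) = n := by simp
  rw [hd, div_one, Complex.ofReal_mul, Complex.ofReal_cpow Real.pi_pos.le, Complex.ofReal_exp]
  congr 2
  · push_cast
    ring
  · push_cast
    rw [mul_pow, Complex.I_sq]
    ring

lemma os_mul_conj (ρ : ℝ) (x : E n) (ω ω' : Sp n) : os ρ x ω * conj (os ρ x ω')
    = cexp (((2 * Real.pi * inner ℝ x (ρ • ((ω : E n) - ω')) : ℝ) : ℂ) * I) := by
  rw [os, os, ← Complex.exp_conj, ← Complex.exp_add]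
  congr 1
  rw [inner_smul_right, inner_sub_right]
  simp only [map_mul, Complex.conj_ofReal, Complex.conj_I]
  push_cast
  ring

lemma gauss_os (ρ : ℝ) (ω ω' : Sp n) : ∫ x : E n, ((Real.exp (-‖x‖ ^ 2) : ℝ) : ℂ) *
      (os ρ x ω * conj (os ρ x ω')) = ((kr n ρ (ω, ω') : ℝ) : ℂ) := by
  simp_rw [os_mul_conj]
  rw [gauss_ft, kr, norm_smul, mul_pow, mul_pow, Real.norm_eq_abs, sq_abs]
  congr 3
  ring

lemma integrable_gauss : Integrable fun x : E n => Real.exp (-‖x‖ ^ 2) := by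
  have h := (GaussianFourier.integrable_cexp_neg_mul_sq_norm_add (V := E n) (b := 1) (by simp)
    0 0).norm
  refine h.congr (Eventually.of_forall fun x => ?_)
  simp only [zero_mul, add_zero]
  rw [Complex.norm_exp, show (-1 * (‖x‖ : ℂ) ^ 2) = ((-‖x‖ ^ 2 : ℝ) : ℂ) by push_cast; ring,
    Complex.ofReal_re]

lemma ext_sq (ρ : ℝ) {g : Sp n → ℂ} (x : E n) : ((‖ext ρ g x‖ ^ 2 : ℝ) : ℂ)
    = ∫ p : Sp n × Sp n, (os ρ x p.1 * conj (os ρ x p.2)) * (g p.1 * conj (g p.2))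
        ∂((sig n).prod (sig n)) := by
  have h1 := integral_prod_mul (μ := sig n) (ν := sig n) (fun ω => os ρ x ω * g ω)
    (fun ω => conj (os ρ x ω * g ω))
  rw [integral_conj] at h1
  have h2 : ((‖ext ρ g x‖ ^ 2 : ℝ) : ℂ) = ext ρ g x * conj (ext ρ g x) := by
    rw [Complex.mul_conj, Complex.normSq_eq_norm_sq]
  rw [h2]
  unfold ext
  rw [← h1]
  refine integral_congr_ae (Eventually.of_forall fun p => ?_)
  simp only [map_mul]
  ring

/-- the weighted `L²` norm of the extension -/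
lemma int_ext_sq (ρ : ℝ) {g : Sp n → ℂ} (hg : Measurable g) {B : ℝ} (hB : ∀ ω, ‖g ω‖ ≤ B) :
    ((∫ x : E n, Real.exp (-‖x‖ ^ 2) * ‖ext ρ g x‖ ^ 2 : ℝ) : ℂ)
      = ∫ p : Sp n × Sp n, ((kr n ρ p : ℝ) : ℂ) * (g p.1 * conj (g p.2))
        ∂((sig n).prod (sig n)) := by
  rw [← integral_complex_ofReal]
  have e1 : ∀ x : E n, ((Real.exp (-‖x‖ ^ 2) * ‖ext ρ g x‖ ^ 2 : ℝ) : ℂ)
      = ∫ p : Sp n × Sp n, ((Real.exp (-‖x‖ ^ 2) : ℝ) : ℂ) *
        ((os ρ x p.1 * conj (os ρ x p.2)) * (g p.1 * conj (g p.2))) ∂((sig n).prod (sig n)) := by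
    intro x
    rw [Complex.ofReal_mul, ext_sq, integral_const_mul]
  simp_rw [e1]
  have hB0 : ∀ p : Sp n × Sp n, ‖g p.1 * conj (g p.2)‖ ≤ B * B := fun p => by
    rw [norm_mul, RCLike.norm_conj]
    exact mul_le_mul (hB _) (hB _) (norm_nonneg _) ((norm_nonneg _).trans (hB p.1))
  have hint : Integrable (Function.uncurry fun (x : E n) (p : Sp n × Sp n) =>
      ((Real.exp (-‖x‖ ^ 2) : ℝ) : ℂ) *
        ((os ρ x p.1 * conj (os ρ x p.2)) * (g p.1 * conj (g p.2))))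
      ((volume : Measure (E n)).prod ((sig n).prod (sig n))) := by
    have hb : Integrable (fun q : E n × (Sp n × Sp n) => Real.exp (-‖q.1‖ ^ 2) * (B * B))
        ((volume : Measure (E n)).prod ((sig n).prod (sig n))) :=
      integrable_gauss.mul_prod (integrable_const (B * B))
    refine hb.mono' ?_ (Eventually.of_forall fun q => ?_)
    · have m1 : Measurable fun q : E n × (Sp n × Sp n) => os ρ q.1 q.2.1 :=
        ((continuous_os ρ).comp (by fun_prop : Continuous fun q : E n × (Sp n × Sp n) =>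
          ((q.1, q.2.1) : E n × Sp n))).measurable
      have m2 : Measurable fun q : E n × (Sp n × Sp n) => os ρ q.1 q.2.2 :=
        ((continuous_os ρ).comp (by fun_prop : Continuous fun q : E n × (Sp n × Sp n) =>
          ((q.1, q.2.2) : E n × Sp n))).measurable
      have m3 : Measurable fun q : E n × (Sp n × Sp n) => g q.2.1 := hg.comp (by fun_prop)
      have m4 : Measurable fun q : E n × (Sp n × Sp n) => g q.2.2 := hg.comp (by fun_prop)
      have m5 : Measurable fun q : E n × (Sp n × Sp n) => ((Real.exp (-‖q.1‖ ^ 2) : ℝ) : ℂ) := by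
        fun_prop
      have hc : Measurable fun z : ℂ => conj z := Complex.continuous_conj.measurable
      exact (m5.mul ((m1.mul (hc.comp m2)).mul (m3.mul (hc.comp m4)))).aestronglyMeasurable
    · simp only [Function.uncurry]
      rw [norm_mul, norm_mul, norm_mul (os ρ q.1 q.2.1), RCLike.norm_conj, norm_os, norm_os,
        one_mul, one_mul, Complex.norm_real, Real.norm_eq_abs, abs_of_pos (Real.exp_pos _)]
      exact mul_le_mul_of_nonneg_left (hB0 q.2) (Real.exp_pos _).le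
  rw [integral_integral_swap hint]
  refine integral_congr_ae (Eventually.of_forall fun p => ?_)
  simp only
  have e2 : ∀ x : E n, ((Real.exp (-‖x‖ ^ 2) : ℝ) : ℂ) *
        ((os ρ x p.1 * conj (os ρ x p.2)) * (g p.1 * conj (g p.2)))
      = (((Real.exp (-‖x‖ ^ 2) : ℝ) : ℂ) * (os ρ x p.1 * conj (os ρ x p.2))) *
        (g p.1 * conj (g p.2)) := fun x => by ring
  simp_rw [e2]
  rw [integral_mul_const, gauss_os]

/-- Schur test -/
lemma schur (ρ : ℝ) (M : ℝ) (hM : ∀ ω : Sp n, ∫ ω', kr n ρ (ω, ω') ∂sig n ≤ M) {g : Sp n → ℂ}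
    (hg : Measurable g) {B : ℝ} (hB : ∀ ω, ‖g ω‖ ≤ B) :
    ∫ x : E n, Real.exp (-‖x‖ ^ 2) * ‖ext ρ g x‖ ^ 2 ≤ M * ∫ ω, ‖g ω‖ ^ 2 ∂sig n := by
  have h0 : 0 ≤ ∫ x : E n, Real.exp (-‖x‖ ^ 2) * ‖ext ρ g x‖ ^ 2 :=
    integral_nonneg fun x => by positivity
  have h1 : ∫ x : E n, Real.exp (-‖x‖ ^ 2) * ‖ext ρ g x‖ ^ 2
      = ‖((∫ x : E n, Real.exp (-‖x‖ ^ 2) * ‖ext ρ g x‖ ^ 2 : ℝ) : ℂ)‖ := by
    rw [Complex.norm_real, Real.norm_eq_abs, abs_of_nonneg h0]
  rw [h1, int_ext_sq ρ hg hB]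
  have i1 : Integrable (fun p : Sp n × Sp n => kr n ρ p * ‖g p.1‖ ^ 2) ((sig n).prod (sig n)) := by
    refine Integrable.of_bound (C := Real.pi ^ ((n : ℝ) / 2) * B ^ 2) ?_
      (Eventually.of_forall fun p => ?_)
    · exact ((continuous_kr ρ).measurable.mul
        (((hg.comp measurable_fst).norm).pow_const 2)).aestronglyMeasurable
    · rw [norm_mul, norm_pow, norm_norm, Real.norm_eq_abs, abs_of_nonneg (kr_nonneg ρ p)]
      exact mul_le_mul (kr_le ρ p) (pow_le_pow_left₀ (norm_nonneg _) (hB _) 2) (by positivity)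
        (by positivity)
  have i2 : Integrable (fun p : Sp n × Sp n => kr n ρ p * ‖g p.2‖ ^ 2) ((sig n).prod (sig n)) := by
    have := i1.swap
    refine this.congr (Eventually.of_forall fun p => ?_)
    simp only [Function.comp_def, kr_swap, Prod.fst_swap]
  have e2 : ∫ p : Sp n × Sp n, kr n ρ p * ‖g p.2‖ ^ 2 ∂((sig n).prod (sig n))
      = ∫ p : Sp n × Sp n, kr n ρ p * ‖g p.1‖ ^ 2 ∂((sig n).prod (sig n)) := by
    rw [← integral_prod_swap (fun p : Sp n × Sp n => kr n ρ p * ‖g p.1‖ ^ 2)]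
    refine integral_congr_ae (Eventually.of_forall fun p => ?_)
    simp only [kr_swap, Prod.fst_swap]
  calc ‖∫ p : Sp n × Sp n, ((kr n ρ p : ℝ) : ℂ) * (g p.1 * conj (g p.2)) ∂((sig n).prod (sig n))‖
      ≤ ∫ p : Sp n × Sp n, (1 / 2 * (kr n ρ p * ‖g p.1‖ ^ 2) + 1 / 2 * (kr n ρ p * ‖g p.2‖ ^ 2))
          ∂((sig n).prod (sig n)) := by
        refine norm_integral_le_of_norm_le ((i1.const_mul _).add (i2.const_mul _))
          (Eventually.of_forall fun p => ?_)
        rw [norm_mul, norm_mul, RCLike.norm_conj, Complex.norm_real, Real.norm_eq_abs,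
          abs_of_nonneg (kr_nonneg ρ p)]
        have h3 := kr_nonneg ρ p
        nlinarith [mul_nonneg h3 (sq_nonneg (‖g p.1‖ - ‖g p.2‖))]
    _ = ∫ p : Sp n × Sp n, kr n ρ p * ‖g p.1‖ ^ 2 ∂((sig n).prod (sig n)) := by
        rw [integral_add (i1.const_mul _) (i2.const_mul _), integral_const_mul,
          integral_const_mul, e2]
        ring
    _ = ∫ ω, (∫ ω', kr n ρ (ω, ω') ∂sig n) * ‖g ω‖ ^ 2 ∂sig n := by
        rw [integral_prod _ i1]
        refine integral_congr_ae (Eventually.of_forall fun ω => ?_)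
        simp only
        rw [integral_mul_const]
    _ ≤ ∫ ω, M * ‖g ω‖ ^ 2 ∂sig n := by
        refine integral_mono_of_nonneg (Eventually.of_forall fun ω => ?_) ?_
          (Eventually.of_forall fun ω => ?_)
        · exact mul_nonneg (integral_nonneg fun ω' => kr_nonneg ρ _) (by positivity)
        · refine Integrable.const_mul ?_ M
          refine Integrable.of_bound (C := B ^ 2) ((hg.norm).pow_const 2).aestronglyMeasurable
            (Eventually.of_forall fun ω => ?_)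
          rw [norm_pow, norm_norm]
          exact pow_le_pow_left₀ (norm_nonneg _) (hB _) 2
        · exact mul_le_mul_of_nonneg_right (hM ω) (by positivity)
    _ = M * ∫ ω, ‖g ω‖ ^ 2 ∂sig n := integral_const_mul _ _

end Vale.Agent.P076.R2.H831
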