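import Vale.Agent.P076.R2.H831.Uni

/-!
# Weights on a set of frequencies; sparse radii
-/

open MeasureTheory Complex FourierTransform Filter Topology Set
open scoped ENNReal NNReal

namespace Vale.Agent.P076.R2.H831

open Vale.Agent.P076 Vale.Agent.P076.H791

variable {n : ℕ}

open Classical in
/-- the `H^s` weight on `D`, infinite elsewhere -/
noncomputable def hwt (s : ℝ) (D : Set (Fin n → ℝ)) (ξ : Fin n → ℝ) : ℝ≥0∞ :=
  if ξ ∈ D then ENNReal.ofReal ((1 + nrm ξ ^ 2) ^ s) else ⊤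

lemma measurable_hwt (s : ℝ) {D : Set (Fin n → ℝ)} (hD : MeasurableSet D) :
    Measurable (hwt s D) :=
  Measurable.ite hD (measurable_weight s) measurable_const

lemma one_le_hwt {s : ℝ} (hs : 0 ≤ s) (D : Set (Fin n → ℝ)) (ξ : Fin n → ℝ) : 1 ≤ hwt s D ξ := by
  unfold hwt
  split_ifs
  · exact ENNReal.one_le_ofReal.2 (one_le_weight hs ξ)
  · exact le_top

/-- `D` is good: the maximal estimate holds for the `H^s` weight on `D` -/
def Good (s : ℝ) (D : Set (Fin n → ℝ)) : Prop := MP (Vale.Agent.P076.H791.wt (hwt s D))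

theorem Good.union {s : ℝ} {D D' : Set (Fin n → ℝ)} (h : Good s D) (h' : Good s D')
    (hD : MeasurableSet D) (hD' : MeasurableSet D') : Good s (D ∪ D') := by
  refine MP_union h h' (measurable_wt (measurable_hwt s hD))
    (measurable_wt (measurable_hwt s (hD.union hD'))) fun η => ?_
  unfold Vale.Agent.P076.H791.wt hwt
  by_cases h1 : WithLp.ofLp ((2 * Real.pi) • η) ∈ D
  · left
    rw [if_pos h1, if_pos (Set.mem_union_left _ h1)]
  · right
    by_cases h2 : WithLp.ofLp ((2 * Real.pi) • η) ∈ D'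
    · rw [if_pos h2, if_pos (Set.mem_union_right _ h2)]
    · rw [if_neg (show ¬ WithLp.ofLp ((2 * Real.pi) • η) ∈ D ∪ D' from
        fun h3 => h3.elim h1 h2)]
      exact le_top

theorem Good.mono {s : ℝ} {D D' : Set (Fin n → ℝ)} (h : Good s D) (hs : D' ⊆ D) : Good s D' := by
  refine MP_mono h fun η => ?_
  unfold Vale.Agent.P076.H791.wt hwt
  by_cases h1 : WithLp.ofLp ((2 * Real.pi) • η) ∈ D'
  · rw [if_pos h1, if_pos (hs h1)]
  · rw [if_neg h1]
    exact le_top

/-- strong convergence for the data with frequencies in a good set -/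
theorem Good.strong {s : ℝ} (hs : 0 ≤ s) {D : Set (Fin n → ℝ)} (h : Good s D)
    (hD : MeasurableSet D) {f g : (Fin n → ℝ) → ℂ} (hfg : IsFourierPair f g)
    (hg : Integrable fun ξ => (1 + nrm ξ ^ 2) ^ s * ‖g ξ‖ ^ 2)
    (hsupp : ∀ᵐ ξ, g ξ ≠ 0 → ξ ∈ D) : ConvergesStrongly f g := by
  refine strong_of_MP (hwt s D) (measurable_hwt s hD) (one_le_hwt hs D) h hfg ?_
  have h1 := (integrable_weight_iff s hfg.2.1).1 hg
  refine lt_of_le_of_lt (le_of_eq ?_) h1
  refine lintegral_congr_ae ?_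
  filter_upwards [hsupp] with ξ hξ
  unfold hwt
  by_cases h2 : g ξ = 0
  · rw [h2]; simp
  · rw [if_pos (hξ h2)]

lemma nrm_smul_eq (η : E n) : nrm (WithLp.ofLp ((2 * Real.pi) • η)) = 2 * Real.pi * ‖η‖ := by
  have h1 : nrm (WithLp.ofLp ((2 * Real.pi) • η)) = ‖(2 * Real.pi) • η‖ := by
    rw [EuclideanSpace.norm_eq]
    unfold nrm
    congr 1
    refine Finset.sum_congr rfl fun i _ => ?_
    rw [Real.norm_eq_abs, sq_abs]
  rw [h1, norm_smul, Real.norm_eq_abs, abs_of_pos (by positivity)]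

/-- **sparse radii** -/
theorem good_radii (hn : 1 ≤ n) {s : ℝ} (hs : 0 ≤ s) {J : Set ℝ} (hJ : MeasurableSet J)
    (hi : IntegrableOn (fun ρ : ℝ => ρ ^ (-(2 * s))) (J ∩ Ici 1)) :
    Good s {ξ : Fin n → ℝ | nrm ξ < 1 ∨ nrm ξ ∈ J} := by
  classical
  have hpi : (0 : ℝ) < 2 * Real.pi := by positivity
  set K : Set ℝ := Iio 1 ∪ J with hK
  have hKm : MeasurableSet K := measurableSet_Iio.union hJ
  set v0 : ℝ → ℝ≥0∞ := fun ρ => if ρ ∈ K then ENNReal.ofReal ((1 + ρ ^ 2) ^ s) else ⊤ with hv0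
  have hv0m : Measurable v0 := by
    refine Measurable.ite hKm ?_ measurable_const
    fun_prop
  have hv01 : ∀ ρ, 1 ≤ v0 ρ := by
    intro ρ
    simp only [hv0]
    split_ifs
    · exact ENNReal.one_le_ofReal.2 (Real.one_le_rpow (by nlinarith [sq_nonneg ρ]) hs)
    · exact le_top
  set v : ℝ → ℝ≥0∞ := fun ρ => v0 (2 * Real.pi * ρ) with hv
  have hvm : Measurable v := hv0m.comp (measurable_const_mul _)
  refine MP_rad hn hvm (fun ρ => (lt_of_lt_of_le one_pos (hv01 _)).ne') ?_ fun η => ?_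
  · -- the integral
    have hpt : ∀ ρ : ℝ, (Ioi (0 : ℝ)).indicator (fun ρ => (v0 ρ)⁻¹) ρ ≤
        (Ioo (0 : ℝ) 1).indicator (fun _ => 1) ρ +
          (J ∩ Ici 1).indicator (fun ρ => ENNReal.ofReal (ρ ^ (-(2 * s)))) ρ := by
      intro ρ
      by_cases h0 : 0 < ρ
      · rw [Set.indicator_of_mem (Set.mem_Ioi.2 h0)]
        by_cases h1 : ρ < 1
        · rw [Set.indicator_of_mem (Set.mem_Ioo.2 ⟨h0, h1⟩)]
          exact (ENNReal.inv_le_one.2 (hv01 ρ)).trans le_self_add
        · rw [not_lt] at h1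
          by_cases h2 : ρ ∈ J
          · rw [Set.indicator_of_mem (show ρ ∈ J ∩ Ici 1 from ⟨h2, h1⟩)]
            refine le_trans ?_ le_add_self
            simp only [hv0]
            rw [if_pos (show ρ ∈ K from Or.inr h2), Real.rpow_neg h0.le,
              ENNReal.ofReal_inv_of_pos (by positivity)]
            gcongr
            rw [mul_comm 2 s, mul_comm s 2, Real.rpow_mul h0.le]
            refine Real.rpow_le_rpow (by positivity) ?_ hs
            rw [Real.rpow_two]
            linarith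
          · have h3 : ρ ∉ K := fun h => h.elim (fun h => absurd h (not_lt.2 h1)) h2
            simp only [hv0]
            rw [if_neg h3, ENNReal.inv_top]
            exact zero_le
      · rw [Set.indicator_of_notMem (by simpa using h0)]
        exact zero_le
    have hfin : ∫⁻ ρ, (Ioi (0 : ℝ)).indicator (fun ρ => (v0 ρ)⁻¹) ρ < ⊤ := by
      refine (lintegral_mono hpt).trans_lt ?_
      rw [lintegral_add_left (measurable_const.indicator measurableSet_Ioo),
        lintegral_indicator measurableSet_Ioo, lintegral_indicator (hJ.inter measurableSet_Ici)]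
      refine ENNReal.add_lt_top.2 ⟨by simp, ?_⟩
      exact hi.lintegral_lt_top
    have hsc := Real.smul_map_volume_mul_left (a := 2 * Real.pi) hpi.ne'
    have hm1 : Measurable ((Ioi (0 : ℝ)).indicator fun ρ => (v0 ρ)⁻¹) :=
      hv0m.inv.indicator measurableSet_Ioi
    have h5 : ∫⁻ ρ, (Ioi (0 : ℝ)).indicator (fun ρ => (v0 ρ)⁻¹) ρ =
        ENNReal.ofReal |2 * Real.pi| *
          ∫⁻ ρ, (Ioi (0 : ℝ)).indicator (fun ρ => (v0 ρ)⁻¹) (2 * Real.pi * ρ) := by
      conv_lhs => rw [← hsc]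
      rw [lintegral_smul_measure, lintegral_map hm1 (measurable_const_mul _), smul_eq_mul]
    have h6 : ∫⁻ ρ in Ioi (0 : ℝ), (v ρ)⁻¹ =
        ∫⁻ ρ, (Ioi (0 : ℝ)).indicator (fun ρ => (v0 ρ)⁻¹) (2 * Real.pi * ρ) := by
      rw [← lintegral_indicator measurableSet_Ioi]
      refine lintegral_congr fun ρ => ?_
      by_cases h0 : 0 < ρ
      · rw [Set.indicator_of_mem (Set.mem_Ioi.2 h0),
          Set.indicator_of_mem (Set.mem_Ioi.2 (by positivity))]
      · rw [Set.indicator_of_notMem (by simpa using h0), Set.indicator_of_notMem]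
        simp only [Set.mem_Ioi, not_lt]
        rw [not_lt] at h0
        exact mul_nonpos_of_nonneg_of_nonpos hpi.le h0
    rw [h6]
    intro h7
    rw [h5, h7, ENNReal.mul_top (by rw [abs_of_pos hpi]; simpa using Real.pi_pos)] at hfin
    exact lt_irrefl _ hfin
  · -- the weight
    simp only [hv, hv0]
    unfold Vale.Agent.P076.H791.wt hwt
    rw [nrm_smul_eq]
    by_cases h1 : 2 * Real.pi * ‖η‖ ∈ K
    · rw [if_pos h1, if_pos]
      simp only [Set.mem_ofPred_eq, nrm_smul_eq]
      exact h1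
    · rw [if_neg h1, if_neg]
      simp only [Set.mem_ofPred_eq, nrm_smul_eq]
      exact h1

end Vale.Agent.P076.R2.H831
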