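import Vale.Agent.P076.R2.H831.Loc
import Vale.Agent.P076.R2.H831.Fin2

/-!
# P076 : sets of frequencies of small density on spheres
-/

open MeasureTheory Complex FourierTransform Filter Topology Set
open scoped ENNReal NNReal

namespace Vale.Agent.P076.R2.H831

open Vale.Agent.P076 Vale.Agent.P076.H791

variable {n : ℕ}

lemma lint_scale {m : ℝ → ℝ≥0∞} (hm : Measurable m) :
    ∫⁻ ρ in Ioi (0 : ℝ), m ρ = ENNReal.ofReal |2 * Real.pi| *
      ∫⁻ ρ in Ioi (0 : ℝ), m (2 * Real.pi * ρ) := by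
  have hpi : (0 : ℝ) < 2 * Real.pi := by positivity
  have hsc := Real.smul_map_volume_mul_left (a := 2 * Real.pi) hpi.ne'
  have hm1 : Measurable ((Ioi (0 : ℝ)).indicator m) := hm.indicator measurableSet_Ioi
  have h5 : ∫⁻ ρ, (Ioi (0 : ℝ)).indicator m ρ =
      ENNReal.ofReal |2 * Real.pi| * ∫⁻ ρ, (Ioi (0 : ℝ)).indicator m (2 * Real.pi * ρ) := by
    conv_lhs => rw [← hsc]
    rw [lintegral_smul_measure, lintegral_map hm1 (measurable_const_mul _), smul_eq_mul]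
  rw [← lintegral_indicator measurableSet_Ioi, ← lintegral_indicator measurableSet_Ioi, h5]
  congr 1
  refine lintegral_congr fun ρ => ?_
  by_cases h0 : 0 < ρ
  · rw [Set.indicator_of_mem (Set.mem_Ioi.2 h0),
      Set.indicator_of_mem (Set.mem_Ioi.2 (by positivity))]
  · have h1 : ¬ (0 : ℝ) < 2 * Real.pi * ρ := by
      rw [not_lt] at h0 ⊢
      exact mul_nonpos_of_nonneg_of_nonpos hpi.le h0
    rw [Set.indicator_of_notMem (show ρ ∉ Ioi (0 : ℝ) from h0),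
      Set.indicator_of_notMem (show 2 * Real.pi * ρ ∉ Ioi (0 : ℝ) from h1)]

/-- the maximal estimate from the local density, on the frequency side of the problem -/
theorem MP_wt_local (hn : 1 ≤ n) {w : (Fin n → ℝ) → ℝ≥0∞} (hw : Measurable w)
    (hw1 : ∀ ξ, 1 ≤ w ξ) {m : ℝ → ℝ≥0∞} (hm : Measurable m)
    (hmi : ∫⁻ ρ in Ioi (0 : ℝ), m ρ ≠ ⊤) {δ : ℝ} (hδ : 0 < δ)
    (hM : ∀ ρ : ℝ, 0 < ρ → ∀ ω : Sp n, ENNReal.ofReal (ρ ^ (n - 1)) *
      ∫⁻ ω' in {ω' : Sp n | ‖ρ • (ω : E n) - ρ • (ω' : E n)‖ < δ},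
        (w (WithLp.ofLp (ρ • (ω' : E n))))⁻¹ ∂sig n ≤ m ρ) :
    MP (Vale.Agent.P076.H791.wt w) := by
  have hpi : (0 : ℝ) < 2 * Real.pi := by positivity
  refine MP_local hn (measurable_wt hw) (fun η => (lt_of_lt_of_le one_pos (hw1 _)).ne')
    (m := fun ρ => m (2 * Real.pi * ρ)) (hm.comp (measurable_const_mul _)) ?_
    (δ := δ / (2 * Real.pi)) (by positivity) ?_
  · intro h7
    rw [lint_scale hm, h7, ENNReal.mul_top (by rw [abs_of_pos hpi]; simpa using Real.pi_pos)] at hmi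
    exact hmi rfl
  · intro ρ hρ ω
    have h1 := hM (2 * Real.pi * ρ) (by positivity) ω
    have e1 : {ω' : Sp n | ‖ρ • (ω : E n) - ρ • (ω' : E n)‖ < δ / (2 * Real.pi)} =
        {ω' : Sp n | ‖(2 * Real.pi * ρ) • (ω : E n) - (2 * Real.pi * ρ) • (ω' : E n)‖ < δ} := by
      ext ω'
      simp only [Set.mem_ofPred_eq]
      rw [← smul_sub, ← smul_sub, norm_smul, norm_smul, norm_mul, Real.norm_eq_abs (2 * Real.pi),
        abs_of_pos hpi, lt_div_iff₀ hpi]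
      rw [show ‖ρ‖ * ‖(ω : E n) - ω'‖ * (2 * Real.pi) = 2 * Real.pi * ‖ρ‖ * ‖(ω : E n) - ω'‖ by ring]
    have e2 : ∀ ω' : Sp n, Vale.Agent.P076.H791.wt w (ρ • (ω' : E n)) =
        w (WithLp.ofLp ((2 * Real.pi * ρ) • (ω' : E n))) := by
      intro ω'
      unfold Vale.Agent.P076.H791.wt
      rw [smul_smul]
    simp_rw [e2]
    rw [e1]
    refine le_trans (mul_le_mul' (ENNReal.ofReal_le_ofReal
      (pow_le_pow_left₀ hρ.le ?_ _)) le_rfl) h1
    have h3 := Real.pi_gt_three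
    nlinarith

/-- the density of `Ω` on the sphere of radius `ρ`, in balls of radius `δ`, is at most `θ ρ` -/
def SphD (Ω : Set (Fin n → ℝ)) (θ : ℝ → ℝ≥0∞) (δ : ℝ) : Prop :=
  ∀ ρ : ℝ, 0 < ρ → ∀ ω : Sp n, ENNReal.ofReal (ρ ^ (n - 1)) *
    sig n {ω' : Sp n | ‖ρ • (ω : E n) - ρ • (ω' : E n)‖ < δ ∧
      WithLp.ofLp (ρ • (ω' : E n)) ∈ Ω} ≤ θ ρ

lemma nrm_sph {ρ : ℝ} (hρ : 0 < ρ) (ω : Sp n) : nrm (WithLp.ofLp (ρ • (ω : E n))) = ρ := by
  have h1 : nrm (WithLp.ofLp (ρ • (ω : E n))) = ‖ρ • (ω : E n)‖ := by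
    rw [EuclideanSpace.norm_eq]
    unfold nrm
    congr 1
    refine Finset.sum_congr rfl fun i _ => ?_
    rw [Real.norm_eq_abs, sq_abs]
  have h2 : ‖(ω : E n)‖ = 1 := by simp
  rw [h1, norm_smul, h2, mul_one, Real.norm_eq_abs, abs_of_pos hρ]

/-- **sets of small density on spheres are good** -/
theorem good_density (hn : 1 ≤ n) {s : ℝ} (hs : 0 ≤ s) {Ω : Set (Fin n → ℝ)}
    (hΩ : MeasurableSet Ω) {θ : ℝ → ℝ≥0∞} (hθ : Measurable θ) {δ : ℝ} (hδ : 0 < δ)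
    (hD : SphD Ω θ δ)
    (hi : ∫⁻ ρ in Ioi (0 : ℝ), θ ρ * ENNReal.ofReal ((1 + ρ ^ 2) ^ (-s)) ≠ ⊤) : Good s Ω := by
  refine MP_wt_local hn (measurable_hwt s hΩ) (one_le_hwt hs Ω)
    (m := fun ρ => θ ρ * ENNReal.ofReal ((1 + ρ ^ 2) ^ (-s))) (hθ.mul (by fun_prop)) hi hδ ?_
  intro ρ hρ ω
  set A : Set (Sp n) := {ω' : Sp n | WithLp.ofLp (ρ • (ω' : E n)) ∈ Ω} with hA
  set c : ℝ≥0∞ := ENNReal.ofReal ((1 + ρ ^ 2) ^ (-s)) with hc
  have hcm : Measurable fun ω' : Sp n => WithLp.ofLp (ρ • (ω' : E n)) := by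
    have c2 : Continuous fun ω : Sp n => (ρ • ω.1 : E n) := by fun_prop
    exact (PiLp.continuous_ofLp 2 (fun _ : Fin n => ℝ)).measurable.comp c2.measurable
  have hAm : MeasurableSet A := hcm hΩ
  have hpt : ∀ ω' : Sp n, (hwt s Ω (WithLp.ofLp (ρ • (ω' : E n))))⁻¹ =
      A.indicator (fun _ => c) ω' := by
    intro ω'
    unfold hwt
    by_cases h1 : ω' ∈ A
    · rw [Set.indicator_of_mem h1, if_pos (show WithLp.ofLp (ρ • (ω' : E n)) ∈ Ω from h1),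
        nrm_sph hρ, hc, Real.rpow_neg (by positivity),
        ENNReal.ofReal_inv_of_pos (by positivity)]
    · rw [Set.indicator_of_notMem h1, if_neg (show WithLp.ofLp (ρ • (ω' : E n)) ∉ Ω from h1),
        ENNReal.inv_top]
  simp_rw [hpt]
  rw [lintegral_indicator_const hAm, Measure.restrict_apply hAm]
  have e1 : A ∩ {ω' : Sp n | ‖ρ • (ω : E n) - ρ • (ω' : E n)‖ < δ} =
      {ω' : Sp n | ‖ρ • (ω : E n) - ρ • (ω' : E n)‖ < δ ∧
        WithLp.ofLp (ρ • (ω' : E n)) ∈ Ω} := by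
    ext ω'
    simp only [hA, Set.mem_inter_iff, Set.mem_ofPred_eq]
    exact and_comm
  rw [e1]
  calc ENNReal.ofReal (ρ ^ (n - 1)) * (c * sig n {ω' : Sp n |
        ‖ρ • (ω : E n) - ρ • (ω' : E n)‖ < δ ∧ WithLp.ofLp (ρ • (ω' : E n)) ∈ Ω})
      = (ENNReal.ofReal (ρ ^ (n - 1)) * sig n {ω' : Sp n |
        ‖ρ • (ω : E n) - ρ • (ω' : E n)‖ < δ ∧ WithLp.ofLp (ρ • (ω' : E n)) ∈ Ω}) * c := by ring
    _ ≤ θ ρ * c := mul_le_mul_left (hD ρ hρ ω) _

/-- the constant of the cap bound -/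
noncomputable def cC (n : ℕ) : ℝ :=
  Real.exp 1 * (n * (Real.exp 1 * (√Real.pi * √Real.pi ^ (n - 1))))

lemma cC_nonneg : 0 ≤ cC n := by
  unfold cC
  positivity

/-- the measure of a cap -/
lemma cap_le (hn : 1 ≤ n) {ρ t : ℝ} (hρ : 0 < ρ) (ht : 0 < t) (ω₀ : Sp n) :
    ENNReal.ofReal (ρ ^ (n - 1)) *
      sig n {ω' : Sp n | ‖ρ • (ω₀ : E n) - ρ • (ω' : E n)‖ < t} ≤
        ENNReal.ofReal (cC n * t ^ (n - 1)) := by
  have h := sphG hn ((ρ / t) ^ 2) (by positivity) ω₀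
  set S : Set (Sp n) := {ω' : Sp n | ‖ρ • (ω₀ : E n) - ρ • (ω' : E n)‖ < t} with hS
  have hSm : MeasurableSet S := by
    refine (isOpen_lt ?_ continuous_const).measurableSet
    fun_prop
  have hint : Integrable (fun ω' : Sp n =>
      Real.exp (-((ρ / t) ^ 2 * ‖(ω₀ : E n) - ω'‖ ^ 2))) (sig n) := by
    refine Integrable.of_bound (C := 1) ?_ (Eventually.of_forall fun ω' => ?_)
    · refine (Continuous.measurable ?_).aestronglyMeasurable
      fun_prop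
    · rw [Real.norm_eq_abs, abs_of_pos (Real.exp_pos _), Real.exp_le_one_iff]
      have : 0 ≤ (ρ / t) ^ 2 * ‖(ω₀ : E n) - ω'‖ ^ 2 := by positivity
      linarith
  have h2 : Real.exp (-1) * (sig n).real S ≤
      ∫ ω' : Sp n, Real.exp (-((ρ / t) ^ 2 * ‖(ω₀ : E n) - ω'‖ ^ 2)) ∂sig n := by
    have h3 : ∫ _ in S, Real.exp (-1) ∂sig n ≤
        ∫ ω' in S, Real.exp (-((ρ / t) ^ 2 * ‖(ω₀ : E n) - ω'‖ ^ 2)) ∂sig n := by
      refine setIntegral_mono_on (integrable_const _) hint.integrableOn hSm fun ω' hω' => ?_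
      refine Real.exp_le_exp.2 (neg_le_neg ?_)
      have h4 : ‖ρ • (ω₀ : E n) - ρ • (ω' : E n)‖ < t := hω'
      rw [← smul_sub, norm_smul, Real.norm_eq_abs, abs_of_pos hρ] at h4
      have h5 : 0 ≤ ρ * ‖(ω₀ : E n) - ω'‖ := by positivity
      rw [div_pow, div_mul_eq_mul_div, div_le_one (by positivity), ← mul_pow]
      exact pow_le_pow_left₀ h5 h4.le 2
    rw [setIntegral_const, smul_eq_mul, mul_comm] at h3
    exact h3.trans (setIntegral_le_integral hint (Eventually.of_forall fun ω' => (Real.exp_pos _).le))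
  have h6 : (sig n).real S ≤ Real.exp 1 * (n * (Real.exp 1 *
      (√Real.pi * √(Real.pi / (ρ / t) ^ 2) ^ (n - 1)))) := by
    have h7 := mul_le_mul_of_nonneg_left (h2.trans h) (Real.exp_pos 1).le
    rw [← mul_assoc, ← Real.exp_add, add_neg_cancel, Real.exp_zero, one_mul] at h7
    exact h7
  have e1 : √(Real.pi / (ρ / t) ^ 2) = √Real.pi * (t / ρ) := by
    rw [show Real.pi / (ρ / t) ^ 2 = Real.pi * (t / ρ) ^ 2 by field_simp,
      Real.sqrt_mul Real.pi_pos.le, Real.sqrt_sq (by positivity)]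
  rw [e1] at h6
  have e2 : sig n S = ENNReal.ofReal ((sig n).real S) := (ofReal_measureReal (measure_ne_top _ _)).symm
  rw [e2, ← ENNReal.ofReal_mul (by positivity)]
  refine ENNReal.ofReal_le_ofReal ?_
  calc ρ ^ (n - 1) * (sig n).real S ≤ ρ ^ (n - 1) * (Real.exp 1 * (n * (Real.exp 1 *
      (√Real.pi * (√Real.pi * (t / ρ)) ^ (n - 1))))) := by gcongr
    _ = cC n * t ^ (n - 1) := by
      have h8 : ρ ^ (n - 1) * (t / ρ) ^ (n - 1) = t ^ (n - 1) := by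
        rw [← mul_pow]
        congr 1
        field_simp
      unfold cC
      rw [mul_pow, ← h8]
      ring

end Vale.Agent.P076.R2.H831
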