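import Vale.Agent.P076.R2.H831.Fin3

/-!
# P076 : small balls around a separated set
-/

open MeasureTheory Complex FourierTransform Filter Topology Set
open scoped ENNReal NNReal

namespace Vale.Agent.P076.R2.H831

open Vale.Agent.P076 Vale.Agent.P076.H791

variable {n : ℕ}

/-- the balls -/
def BallSet (a : ℝ) (L : Set (Fin n → ℝ)) : Set (Fin n → ℝ) :=
  {ξ | 1 ≤ nrm ξ ∧ ∃ l ∈ L, nrm (ξ - l) ≤ nrm ξ ^ (-a)}

lemma nrm_sub_eq (x y : Fin n → ℝ) : nrm (x - y) = ‖toE x - toE y‖ := by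
  rw [nrm_eq]
  rfl

lemma countable_sep {L : Set (Fin n → ℝ)} {τ : ℝ} (hτ : 0 < τ)
    (hL : ∀ x ∈ L, ∀ y ∈ L, x ≠ y → τ ≤ nrm (x - y)) : L.Countable := by
  have hd : L.PairwiseDisjoint fun x => Metric.ball (toE x) (τ / 2) := by
    intro x hx y hy hxy
    refine Metric.ball_disjoint_ball ?_
    have := hL x hx y hy hxy
    rw [nrm_sub_eq] at this
    rw [dist_eq_norm]
    linarith
  exact hd.countable_of_isOpen (fun x _ => Metric.isOpen_ball)
    (fun x _ => ⟨toE x, Metric.mem_ball_self (by positivity)⟩)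

lemma measurable_nrm' : Measurable (nrm : (Fin n → ℝ) → ℝ) := by
  unfold nrm
  fun_prop

lemma measurableSet_balls (a : ℝ) {L : Set (Fin n → ℝ)} (hL : L.Countable) :
    MeasurableSet (BallSet a L) := by
  have e : BallSet a L = {ξ | 1 ≤ nrm ξ} ∩ ⋃ l ∈ L, {ξ | nrm (ξ - l) ≤ nrm ξ ^ (-a)} := by
    ext ξ
    simp only [BallSet, Set.mem_inter_iff, Set.mem_iUnion, Set.mem_ofPred_eq, exists_prop]
  rw [e]
  refine (measurableSet_le measurable_const measurable_nrm').inter ?_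
  refine MeasurableSet.biUnion hL fun l _ => ?_
  refine measurableSet_le (measurable_nrm'.comp (measurable_id.sub measurable_const)) ?_
  exact measurable_nrm'.pow_const _

/-- the density of the balls -/
noncomputable def thB (n : ℕ) (a : ℝ) (ρ : ℝ) : ℝ≥0∞ :=
  (Ici (1 : ℝ)).indicator (fun ρ => ENNReal.ofReal (cC n * (3 * ρ ^ (-a)) ^ (n - 1))) ρ

lemma measurable_thB (a : ℝ) : Measurable (thB n a) := by
  unfold thB
  refine Measurable.indicator ?_ measurableSet_Ici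
  fun_prop

lemma sphD_balls (hn : 1 ≤ n) {a τ : ℝ} {L : Set (Fin n → ℝ)}
    (hL : ∀ x ∈ L, ∀ y ∈ L, x ≠ y → τ ≤ nrm (x - y)) : SphD (BallSet a L) (thB n a) (τ / 4) := by
  intro ρ hρ ω
  set A : Set (Sp n) := {ω' : Sp n | ‖ρ • (ω : E n) - ρ • (ω' : E n)‖ < τ / 4 ∧
      WithLp.ofLp (ρ • (ω' : E n)) ∈ BallSet a L} with hA
  rcases Set.eq_empty_or_nonempty A with h0 | ⟨ω₀, hω₀⟩
  · rw [h0, measure_empty, mul_zero]
    exact zero_le
  obtain ⟨h1, h2, l₀, hl₀, h3⟩ := hω₀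
  rw [nrm_sph hρ] at h2 h3
  have hpos : 0 < ρ ^ (-a) := Real.rpow_pos_of_pos hρ _
  have hsub : A ⊆ {ω' : Sp n | ‖ρ • (ω₀ : E n) - ρ • (ω' : E n)‖ < 3 * ρ ^ (-a)} := by
    rintro ω' ⟨h4, -, l, hl, h6⟩
    rw [nrm_sph hρ] at h6
    rw [nrm_sub_eq] at h3 h6
    have e0 : ∀ v : E n, toE (WithLp.ofLp v) = v := fun v => rfl
    rw [e0] at h3 h6
    simp only [Set.mem_ofPred_eq]
    have h7 : ‖ρ • (ω₀ : E n) - ρ • (ω' : E n)‖ < τ / 2 := by
      have h8 := norm_sub_le_norm_sub_add_norm_sub (ρ • (ω₀ : E n)) (ρ • (ω : E n))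
        (ρ • (ω' : E n))
      rw [norm_sub_rev (ρ • (ω₀ : E n)) (ρ • (ω : E n))] at h8
      linarith
    by_cases h9 : ρ ^ (-a) ≤ τ / 4
    · have h10 : l₀ = l := by
        by_contra hne
        have h11 := hL l₀ hl₀ l hl hne
        rw [nrm_sub_eq] at h11
        have h12 := norm_sub_le_norm_sub_add_norm_sub (toE l₀) (ρ • (ω₀ : E n)) (toE l)
        have h13 := norm_sub_le_norm_sub_add_norm_sub (ρ • (ω₀ : E n)) (ρ • (ω' : E n)) (toE l)
        rw [norm_sub_rev (toE l₀) (ρ • (ω₀ : E n))] at h12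
        linarith
      rw [← h10] at h6
      have h14 := norm_sub_le_norm_sub_add_norm_sub (ρ • (ω₀ : E n)) (toE l₀) (ρ • (ω' : E n))
      rw [norm_sub_rev (toE l₀) (ρ • (ω' : E n))] at h14
      linarith
    · rw [not_le] at h9
      linarith
  calc ENNReal.ofReal (ρ ^ (n - 1)) * sig n A
      ≤ ENNReal.ofReal (ρ ^ (n - 1)) *
        sig n {ω' : Sp n | ‖ρ • (ω₀ : E n) - ρ • (ω' : E n)‖ < 3 * ρ ^ (-a)} :=
        mul_le_mul_right (measure_mono hsub) _
    _ ≤ ENNReal.ofReal (cC n * (3 * ρ ^ (-a)) ^ (n - 1)) := cap_le hn hρ (by positivity) ω₀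
    _ = thB n a ρ := by
        unfold thB
        rw [Set.indicator_of_mem (Set.mem_Ici.2 h2)]

/-- **small balls around a separated set are good** -/
theorem good_balls (hn : 1 ≤ n) {s a τ : ℝ} (hs : 0 ≤ s) (hτ : 0 < τ)
    (has : 1 < a * (n - 1) + 2 * s) {L : Set (Fin n → ℝ)}
    (hL : ∀ x ∈ L, ∀ y ∈ L, x ≠ y → τ ≤ nrm (x - y)) : Good s (BallSet a L) := by
  refine good_density hn hs (measurableSet_balls a (countable_sep hτ hL)) (measurable_thB a)
    (by positivity) (sphD_balls hn hL) ?_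
  have hpt : ∀ ρ : ℝ, (Ioi (0 : ℝ)).indicator
      (fun ρ => thB n a ρ * ENNReal.ofReal ((1 + ρ ^ 2) ^ (-s))) ρ ≤
      (Ioi (1 / 2 : ℝ)).indicator (fun ρ => ENNReal.ofReal (cC n * 3 ^ (n - 1) *
        ρ ^ (-(a * (n - 1) + 2 * s)))) ρ := by
    intro ρ
    by_cases h1 : 1 ≤ ρ
    · have h0 : 0 < ρ := by linarith
      rw [Set.indicator_of_mem (Set.mem_Ioi.2 h0),
        Set.indicator_of_mem (Set.mem_Ioi.2 (by linarith : (1 / 2 : ℝ) < ρ))]
      unfold thB
      rw [Set.indicator_of_mem (Set.mem_Ici.2 h1),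
        ← ENNReal.ofReal_mul (mul_nonneg cC_nonneg (by positivity))]
      refine ENNReal.ofReal_le_ofReal ?_
      have e1 : (ρ ^ (-a)) ^ (n - 1) = ρ ^ (-(a * (n - 1))) := by
        rw [← Real.rpow_natCast, ← Real.rpow_mul h0.le, Nat.cast_sub hn]
        congr 1
        push_cast
        ring
      have e2 : (1 + ρ ^ 2) ^ (-s) ≤ ρ ^ (-(2 * s)) := by
        have h3 : ρ ^ (-(2 * s)) = (ρ ^ 2) ^ (-s) := by
          rw [← Real.rpow_natCast, ← Real.rpow_mul h0.le]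
          congr 1
          push_cast
          ring
        rw [h3]
        exact Real.rpow_le_rpow_of_nonpos (by positivity) (by linarith) (by linarith)
      have e3 : ρ ^ (-(a * (n - 1) + 2 * s)) = ρ ^ (-(a * ((n : ℝ) - 1))) * ρ ^ (-(2 * s)) := by
        rw [← Real.rpow_add h0]
        congr 1
        ring
      rw [mul_pow, e1, e3]
      have h4 : 0 ≤ cC n * (3 ^ (n - 1) * ρ ^ (-(a * ((n : ℝ) - 1)))) :=
        mul_nonneg cC_nonneg (by positivity)
      calc cC n * (3 ^ (n - 1) * ρ ^ (-(a * ((n : ℝ) - 1)))) * (1 + ρ ^ 2) ^ (-s)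
          ≤ cC n * (3 ^ (n - 1) * ρ ^ (-(a * ((n : ℝ) - 1)))) * ρ ^ (-(2 * s)) :=
            mul_le_mul_of_nonneg_left e2 h4
        _ = _ := by ring
    · have h2 : (Ioi (0 : ℝ)).indicator
          (fun ρ => thB n a ρ * ENNReal.ofReal ((1 + ρ ^ 2) ^ (-s))) ρ = 0 := by
        have h3 : thB n a ρ = 0 := by
          unfold thB
          exact Set.indicator_of_notMem (fun h => h1 h) _
        by_cases h4 : ρ ∈ Ioi (0 : ℝ)
        · rw [Set.indicator_of_mem h4, h3, zero_mul]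
        · rw [Set.indicator_of_notMem h4]
      rw [h2]
      exact zero_le
  have hfin : ∫⁻ ρ, (Ioi (1 / 2 : ℝ)).indicator (fun ρ => ENNReal.ofReal (cC n * 3 ^ (n - 1) *
        ρ ^ (-(a * (n - 1) + 2 * s)))) ρ < ⊤ := by
    rw [lintegral_indicator measurableSet_Ioi]
    have h5 : IntegrableOn (fun ρ : ℝ => cC n * 3 ^ (n - 1) * ρ ^ (-(a * (n - 1) + 2 * s)))
        (Ioi (1 / 2)) :=
      (integrableOn_Ioi_rpow_of_lt (by linarith) (by norm_num)).const_mul _
    exact h5.lintegral_lt_top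
  rw [← lintegral_indicator measurableSet_Ioi]
  exact ((lintegral_mono hpt).trans_lt hfin).ne

end Vale.Agent.P076.R2.H831
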