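import Vale.Agent.P076.R2.H831.Dens

/-!
# P076 : the density condition on small balls
-/

open MeasureTheory Complex FourierTransform Filter Topology Set
open scoped ENNReal NNReal ComplexConjugate

namespace Vale.Agent.P076.R2.H831

open Vale.Agent.P076 Vale.Agent.P076.H791

variable {n : ℕ}

/-- the averaging constant -/
noncomputable def cA (n : ℕ) (δ : ℝ) : ℝ≥0∞ :=
  ENNReal.ofReal (Real.pi ^ ((n : ℝ) / 2) * Real.exp (Real.pi ^ 2 * δ ^ 2 / 4)) *
    (volume (Metric.ball (0 : E n) (δ / 2)))⁻¹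

lemma cA_ne_top {δ : ℝ} (hδ : 0 < δ) : cA n δ ≠ ⊤ :=
  ENNReal.mul_ne_top ENNReal.ofReal_ne_top
    (ENNReal.inv_ne_top.2 (Metric.measure_ball_pos volume _ (by positivity)).ne')

/-- the wide Gaussian -/
noncomputable def gG (η y : E n) : ℝ≥0∞ :=
  ENNReal.ofReal (Real.exp (-(Real.pi ^ 2 / 2 * ‖η - y‖ ^ 2)))

/-- its integral -/
noncomputable def cG (n : ℕ) : ℝ≥0∞ := ∫⁻ y : E n, gG 0 y

lemma gG_int (η : E n) : ∫⁻ y, gG η y = cG n := by
  unfold cG
  have h1 := lintegral_sub_left_eq_self (μ := (volume : Measure (E n)))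
    (fun y => ENNReal.ofReal (Real.exp (-(Real.pi ^ 2 / 2 * ‖y‖ ^ 2)))) η
  have h2 := lintegral_sub_left_eq_self (μ := (volume : Measure (E n)))
    (fun y => ENNReal.ofReal (Real.exp (-(Real.pi ^ 2 / 2 * ‖y‖ ^ 2)))) 0
  unfold gG
  rw [h1, h2]

lemma cG_ne_top : cG n ≠ ⊤ := by
  have h := (GaussianFourier.integrable_cexp_neg_mul_sq_norm_add (V := E n)
    (b := ((Real.pi ^ 2 / 2 : ℝ) : ℂ)) (by rw [Complex.ofReal_re]; positivity) 0 0).norm
  have h2 : Integrable fun y : E n => Real.exp (-(Real.pi ^ 2 / 2 * ‖y‖ ^ 2)) := by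
    refine h.congr (Eventually.of_forall fun x => ?_)
    simp only [zero_mul, add_zero]
    rw [Complex.norm_exp, show (-((Real.pi ^ 2 / 2 : ℝ) : ℂ) * (‖x‖ : ℂ) ^ 2)
      = ((-(Real.pi ^ 2 / 2 * ‖x‖ ^ 2) : ℝ) : ℂ) by push_cast; ring, Complex.ofReal_re]
  have h3 := h2.lintegral_lt_top
  unfold cG gG
  simp_rw [zero_sub, norm_neg]
  exact h3.ne

lemma gauss_avg {δ : ℝ} (hδ : 0 < δ) (ρ : ℝ) (ω ω' : Sp n) :
    ENNReal.ofReal (kr n ρ (ω, ω')) ≤ cA n δ *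
      ∫⁻ y in Metric.ball (ρ • (ω' : E n)) (δ / 2), gG (ρ • (ω : E n)) y := by
  set A : ℝ := Real.pi ^ 2 * ‖ρ • (ω : E n) - ρ • (ω' : E n)‖ ^ 2 with hA
  have h1 : ∀ y ∈ Metric.ball (ρ • (ω' : E n)) (δ / 2),
      ENNReal.ofReal (Real.exp (-(A + Real.pi ^ 2 * δ ^ 2 / 4))) ≤ gG (ρ • (ω : E n)) y := by
    intro y hy
    rw [mem_ball_iff_norm'] at hy
    unfold gG
    refine ENNReal.ofReal_le_ofReal (Real.exp_le_exp.2 (neg_le_neg ?_))
    have h2 : ‖ρ • (ω : E n) - y‖ ≤ ‖ρ • (ω : E n) - ρ • (ω' : E n)‖ + ‖ρ • (ω' : E n) - y‖ :=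
      norm_sub_le_norm_sub_add_norm_sub _ _ _
    have h3 : ‖ρ • (ω : E n) - y‖ ^ 2 ≤ 2 * ‖ρ • (ω : E n) - ρ • (ω' : E n)‖ ^ 2 + δ ^ 2 / 2 := by
      have h4 := norm_nonneg (ρ • (ω : E n) - y)
      have h5 := norm_nonneg (ρ • (ω : E n) - ρ • (ω' : E n))
      have h6 := norm_nonneg (ρ • (ω' : E n) - y)
      nlinarith [sq_nonneg (‖ρ • (ω : E n) - ρ • (ω' : E n)‖ - ‖ρ • (ω' : E n) - y‖)]
    have hpi : 0 < Real.pi ^ 2 := by positivity
    rw [hA]
    nlinarith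
  have h2 : ENNReal.ofReal (Real.exp (-(A + Real.pi ^ 2 * δ ^ 2 / 4))) *
      volume (Metric.ball (0 : E n) (δ / 2)) ≤
      ∫⁻ y in Metric.ball (ρ • (ω' : E n)) (δ / 2), gG (ρ • (ω : E n)) y := by
    rw [← Measure.addHaar_ball_center volume (ρ • (ω' : E n)), ← setLIntegral_const]
    exact setLIntegral_mono' measurableSet_ball h1
  have hV0 : volume (Metric.ball (0 : E n) (δ / 2)) ≠ 0 :=
    (Metric.measure_ball_pos volume _ (by positivity)).ne'
  have hVt : volume (Metric.ball (0 : E n) (δ / 2)) ≠ ⊤ := measure_ball_lt_top.ne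
  have e1 : kr n ρ (ω, ω') = (Real.pi ^ ((n : ℝ) / 2) * Real.exp (Real.pi ^ 2 * δ ^ 2 / 4)) *
      Real.exp (-(A + Real.pi ^ 2 * δ ^ 2 / 4)) := by
    rw [mul_assoc, ← Real.exp_add, kr, hA, ← smul_sub, norm_smul, mul_pow, mul_pow,
      Real.norm_eq_abs, sq_abs]
    congr 2
    ring
  rw [e1, ENNReal.ofReal_mul (by positivity)]
  calc ENNReal.ofReal (Real.pi ^ ((n : ℝ) / 2) * Real.exp (Real.pi ^ 2 * δ ^ 2 / 4)) *
        ENNReal.ofReal (Real.exp (-(A + Real.pi ^ 2 * δ ^ 2 / 4)))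
      = cA n δ * (ENNReal.ofReal (Real.exp (-(A + Real.pi ^ 2 * δ ^ 2 / 4))) *
          volume (Metric.ball (0 : E n) (δ / 2))) := by
        unfold cA
        calc _ = ENNReal.ofReal (Real.pi ^ ((n : ℝ) / 2) * Real.exp (Real.pi ^ 2 * δ ^ 2 / 4)) *
              ENNReal.ofReal (Real.exp (-(A + Real.pi ^ 2 * δ ^ 2 / 4))) *
              ((volume (Metric.ball (0 : E n) (δ / 2)))⁻¹ *
                volume (Metric.ball (0 : E n) (δ / 2))) := by
              rw [ENNReal.inv_mul_cancel hV0 hVt, mul_one]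
          _ = _ := by ring
    _ ≤ _ := mul_le_mul_right h2 _

/-- the density condition on balls of radius `δ` -/
def LocB (w : E n → ℝ≥0∞) (m : ℝ → ℝ≥0∞) (δ : ℝ) : Prop := ∀ ρ : ℝ, 0 < ρ → ∀ ω : Sp n,
  ENNReal.ofReal (ρ ^ (n - 1)) *
    ∫⁻ ω' in {ω' : Sp n | ‖ρ • (ω : E n) - ρ • (ω' : E n)‖ < δ}, (w (ρ • ω'.1))⁻¹ ∂sig n ≤ m ρ

theorem dens_of_local {w : E n → ℝ≥0∞} (hw : Measurable w) {m : ℝ → ℝ≥0∞} {δ : ℝ} (hδ : 0 < δ)
    (hM : LocB w m δ) : DensB w fun ρ => cA n δ * cG n * m ρ := by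
  intro ρ hρ ω
  set S : Set (Sp n × E n) := {p | ‖ρ • (p.1 : E n) - p.2‖ < δ / 2} with hS
  have hSm : MeasurableSet S := by
    refine (isOpen_lt ?_ continuous_const).measurableSet
    fun_prop
  have hgm : Measurable fun p : Sp n × E n => gG (ρ • (ω : E n)) p.2 := by
    unfold gG
    fun_prop
  have hWm : Measurable fun p : Sp n × E n => (w (ρ • (p.1 : E n)))⁻¹ :=
    ((measurable_slice_w hw ρ).comp measurable_fst).inv
  set F : Sp n × E n → ℝ≥0∞ := S.indicator fun p => gG (ρ • (ω : E n)) p.2 *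
    (w (ρ • (p.1 : E n)))⁻¹ with hF
  have hFm : Measurable F := (hgm.mul hWm).indicator hSm
  have e1 : ∀ ω' : Sp n, (∫⁻ y in Metric.ball (ρ • (ω' : E n)) (δ / 2), gG (ρ • (ω : E n)) y) *
      (w (ρ • (ω' : E n)))⁻¹ = ∫⁻ y, F (ω', y) := by
    intro ω'
    have hg1 : Measurable fun y : E n => gG (ρ • (ω : E n)) y := by
      unfold gG
      fun_prop
    rw [← lintegral_indicator measurableSet_ball,
      ← lintegral_mul_const _ (hg1.indicator measurableSet_ball)]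
    refine lintegral_congr fun y => ?_
    by_cases hy : y ∈ Metric.ball (ρ • (ω' : E n)) (δ / 2)
    · have hy' : (ω', y) ∈ S := by
        simp only [hS, Set.mem_ofPred_eq]
        exact mem_ball_iff_norm'.1 hy
      simp only [hF]
      rw [Set.indicator_of_mem hy, Set.indicator_of_mem hy']
    · have hy' : (ω', y) ∉ S := by
        simp only [hS, Set.mem_ofPred_eq]
        exact fun h => hy (mem_ball_iff_norm'.2 h)
      simp only [hF]
      rw [Set.indicator_of_notMem hy, Set.indicator_of_notMem hy', zero_mul]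
  have e2 : ∫⁻ ω', (∫⁻ y, F (ω', y)) ∂sig n = ∫⁻ y, (∫⁻ ω', F (ω', y) ∂sig n) :=
    lintegral_lintegral_swap (f := fun ω' y => F (ω', y)) hFm.aemeasurable
  have h3 : ∀ y : E n, ENNReal.ofReal (ρ ^ (n - 1)) * ∫⁻ ω', F (ω', y) ∂sig n ≤
      gG (ρ • (ω : E n)) y * m ρ := by
    intro y
    have hSy : MeasurableSet {ω' : Sp n | ‖ρ • (ω' : E n) - y‖ < δ / 2} := by
      refine (isOpen_lt ?_ continuous_const).measurableSet
      fun_prop
    have e3 : ∫⁻ ω', F (ω', y) ∂sig n = gG (ρ • (ω : E n)) y *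
        ∫⁻ ω' in {ω' : Sp n | ‖ρ • (ω' : E n) - y‖ < δ / 2}, (w (ρ • (ω' : E n)))⁻¹ ∂sig n := by
      have hwi : Measurable fun ω' : Sp n => (w (ρ • (ω' : E n)))⁻¹ :=
        (measurable_slice_w hw ρ).inv
      rw [← lintegral_indicator hSy, ← lintegral_const_mul _ (hwi.indicator hSy)]
      refine lintegral_congr fun ω' => ?_
      by_cases hy : ω' ∈ {ω' : Sp n | ‖ρ • (ω' : E n) - y‖ < δ / 2}
      · have hy' : (ω', y) ∈ S := hy
        simp only [hF]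
        rw [Set.indicator_of_mem hy, Set.indicator_of_mem hy']
      · have hy' : (ω', y) ∉ S := hy
        simp only [hF]
        rw [Set.indicator_of_notMem hy, Set.indicator_of_notMem hy', mul_zero]
    rw [e3]
    by_cases hne : ∃ ω₀ : Sp n, ‖ρ • (ω₀ : E n) - y‖ < δ / 2
    · obtain ⟨ω₀, h0⟩ := hne
      have hsub : {ω' : Sp n | ‖ρ • (ω' : E n) - y‖ < δ / 2} ⊆
          {ω' : Sp n | ‖ρ • (ω₀ : E n) - ρ • (ω' : E n)‖ < δ} := by
        intro ω' h1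
        simp only [Set.mem_ofPred_eq] at h1 ⊢
        rw [norm_sub_rev] at h1
        have h2 := norm_sub_le_norm_sub_add_norm_sub (ρ • (ω₀ : E n)) y (ρ • (ω' : E n))
        linarith
      calc ENNReal.ofReal (ρ ^ (n - 1)) * (gG (ρ • (ω : E n)) y *
            ∫⁻ ω' in {ω' : Sp n | ‖ρ • (ω' : E n) - y‖ < δ / 2}, (w (ρ • (ω' : E n)))⁻¹ ∂sig n)
          = gG (ρ • (ω : E n)) y * (ENNReal.ofReal (ρ ^ (n - 1)) *
            ∫⁻ ω' in {ω' : Sp n | ‖ρ • (ω' : E n) - y‖ < δ / 2}, (w (ρ • (ω' : E n)))⁻¹ ∂sig n) := by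
            ring
        _ ≤ gG (ρ • (ω : E n)) y * m ρ := by
            refine mul_le_mul_right ?_ _
            exact (mul_le_mul_right (lintegral_mono_set hsub) _).trans (hM ρ hρ ω₀)
    · have hemp : {ω' : Sp n | ‖ρ • (ω' : E n) - y‖ < δ / 2} = ∅ := by
        ext ω'
        simp only [Set.mem_ofPred_eq, Set.mem_empty_iff_false, iff_false]
        exact fun h => hne ⟨ω', h⟩
      rw [hemp]
      simp
  have hFy : Measurable fun y => ∫⁻ ω', F (ω', y) ∂sig n := hFm.lintegral_prod_left'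
  have hg1 : Measurable fun y : E n => gG (ρ • (ω : E n)) y := by
    unfold gG
    fun_prop
  calc ENNReal.ofReal (ρ ^ (n - 1)) *
        ∫⁻ ω', ENNReal.ofReal (kr n ρ (ω, ω')) * (w (ρ • ω'.1))⁻¹ ∂sig n
      ≤ ENNReal.ofReal (ρ ^ (n - 1)) * ∫⁻ ω', (cA n δ * ∫⁻ y, F (ω', y)) ∂sig n := by
        refine mul_le_mul_right (lintegral_mono fun ω' => ?_) _
        rw [← e1, ← mul_assoc]
        exact mul_le_mul_left (gauss_avg hδ ρ ω ω') _
    _ = cA n δ * ∫⁻ y, (ENNReal.ofReal (ρ ^ (n - 1)) * ∫⁻ ω', F (ω', y) ∂sig n) := by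
        have hm1 : Measurable fun ω' => ∫⁻ y, F (ω', y) := hFm.lintegral_prod_right'
        rw [lintegral_const_mul _ hm1, e2, lintegral_const_mul _ hFy]
        ring
    _ ≤ cA n δ * ∫⁻ y, gG (ρ • (ω : E n)) y * m ρ :=
        mul_le_mul_right (lintegral_mono h3) _
    _ = cA n δ * cG n * m ρ := by
        rw [lintegral_mul_const _ hg1, gG_int, mul_assoc]

/-- **`MP` from the local density on spheres** -/
theorem MP_local (hn : 1 ≤ n) {w : E n → ℝ≥0∞} (hw : Measurable w) (hw0 : ∀ η, w η ≠ 0)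
    {m : ℝ → ℝ≥0∞} (hm : Measurable m) (hmi : ∫⁻ ρ in Ioi 0, m ρ ≠ ⊤) {δ : ℝ} (hδ : 0 < δ)
    (hM : LocB w m δ) : MP w := by
  refine MP_density hn hw hw0 (hm.const_mul (cA n δ * cG n)) ?_ (dens_of_local hw hδ hM)
  rw [lintegral_const_mul _ hm]
  exact ENNReal.mul_ne_top (ENNReal.mul_ne_top (cA_ne_top hδ) cG_ne_top) hmi

end Vale.Agent.P076.R2.H831
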