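import Vale.Agent.P076.R2.H831.Blk
import Vale.Agent.P076.R2.H45.Rot

/-!
# P076 : the TT* bound `C σ` for one Gaussian tube of width `σ`
-/

open MeasureTheory Complex FourierTransform Filter Topology Set
open scoped ENNReal NNReal

namespace Vale.Agent.P076.R2.H831.V2

open Vale.Agent.P076 Vale.Agent.P076.H791 Vale.Agent.P076.R2.H45

variable {n : ℕ}

/-- hypotheses on the parameters -/
structure Par2 (n : ℕ) (R L σ c K C0 : ℝ) : Prop where
  R1 : 1 ≤ R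
  L1 : 1 ≤ L
  K1 : 1 ≤ K
  LK : L ^ 2 ≤ K * R
  Rs : √R ≤ σ
  sR : σ ≤ K * R
  c1 : R ≤ |c|
  c2 : |c| ≤ 3 * R
  ex : R ^ n * Real.exp (-(Real.pi * (L ^ 2 / 18))) ≤ C0

/-- the main variable, small times -/
lemma near_main {R a c Z t δ : ℝ} (hR : 0 < R) (ha : 0 < a) (hc2 : |c| ≤ 3 * R) (hZ : Z ≠ 0)
    (ht : |t| ≤ δ) :
    (Fac a c Z t ≤ (6 * R) ^ ((1 / 2) : ℝ) * |Z| ^ (-(1 / 2) : ℝ) ∧ |Z| ≤ 12 * R * δ) ∨
    Fac a c Z t ≤ (a / 4) ^ (-(1 / 4) : ℝ) * prof (a / 4 / (a ^ 2 + 4 * δ ^ 2)) Z := by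
  have hpi := Real.pi_pos
  unfold Fac
  set D : ℝ := a ^ 2 + 4 * t ^ 2 with hD
  have hD0 : 0 < D := by positivity
  set W : ℝ := Z - 2 * t * c with hW
  have hZ0 : 0 < |Z| := abs_pos.2 hZ
  have ht0 : 0 ≤ |t| := abs_nonneg t
  have htri : |2 * t * c| = 2 * |t| * |c| := by
    rw [abs_mul, abs_mul, abs_two]
  rcases lt_or_ge |W| (|Z| / 2) with hcase | hcase
  · left
    have h1 : |Z| / 2 < 2 * |t| * |c| := by
      rw [← htri]
      have : |Z| ≤ |W| + |2 * t * c| := by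
        have h := abs_add_le W (2 * t * c)
        have e : W + 2 * t * c = Z := by rw [hW]; ring
        rw [e] at h; exact h
      linarith
    have h3 : |Z| / (6 * R) ≤ 2 * |t| := by
      rw [div_le_iff₀ (by positivity)]
      nlinarith
    have ht1 : 0 < 2 * |t| := lt_of_lt_of_le (by positivity) h3
    constructor
    · have h5 : D ^ (-(1 / 4) : ℝ) ≤ ((2 * |t|) ^ 2) ^ (-(1 / 4) : ℝ) :=
        Real.rpow_le_rpow_of_nonpos (by positivity)
          (by rw [hD, mul_pow, sq_abs]; nlinarith [sq_nonneg a]) (by norm_num)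
      have h6 : ((2 * |t|) ^ 2) ^ (-(1 / 4) : ℝ) = (2 * |t|) ^ (-(1 / 2) : ℝ) := by
        rw [← Real.rpow_natCast, ← Real.rpow_mul ht1.le]
        norm_num
      have h7 : (2 * |t|) ^ (-(1 / 2) : ℝ) ≤ (|Z| / (6 * R)) ^ (-(1 / 2) : ℝ) :=
        Real.rpow_le_rpow_of_nonpos (by positivity) h3 (by norm_num)
      have h8 : (|Z| / (6 * R)) ^ (-(1 / 2) : ℝ) =
          (6 * R) ^ ((1 / 2) : ℝ) * |Z| ^ (-(1 / 2) : ℝ) := by
        rw [Real.div_rpow hZ0.le (by positivity), Real.rpow_neg (by positivity : 0 ≤ 6 * R),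
          div_inv_eq_mul, mul_comm]
      have hexp : Real.exp (-(Real.pi * (a * W ^ 2 / D))) ≤ 1 := by
        rw [Real.exp_le_one_iff]
        have : 0 ≤ Real.pi * (a * W ^ 2 / D) := by positivity
        linarith
      calc D ^ (-(1 / 4) : ℝ) * Real.exp (-(Real.pi * (a * W ^ 2 / D)))
          ≤ D ^ (-(1 / 4) : ℝ) * 1 := by gcongr
        _ ≤ _ := by rw [mul_one, ← h8]; exact h5.trans (h6.le.trans h7)
    · have h9 : |Z| ≤ 12 * R * |t| := by nlinarith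
      exact h9.trans (by gcongr)
  · right
    have h4 : Z ^ 2 ≤ 4 * W ^ 2 := by
      have h5 : (|Z| / 2) ^ 2 ≤ |W| ^ 2 := by gcongr
      rw [div_pow, sq_abs, sq_abs] at h5
      linarith
    have hδ : t ^ 2 ≤ δ ^ 2 := by
      rw [← sq_abs t]
      gcongr
    have h5 := psi_bound (D := D) (U := a ^ 2 + 4 * δ ^ 2) (b := a / 4) hD0
      (by rw [hD]; linarith) (by positivity) hZ
    refine le_trans ?_ h5
    have h6 : a / 4 * Z ^ 2 / D ≤ a * W ^ 2 / D := by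
      rw [div_le_div_iff_of_pos_right hD0]
      have := mul_le_mul_of_nonneg_left h4 ha.le
      linarith
    gcongr

/-- the first bound -/
noncomputable def gA (i0 : Fin n) (R σ : ℝ) (i : Fin n) (x : ℝ) : ℝ :=
  aa i0 ((6 * R) ^ ((1 / 2) : ℝ) * Real.exp 1) (((σ ^ 2)⁻¹) ^ (-(1 / 4) : ℝ)) i *
    prof (aa i0 (((12 * R * (σ ^ 2)⁻¹) ^ 2)⁻¹) ((σ ^ 2)⁻¹ / (5 * ((σ ^ 2)⁻¹) ^ 2)) i) x

/-- the second bound -/
noncomputable def gB (i0 : Fin n) (a σ : ℝ) (i : Fin n) (x : ℝ) : ℝ :=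
  aa i0 ((a / 4) ^ (-(1 / 4) : ℝ)) (((σ ^ 2)⁻¹) ^ (-(1 / 4) : ℝ)) i *
    prof (aa i0 (a / 4 / (a ^ 2 + 4 * ((σ ^ 2)⁻¹) ^ 2)) ((σ ^ 2)⁻¹ / (5 * ((σ ^ 2)⁻¹) ^ 2)) i) x

/-- small times -/
lemma near_prod {R a σ c : ℝ} (hR : 0 < R) (ha : 0 < a) (hσ : 0 < σ) (hc2 : |c| ≤ 3 * R)
    (i0 : Fin n) {z : Fin n → ℝ} {t : ℝ} (hz : ∀ i, z i ≠ 0) (ht : |t| ≤ (σ ^ 2)⁻¹) :
    ∏ i, Fac (aa i0 a ((σ ^ 2)⁻¹) i) (aa i0 c 0 i) (z i) t ≤
      ∏ i, gA i0 R σ i (z i) + ∏ i, gB i0 a σ i (z i) := by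
  have hb0 : 0 < (σ ^ 2)⁻¹ := by positivity
  have nA : 0 ≤ ∏ i, gA i0 R σ i (z i) := Finset.prod_nonneg fun i _ =>
    mul_nonneg (aa_nonneg (by positivity) (by positivity) i) (prof_nonneg _ _)
  have nB : 0 ≤ ∏ i, gB i0 a σ i (z i) := Finset.prod_nonneg fun i _ =>
    mul_nonneg (aa_nonneg (by positivity) (by positivity) i) (prof_nonneg _ _)
  have ht2 : t ^ 2 ≤ ((σ ^ 2)⁻¹) ^ 2 := by
    rw [← sq_abs t]
    gcongr
  have side : ∀ i, i ≠ i0 → Fac (aa i0 a ((σ ^ 2)⁻¹) i) (aa i0 c 0 i) (z i) t ≤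
        ((σ ^ 2)⁻¹) ^ (-(1 / 4) : ℝ) * prof ((σ ^ 2)⁻¹ / (5 * ((σ ^ 2)⁻¹) ^ 2)) (z i) := by
    intro i hi
    have h1 := psi_bound (D := ((σ ^ 2)⁻¹) ^ 2 + 4 * t ^ 2) (U := 5 * ((σ ^ 2)⁻¹) ^ 2)
      (by positivity) (by linarith) hb0 (hz i)
    simp only [Fac, aa, hi, if_false, mul_zero, sub_zero]
    exact h1
  rcases near_main (a := a) (c := c) (t := t) (δ := (σ ^ 2)⁻¹) hR ha hc2 (hz i0) ht with hA | hB
  · have h1 : ∏ i, Fac (aa i0 a ((σ ^ 2)⁻¹) i) (aa i0 c 0 i) (z i) t ≤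
        ∏ i, gA i0 R σ i (z i) := by
      refine Finset.prod_le_prod (fun i _ => Fac_nonneg _ _ _ _) fun i _ => ?_
      by_cases hi : i = i0
      · subst hi
        simp only [gA, aa, if_true]
        refine hA.1.trans ?_
        have h2 := exp_one_prof (by positivity : (0 : ℝ) < 12 * R * (σ ^ 2)⁻¹) hA.2
        calc (6 * R) ^ ((1 / 2) : ℝ) * |z i| ^ (-(1 / 2) : ℝ)
            ≤ (6 * R) ^ ((1 / 2) : ℝ) * (Real.exp 1 *
              prof (((12 * R * (σ ^ 2)⁻¹) ^ 2)⁻¹) (z i)) := by gcongr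
          _ = _ := by ring
      · refine (side i hi).trans (le_of_eq ?_)
        simp only [gA, aa, hi, if_false]
    linarith
  · have h1 : ∏ i, Fac (aa i0 a ((σ ^ 2)⁻¹) i) (aa i0 c 0 i) (z i) t ≤
        ∏ i, gB i0 a σ i (z i) := by
      refine Finset.prod_le_prod (fun i _ => Fac_nonneg _ _ _ _) fun i _ => ?_
      by_cases hi : i = i0
      · subst hi
        simp only [gB, aa, if_true]
        exact hB
      · refine (side i hi).trans (le_of_eq ?_)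
        simp only [gB, aa, hi, if_false]
    linarith

lemma side_int {σ : ℝ} (hσ : 0 < σ) :
    ((σ ^ 2)⁻¹) ^ (-(1 / 4) : ℝ) *
      (((σ ^ 2)⁻¹ / (5 * ((σ ^ 2)⁻¹) ^ 2)) ^ (-(1 / 4) : ℝ) * gcon) = 5 ^ ((1 / 4) : ℝ) * gcon := by
  have hb0 : 0 < (σ ^ 2)⁻¹ := by positivity
  set b : ℝ := (σ ^ 2)⁻¹ with hb
  have e1 : b / (5 * b ^ 2) = 5⁻¹ * b⁻¹ := by field_simp
  have e2 : b ^ (-(1 / 4) : ℝ) * (b⁻¹) ^ (-(1 / 4) : ℝ) = 1 := by
    rw [← Real.mul_rpow hb0.le (by positivity), mul_inv_cancel₀ hb0.ne', Real.one_rpow]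
  rw [e1, Real.mul_rpow (by norm_num) (by positivity), Real.inv_rpow (by norm_num : (0 : ℝ) ≤ 5),
    Real.rpow_neg (by norm_num : (0 : ℝ) ≤ 5), inv_inv]
  calc b ^ (-(1 / 4) : ℝ) * (5 ^ ((1 / 4) : ℝ) * (b⁻¹) ^ (-(1 / 4) : ℝ) * gcon)
      = (b ^ (-(1 / 4) : ℝ) * (b⁻¹) ^ (-(1 / 4) : ℝ)) * (5 ^ ((1 / 4) : ℝ) * gcon) := by ring
    _ = _ := by rw [e2, one_mul]

lemma int_gA {R σ : ℝ} (hR : 0 < R) (hσ : 0 < σ) (i0 : Fin n) (i : Fin n) :
    ∫ x, gA i0 R σ i x = aa i0 (√6 * √12 * Real.exp 1 * gcon * (R / σ))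
      (5 ^ ((1 / 4) : ℝ) * gcon) i := by
  have hb0 : 0 < (σ ^ 2)⁻¹ := by positivity
  unfold gA
  rw [integral_const_mul, integral_prof (aa_pos (by positivity) (by positivity) i)]
  by_cases hi : i = i0
  · subst hi
    simp only [aa, if_true]
    have e1 : (((12 * R * (σ ^ 2)⁻¹) ^ 2)⁻¹) ^ (-(1 / 4) : ℝ) = √12 * √R * σ⁻¹ := by
      rw [Real.inv_rpow (by positivity), ← Real.rpow_natCast,
        ← Real.rpow_mul (by positivity : (0 : ℝ) ≤ 12 * R * (σ ^ 2)⁻¹),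
        ← Real.rpow_neg (by positivity)]
      have h1 : -(((2 : ℕ) : ℝ) * (-(1 / 4))) = (1 / 2 : ℝ) := by norm_num
      rw [h1, Real.mul_rpow (by positivity) (by positivity),
        Real.mul_rpow (by norm_num) hR.le, ← Real.sqrt_eq_rpow, ← Real.sqrt_eq_rpow,
        ← Real.sqrt_eq_rpow, Real.sqrt_inv, Real.sqrt_sq hσ.le]
    have e2 : (6 * R) ^ ((1 / 2) : ℝ) = √6 * √R := by
      rw [Real.mul_rpow (by norm_num) hR.le, ← Real.sqrt_eq_rpow, ← Real.sqrt_eq_rpow]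
    have e3 : √R * √R = R := Real.mul_self_sqrt hR.le
    rw [e1, e2]
    calc √6 * √R * Real.exp 1 * (√12 * √R * σ⁻¹ * gcon)
        = √6 * √12 * Real.exp 1 * gcon * ((√R * √R) * σ⁻¹) := by ring
      _ = _ := by rw [e3, div_eq_mul_inv]
  · simp only [aa, hi, if_false]
    exact side_int hσ

lemma main_gB {R L σ K : ℝ} (hR : 0 < R) (hL : 1 ≤ L) (hσ : 0 < σ) (hK : 1 ≤ K)
    (hs : σ ≤ K * R) :
    ((L / R) ^ 2 / 4) ^ (-(1 / 4) : ℝ) *
      (((L / R) ^ 2 / 4 / (((L / R) ^ 2) ^ 2 + 4 * ((σ ^ 2)⁻¹) ^ 2)) ^ (-(1 / 4) : ℝ)) ≤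
      3 * K * (R / σ) := by
  have hL0 : 0 < L := by linarith
  set a : ℝ := (L / R) ^ 2 with ha
  have ha0 : 0 < a := by positivity
  set b : ℝ := (σ ^ 2)⁻¹ with hb
  have hb0 : 0 < b := by positivity
  set y : ℝ := R / σ with hy
  have hy0 : 0 < y := by positivity
  have hKy : 1 ≤ K * y := by
    rw [hy, ← mul_div_assoc, one_le_div hσ]
    exact hs
  have e1 : (a / 4) ^ (-(1 / 4) : ℝ) * ((a / 4 / (a ^ 2 + 4 * b ^ 2)) ^ (-(1 / 4) : ℝ)) =
      ((a ^ 2 + 4 * b ^ 2) / (a / 4) ^ 2) ^ ((1 / 4) : ℝ) := by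
    rw [← Real.mul_rpow (by positivity) (by positivity), Real.rpow_neg (by positivity),
      ← Real.inv_rpow (by positivity)]
    congr 1
    field_simp
  rw [e1]
  have h1 : b ≤ a * y ^ 2 := by
    have e : a * y ^ 2 = L ^ 2 * b := by rw [ha, hy, hb]; field_simp
    rw [e]
    exact le_mul_of_one_le_left hb0.le (one_le_pow₀ hL)
  have h2 : (a ^ 2 + 4 * b ^ 2) / (a / 4) ^ 2 ≤ (3 * K * y) ^ 4 := by
    rw [div_le_iff₀ (by positivity)]
    have h3 : b ^ 2 ≤ (a * y ^ 2) ^ 2 := by gcongr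
    have h4 : (1 : ℝ) ≤ (K * y) ^ 4 := one_le_pow₀ hKy
    have h5 : y ^ 4 ≤ (K * y) ^ 4 := by
      gcongr
      nlinarith
    have h6 : a ^ 2 * 1 ≤ a ^ 2 * (K * y) ^ 4 := by gcongr
    have h7 : a ^ 2 * y ^ 4 ≤ a ^ 2 * (K * y) ^ 4 := by gcongr
    have h8 : 0 ≤ a ^ 2 * (K * y) ^ 4 := by positivity
    nlinarith
  calc ((a ^ 2 + 4 * b ^ 2) / (a / 4) ^ 2) ^ ((1 / 4) : ℝ)
      ≤ ((3 * K * y) ^ 4) ^ ((1 / 4) : ℝ) := Real.rpow_le_rpow (by positivity) h2 (by norm_num)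
    _ = 3 * K * y := by
        rw [← Real.rpow_natCast, ← Real.rpow_mul (by positivity)]
        norm_num

lemma int_gB {R L σ : ℝ} (hR : 0 < R) (hL : 0 < L) (hσ : 0 < σ) (i0 : Fin n) (i : Fin n) :
    ∫ x, gB i0 ((L / R) ^ 2) σ i x = aa i0 (((L / R) ^ 2 / 4) ^ (-(1 / 4) : ℝ) *
      ((((L / R) ^ 2 / 4 / (((L / R) ^ 2) ^ 2 + 4 * ((σ ^ 2)⁻¹) ^ 2)) ^ (-(1 / 4) : ℝ)) * gcon))
      (5 ^ ((1 / 4) : ℝ) * gcon) i := by
  have hb0 : 0 < (σ ^ 2)⁻¹ := by positivity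
  unfold gB
  rw [integral_const_mul, integral_prof (aa_pos (by positivity) (by positivity) i)]
  by_cases hi : i = i0
  · subst hi
    simp only [aa, if_true]
  · simp only [aa, hi, if_false]
    exact side_int hσ

/-- large times -/
lemma far_prod {R L σ c K C0 : ℝ} (h : Par2 n R L σ c K C0) (i0 : Fin n) {T : ℝ} (hT : 1 ≤ T)
    {z : Fin n → ℝ} {t : ℝ} (hz : z i0 ≠ 0) (hzT : |z i0| ≤ T) (ht : (T + K) / R ≤ |t|) :
    ∏ i, Fac (aa i0 ((L / R) ^ 2) ((σ ^ 2)⁻¹) i) (aa i0 c 0 i) (z i) t ≤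
      K ^ (n - 1) * C0 * σ := by
  have hR1 := h.R1
  have hR0 : 0 < R := by linarith
  have hL1 := h.L1
  have hL0 : 0 < L := by linarith
  have hK1 := h.K1
  have hs0 : 0 < √R := Real.sqrt_pos.2 hR0
  have hσ0 : 0 < σ := lt_of_lt_of_le hs0 h.Rs
  have hσ1 : 1 ≤ σ := by
    have h1 : 1 ≤ √R := by rw [Real.one_le_sqrt]; exact hR1
    exact h1.trans h.Rs
  have hb0 : 0 < (σ ^ 2)⁻¹ := by positivity
  have ht2 : (T + K) ^ 2 / R ^ 2 ≤ t ^ 2 := by
    rw [← div_pow, ← sq_abs t]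
    gcongr
  have hX0 := Real.exp_pos (-(Real.pi * (L ^ 2 / 18)))
  set X : ℝ := Real.exp (-(Real.pi * (L ^ 2 / 18))) with hX
  rcases one_dim_main (t := t) h.R1 h.L1 rfl h.c1 h.c2 hz with hA | hB | hC
  · exfalso
    have h1 : z i0 ^ 2 ≤ T ^ 2 := by rw [← sq_abs]; gcongr
    have h2 : 9 / 4 * (z i0 ^ 2 / R ^ 2) ≤ 9 / 4 * (T ^ 2 / R ^ 2) := by gcongr
    have h3 : 4 * ((T + K) ^ 2 / R ^ 2) ≤ 9 / 4 * (T ^ 2 / R ^ 2) := by linarith [hA.2]
    rw [← mul_div_assoc, ← mul_div_assoc, div_le_div_iff_of_pos_right (by positivity)] at h3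
    nlinarith
  · exfalso
    have h5 : ((L / R) ^ 2) ^ 2 ≤ K ^ 2 / R ^ 2 := by
      have e : ((L / R) ^ 2) ^ 2 = (L ^ 2) ^ 2 / R ^ 4 := by ring
      have e2 : K ^ 2 / R ^ 2 = (K * R) ^ 2 / R ^ 4 := by field_simp
      rw [e, e2]
      have := h.LK
      gcongr
    have h3 : 4 * ((T + K) ^ 2 / R ^ 2) ≤ K ^ 2 / R ^ 2 := by linarith [hB.2.2]
    rw [← mul_div_assoc, div_le_div_iff_of_pos_right (by positivity)] at h3
    nlinarith
  · have h1 : ∏ i, Fac (aa i0 ((L / R) ^ 2) ((σ ^ 2)⁻¹) i) (aa i0 c 0 i) (z i) t ≤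
        ∏ i, aa i0 (R / L * X) (((σ ^ 2)⁻¹) ^ (-(1 / 2) : ℝ)) i := by
      refine Finset.prod_le_prod (fun i _ => Fac_nonneg _ _ _ _) fun i _ => ?_
      by_cases hi : i = i0
      · subst hi
        simp only [Fac, aa, if_true]
        exact hC
      · simp only [Fac, aa, hi, if_false]
        exact psi_trivial hb0 (by nlinarith [sq_nonneg t]) (by positivity)
    refine h1.trans ?_
    have e1 : ((σ ^ 2)⁻¹) ^ (-(1 / 2) : ℝ) = σ := by
      rw [Real.inv_rpow (by positivity), ← Real.rpow_natCast, ← Real.rpow_mul hσ0.le,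
        ← Real.rpow_neg hσ0.le]
      norm_num
    rw [prod_aa, e1]
    have h2 : R / L ≤ R := div_le_self hR0.le hL1
    have hn : 1 ≤ n := Fin.pos i0
    have e2 : R * X * (K * R) ^ (n - 1) = K ^ (n - 1) * (R ^ n * X) := by
      obtain ⟨m, rfl⟩ : ∃ m, n = m + 1 := ⟨n - 1, by omega⟩
      simp only [Nat.add_sub_cancel]
      rw [mul_pow, pow_succ]
      ring
    have hC0 : 0 ≤ K ^ (n - 1) * C0 := by
      have := h.ex
      have h9 : 0 ≤ C0 := le_trans (by positivity) this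
      positivity
    calc R / L * X * σ ^ (n - 1) ≤ R * X * (K * R) ^ (n - 1) := by
          have := h.sR
          gcongr
      _ = K ^ (n - 1) * (R ^ n * X) := e2
      _ ≤ K ^ (n - 1) * C0 := by
          have := h.ex
          gcongr
      _ ≤ K ^ (n - 1) * C0 * σ := le_mul_of_one_le_right hC0 hσ1

lemma lint_ite {B : E n → ℝ≥0∞} {N W : Set (E n)} (hN0 : volume N = 0) [DecidablePred (· ∈ N)] :
    ∫⁻ z in W, (if z ∈ N then ⊤ else B z) = ∫⁻ z in W, B z := by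
  refine lintegral_congr_ae ?_
  have h1 : ∀ᵐ z ∂(volume : Measure (E n)), z ∉ N := by
    rw [ae_iff]
    simpa using hN0
  filter_upwards [ae_restrict_of_ae h1] with z hz
  simp [hz]

/-- **one Gaussian in diagonal position** -/
theorem TTr_diag2 (i0 : Fin n) (r : ℕ) {K C0 : ℝ} (hC0 : 0 ≤ C0) (hK1 : 1 ≤ K) :
    ∃ C : ℝ, 0 ≤ C ∧ ∀ R L σ c : ℝ, Par2 n R L σ c K C0 →
      TTr r (fun y => ENNReal.ofReal (gd i0 R L σ c y)) (ENNReal.ofReal (C * σ)) := by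
  classical
  set T : ℝ := 2 * r + 1 with hT
  have hT1 : 1 ≤ T := by
    have : (0 : ℝ) ≤ r := r.cast_nonneg
    linarith
  set v : ℝ := ((volume : Measure (E n)) (Metric.ball 0 (2 * r))).toReal with hv
  have hv0 : 0 ≤ v := ENNReal.toReal_nonneg
  have hg0 := gcon_nonneg
  set D1 : ℝ := 5 ^ ((1 / 4) : ℝ) * gcon with hD1
  have hD10 : 0 ≤ D1 := by positivity
  set C1 : ℝ := (√6 * √12 * Real.exp 1 * gcon + 3 * K * gcon) * D1 ^ (n - 1) with hC1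
  have hC10 : 0 ≤ C1 := by positivity
  refine ⟨2 * ((T + K + 1) * C1 + K ^ (n - 1) * C0 * v), by positivity, fun R L σ c h => ?_⟩
  have hR1 := h.R1
  have hR0 : 0 < R := by linarith
  have hL1 := h.L1
  have hL0 : 0 < L := by linarith
  have hs0 : 0 < √R := Real.sqrt_pos.2 hR0
  have hσ0 : 0 < σ := lt_of_lt_of_le hs0 h.Rs
  have hb0 : 0 < (σ ^ 2)⁻¹ := by positivity
  have hRσ : R ≤ σ ^ 2 := by
    have h2 := Real.sq_sqrt hR0.le
    have h3 : √R ^ 2 ≤ σ ^ 2 := by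
      gcongr
      exact h.Rs
    linarith
  have hapos : ∀ i, 0 < aa i0 ((L / R) ^ 2) ((σ ^ 2)⁻¹) i := fun i => aa_pos (by positivity) hb0 i
  have nA : ∀ i x, 0 ≤ gA i0 R σ i x := fun i x =>
    mul_nonneg (aa_nonneg (by positivity) (by positivity) i) (prof_nonneg _ _)
  have nB : ∀ i x, 0 ≤ gB i0 ((L / R) ^ 2) σ i x := fun i x =>
    mul_nonneg (aa_nonneg (by positivity) (by positivity) i) (prof_nonneg _ _)
  have iA : ∀ i, Integrable (gA i0 R σ i) := fun i =>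
    (integrable_prof (aa_pos (by positivity) (by positivity) i)).const_mul _
  have iB : ∀ i, Integrable (gB i0 ((L / R) ^ 2) σ i) := fun i =>
    (integrable_prof (aa_pos (by positivity) (by positivity) i)).const_mul _
  have mA : Measurable fun z : E n => ENNReal.ofReal (∏ i, gA i0 R σ i (z i)) := by
    refine ENNReal.measurable_ofReal.comp (Finset.measurable_prod _ fun i _ => ?_)
    exact ((measurable_prof _).const_mul _).comp (by fun_prop)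
  have mB : Measurable fun z : E n => ENNReal.ofReal (∏ i, gB i0 ((L / R) ^ 2) σ i (z i)) := by
    refine ENNReal.measurable_ofReal.comp (Finset.measurable_prod _ fun i _ => ?_)
    exact ((measurable_prof _).const_mul _).comp (by fun_prop)
  -- the number of blocks
  set N : ℕ := ⌈(T + K) * σ ^ 2 / R⌉₊ with hN
  have hN0 : 0 < N := Nat.ceil_pos.2 (by positivity)
  have hN1 : (T + K) * σ ^ 2 / R ≤ N := Nat.le_ceil _
  have hN2 : (N : ℝ) ≤ (T + K + 1) * (σ ^ 2 / R) := by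
    have h1 : (N : ℝ) < (T + K) * σ ^ 2 / R + 1 := Nat.ceil_lt_add_one (by positivity)
    have h2 : 1 ≤ σ ^ 2 / R := by rw [one_le_div hR0]; exact hRσ
    have h3 : (T + K + 1) * (σ ^ 2 / R) = (T + K) * σ ^ 2 / R + σ ^ 2 / R := by ring
    linarith
  have hN3 : (T + K) / R ≤ N * (σ ^ 2)⁻¹ := by
    calc (T + K) / R = (T + K) * σ ^ 2 / R * (σ ^ 2)⁻¹ := by field_simp
      _ ≤ _ := by gcongr
  have hKer := H305.norm_Ker_gauss (n := n) (aa i0 ((L / R) ^ 2) ((σ ^ 2)⁻¹)) (aa i0 c 0) hapos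
  have hzabs : ∀ z : E n, ‖z‖ < 2 * r → |z i0| ≤ T := by
    intro z hz
    have h1 : |z i0| ≤ ‖z‖ := by
      have := PiLp.norm_apply_le z i0
      rwa [Real.norm_eq_abs] at this
    rw [hT]
    linarith
  have main := TTr_blocks (r := r) (G := gd i0 R L σ c)
    (H305.integrable_gauss (aa i0 ((L / R) ^ 2) ((σ ^ 2)⁻¹)) (aa i0 c 0) hapos)
    (measurable_gd i0 R L σ c) (fun η => (Real.exp_pos _).le) hN0 hb0
    (B₁ := fun z => if z ∈ Zs n then ⊤ else (ENNReal.ofReal (∏ i, gA i0 R σ i (z i)) +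
      ENNReal.ofReal (∏ i, gB i0 ((L / R) ^ 2) σ i (z i))))
    (B₂ := fun z => if z ∈ Zs n then ⊤ else ENNReal.ofReal (K ^ (n - 1) * C0 * σ))
    (Measurable.ite measurableSet_Zs measurable_const (mA.add mB))
    (Measurable.ite measurableSet_Zs measurable_const measurable_const)
    (S₁ := ENNReal.ofReal (C1 * (R / σ))) (S₂ := ENNReal.ofReal (K ^ (n - 1) * C0 * σ * v))
    ?_ ?_ ?_ ?_
  · refine main.mono (fun η => le_rfl) ?_
    rw [← ENNReal.ofReal_natCast, ← ENNReal.ofReal_mul (by positivity),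
      ← ENNReal.ofReal_add (by positivity) (by positivity),
      show (2 : ℝ≥0∞) = ENNReal.ofReal 2 by norm_num, ← ENNReal.ofReal_mul (by norm_num)]
    refine ENNReal.ofReal_le_ofReal ?_
    have h1 : (N : ℝ) * (C1 * (R / σ)) ≤ (T + K + 1) * (σ ^ 2 / R) * (C1 * (R / σ)) := by gcongr
    have h2 : (T + K + 1) * (σ ^ 2 / R) * (C1 * (R / σ)) = (T + K + 1) * C1 * σ := by field_simp
    rw [h2] at h1
    calc 2 * ((N : ℝ) * (C1 * (R / σ)) + K ^ (n - 1) * C0 * σ * v)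
        ≤ 2 * ((T + K + 1) * C1 * σ + K ^ (n - 1) * C0 * σ * v) := by gcongr
      _ = _ := by ring
  · intro z hz t ht
    by_cases hzN : z ∈ Zs n
    · simp only [hzN, if_true]
      exact le_top
    · simp only [hzN, if_false]
      have hz' : ∀ i, z i ≠ 0 := fun i hi => hzN (mem_iUnion.2 ⟨i, hi⟩)
      have h1 := near_prod (a := (L / R) ^ 2) hR0 (by positivity) hσ0 h.c2 i0 hz' ht
      rw [← ofReal_norm, ← ENNReal.ofReal_add (Finset.prod_nonneg fun i _ => nA i _)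
        (Finset.prod_nonneg fun i _ => nB i _)]
      exact ENNReal.ofReal_le_ofReal ((hKer z t).le.trans h1)
  · intro z hz t ht
    by_cases hzN : z ∈ Zs n
    · simp only [hzN, if_true]
      exact le_top
    · simp only [hzN, if_false]
      have hz' : ∀ i, z i ≠ 0 := fun i hi => hzN (mem_iUnion.2 ⟨i, hi⟩)
      have h1 := far_prod h i0 hT1 (hz' i0) (hzabs z hz) (hN3.trans ht)
      rw [← ofReal_norm]
      exact ENNReal.ofReal_le_ofReal ((hKer z t).le.trans h1)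
  · rw [lint_ite volume_Zs, lintegral_add_left mA]
    have h1 : ∫⁻ z in Metric.ball (0 : E n) (2 * r), ENNReal.ofReal (∏ i, gA i0 R σ i (z i)) ≤
        ENNReal.ofReal (√6 * √12 * Real.exp 1 * gcon * (R / σ) * D1 ^ (n - 1)) := by
      refine (setLIntegral_le_lintegral _ _).trans ?_
      rw [lint_prod _ nA iA]
      refine ENNReal.ofReal_le_ofReal (le_of_eq ?_)
      rw [Finset.prod_congr rfl fun i _ => int_gA hR0 hσ0 i0 i, prod_aa]
    have h2 : ∫⁻ z in Metric.ball (0 : E n) (2 * r),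
        ENNReal.ofReal (∏ i, gB i0 ((L / R) ^ 2) σ i (z i)) ≤
        ENNReal.ofReal (3 * K * (R / σ) * gcon * D1 ^ (n - 1)) := by
      refine (setLIntegral_le_lintegral _ _).trans ?_
      rw [lint_prod _ nB iB]
      refine ENNReal.ofReal_le_ofReal ?_
      rw [Finset.prod_congr rfl fun i _ => int_gB hR0 hL0 hσ0 i0 i, prod_aa, ← mul_assoc]
      have h3 := main_gB hR0 hL1 hσ0 hK1 h.sR
      gcongr
    refine (add_le_add h1 h2).trans (le_of_eq ?_)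
    rw [← ENNReal.ofReal_add (by positivity) (by positivity)]
    congr 1
    rw [hC1]
    ring
  · rw [lint_ite volume_Zs, lintegral_const, Measure.restrict_apply_univ,
      ← ENNReal.ofReal_toReal (measure_ball_lt_top (μ := (volume : Measure (E n))) (x := 0)
        (r := 2 * (r : ℝ))).ne, ← ENNReal.ofReal_mul (by positivity)]

/-- **one Gaussian** -/
theorem TTr_gg2 (hn : 1 ≤ n) (r : ℕ) {K C0 : ℝ} (hC0 : 0 ≤ C0) (hK1 : 1 ≤ K) :
    ∃ C : ℝ, 0 ≤ C ∧ ∀ R L σ c : ℝ, Par2 n R L σ c K C0 → ∀ e : E n, ‖e‖ = 1 →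
      TTr r (fun η => ENNReal.ofReal (gg e R L σ c η)) (ENNReal.ofReal (C * σ)) := by
  obtain ⟨C, hC, h⟩ := TTr_diag2 (n := n) ⟨0, hn⟩ r (K := K) hC0 hK1
  refine ⟨C, hC, fun R L σ c hP e he => ?_⟩
  obtain ⟨U, hU⟩ := exists_rot he ⟨0, hn⟩
  refine ((h R L σ c hP).rot U).mono (fun η => le_of_eq ?_) le_rfl
  rw [gd_eq, hU, U.norm_map, gg]

end Vale.Agent.P076.R2.H831.V2
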