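import Mathlib.MeasureTheory.Constructions.HaarToSphere
import Vale.Agent.P076.H791.Pos3

/-!
# P076 : polar coordinates
-/

open MeasureTheory Complex FourierTransform Filter Topology Set
open scoped ENNReal NNReal

namespace Vale.Agent.P076.R2.H831

open Vale.Agent.P076 Vale.Agent.P076.H791

variable {n : ℕ}

/-- the unit sphere -/
abbrev Sp (n : ℕ) := Metric.sphere (0 : E n) 1

/-- the surface measure -/
noncomputable abbrev sig (n : ℕ) : Measure (Sp n) := (volume : Measure (E n)).toSphere

/-- the radial measure `ρ ^ (n - 1) dρ` -/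
noncomputable abbrev nu (n : ℕ) : Measure (Ioi (0 : ℝ)) := Measure.volumeIoiPow (n - 1)

lemma nt (hn : 1 ≤ n) : Nontrivial (E n) := by
  have : Nonempty (Fin n) := ⟨⟨0, hn⟩⟩
  infer_instance

/-- polar coordinates, nonnegative functions -/
lemma lint_polar (hn : 1 ≤ n) {f : E n → ℝ≥0∞} (hf : Measurable f) :
    ∫⁻ x, f x = ∫⁻ ρ, ∫⁻ ω, f (ρ.1 • ω.1) ∂sig n ∂nu n := by
  have := nt hn
  have hd : Module.finrank ℝ (E n) = n := by simp
  have h1 := (volume : Measure (E n)).measurePreserving_homeomorphUnitSphereProd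
  rw [hd] at h1
  have h2 := h1.lintegral_comp_emb (Homeomorph.measurableEmbedding _)
    (fun p : Sp n × Ioi (0 : ℝ) => f (p.2.1 • p.1.1))
  have h3 : ∀ y : ({0}ᶜ : Set (E n)), f ((homeomorphUnitSphereProd (E n) y).2.1 •
      (homeomorphUnitSphereProd (E n) y).1.1) = f y := by
    intro y
    have hy : ‖(y : E n)‖ ≠ 0 := norm_ne_zero_iff.2 (fun h => y.2 (by simp [h]))
    simp only [homeomorphUnitSphereProd_apply_snd_coe, homeomorphUnitSphereProd_apply_fst_coe]
    rw [smul_smul, mul_inv_cancel₀ hy, one_smul]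
  simp_rw [h3] at h2
  have h4 : ∫⁻ y : ({0}ᶜ : Set (E n)), f y ∂(Measure.comap (↑) (volume : Measure (E n)))
      = ∫⁻ x, f x := by
    rw [lintegral_subtype_comap (measurableSet_singleton _).compl, restrict_compl_singleton]
  rw [← h4, h2, lintegral_prod_symm']
  exact hf.comp (by fun_prop)

/-- polar coordinates, integrable functions -/
lemma int_polar (hn : 1 ≤ n) {f : E n → ℂ} (hf : Integrable f) :
    ∫ x, f x = ∫ ρ, ∫ ω, f (ρ.1 • ω.1) ∂sig n ∂nu n := by
  have := nt hn
  have hd : Module.finrank ℝ (E n) = n := by simp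
  have h1 := (volume : Measure (E n)).measurePreserving_homeomorphUnitSphereProd
  rw [hd] at h1
  have h2 := h1.integral_comp (Homeomorph.measurableEmbedding _)
    (fun p : Sp n × Ioi (0 : ℝ) => f (p.2.1 • p.1.1))
  have h2i := h1.integrable_comp_emb (Homeomorph.measurableEmbedding _)
    (g := fun p : Sp n × Ioi (0 : ℝ) => f (p.2.1 • p.1.1))
  have h3 : ∀ y : ({0}ᶜ : Set (E n)), f ((homeomorphUnitSphereProd (E n) y).2.1 •
      (homeomorphUnitSphereProd (E n) y).1.1) = f y := by
    intro y
    have hy : ‖(y : E n)‖ ≠ 0 := norm_ne_zero_iff.2 (fun h => y.2 (by simp [h]))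
    simp only [homeomorphUnitSphereProd_apply_snd_coe, homeomorphUnitSphereProd_apply_fst_coe]
    rw [smul_smul, mul_inv_cancel₀ hy, one_smul]
  simp_rw [h3] at h2
  simp only [Function.comp_def, h3] at h2i
  have h4 : ∫ y : ({0}ᶜ : Set (E n)), f y ∂(Measure.comap (↑) (volume : Measure (E n)))
      = ∫ x, f x := by
    rw [integral_subtype_comap (measurableSet_singleton _).compl, restrict_compl_singleton]
  have h5 : Integrable (fun y : ({0}ᶜ : Set (E n)) => f y)
      (Measure.comap (↑) (volume : Measure (E n))) := by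
    have h6 := (MeasurableEmbedding.subtype_coe
      (measurableSet_singleton (0 : E n)).compl).integrableOn_range_iff_comap (f := f) (μ := volume)
    exact h6.1 hf.integrableOn
  rw [← h4, h2, integral_prod_symm _ (h2i.1 h5)]

end Vale.Agent.P076.R2.H831
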