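import Vale.Agent.P076.R2.H831.Ext

/-!
# P076 : the maximal estimate for radial weights with integrable inverse
-/

open MeasureTheory Complex FourierTransform Filter Topology Set
open scoped ENNReal NNReal ComplexConjugate

namespace Vale.Agent.P076.R2.H831

open Vale.Agent.P076 Vale.Agent.P076.H791

variable {n : ℕ}

/-- the constant of the extension bound -/
noncomputable def C0 (n : ℕ) : ℝ := n * (Real.exp 1 * Real.pi)

lemma kr_int_le (hn : 1 ≤ n) (h : SphG n) {ρ : ℝ} (hρ : 0 < ρ) (ω : Sp n) :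
    ∫ ω', kr n ρ (ω, ω') ∂sig n ≤ C0 n * (ρ ^ (n - 1))⁻¹ := by
  unfold kr
  simp only
  rw [integral_const_mul]
  have h1 := h ((Real.pi * ρ) ^ 2) (by positivity) ω
  refine (mul_le_mul_of_nonneg_left h1 (by positivity)).trans (le_of_eq ?_)
  have hpi := Real.pi_pos
  have hs : √Real.pi ≠ 0 := (Real.sqrt_pos.2 hpi).ne'
  have e1 : Real.pi / (Real.pi * ρ) ^ 2 = (1 / (√Real.pi * ρ)) ^ 2 := by
    have h2 := Real.sq_sqrt hpi.le
    rw [div_pow, mul_pow, mul_pow, h2]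
    field_simp
  have e2 : Real.pi ^ ((n : ℝ) / 2) = √Real.pi ^ n := by
    rw [Real.sqrt_eq_rpow, ← Real.rpow_natCast, ← Real.rpow_mul hpi.le]
    congr 1
    ring
  rw [e1, Real.sqrt_sq (by positivity), e2, C0]
  obtain ⟨m, rfl⟩ : ∃ m, n = m + 1 := ⟨n - 1, by omega⟩
  rw [Nat.add_sub_cancel, one_div, inv_pow, mul_pow, pow_succ, mul_inv]
  have h3 : √Real.pi * √Real.pi = Real.pi := Real.mul_self_sqrt hpi.le
  have h4 : √Real.pi ^ m ≠ 0 := pow_ne_zero _ hs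
  calc √Real.pi ^ m * √Real.pi * (((m + 1 : ℕ) : ℝ) * (Real.exp 1 *
        (√Real.pi * ((√Real.pi ^ m)⁻¹ * (ρ ^ m)⁻¹))))
      = (√Real.pi ^ m * (√Real.pi ^ m)⁻¹) * ((((m + 1 : ℕ) : ℝ) * (Real.exp 1 *
        (√Real.pi * √Real.pi))) * (ρ ^ m)⁻¹) := by ring
    _ = _ := by rw [mul_inv_cancel₀ h4, one_mul, h3]

lemma stronglyMeasurable_ext (ρ : ℝ) {g : Sp n → ℂ} (hg : Measurable g) :
    StronglyMeasurable (ext ρ g) := by
  have m1 : Measurable fun q : E n × Sp n => os ρ q.1 q.2 * g q.2 :=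
    (continuous_os ρ).measurable.mul (hg.comp measurable_snd)
  exact m1.stronglyMeasurable.integral_prod_right

lemma norm_ext_le (ρ : ℝ) {g : Sp n → ℂ} {B : ℝ} (hB : ∀ ω, ‖g ω‖ ≤ B) (x : E n) :
    ‖ext ρ g x‖ ≤ B * (sig n).real univ := by
  unfold ext
  refine norm_integral_le_of_norm_le_const (Eventually.of_forall fun ω => ?_)
  rw [norm_mul, norm_os, one_mul]
  exact hB ω

lemma ext_lint (hn : 1 ≤ n) (h : SphG n) {ρ : ℝ} (hρ : 0 < ρ) {g : Sp n → ℂ} (hg : Measurable g)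
    {B : ℝ} (hB : ∀ ω, ‖g ω‖ ≤ B) :
    ∫⁻ x : E n, ENNReal.ofReal (Real.exp (-‖x‖ ^ 2)) * ‖ext ρ g x‖ₑ ^ 2
      ≤ ENNReal.ofReal (C0 n) * (ENNReal.ofReal (ρ ^ (n - 1)))⁻¹ * ∫⁻ ω, ‖g ω‖ₑ ^ 2 ∂sig n := by
  have hC0 : 0 ≤ C0 n := by unfold C0; positivity
  have h1 := schur ρ _ (kr_int_le hn h hρ) hg hB
  have i1 : Integrable fun x : E n => Real.exp (-‖x‖ ^ 2) * ‖ext ρ g x‖ ^ 2 := by
    refine integrable_gauss.mul_bdd (c := (B * (sig n).real univ) ^ 2)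
      (((stronglyMeasurable_ext ρ hg).norm.pow 2).aestronglyMeasurable)
      (Eventually.of_forall fun x => ?_)
    rw [norm_pow, norm_norm]
    exact pow_le_pow_left₀ (norm_nonneg _) (norm_ext_le ρ hB x) 2
  have i2 : Integrable (fun ω => ‖g ω‖ ^ 2) (sig n) := by
    refine Integrable.of_bound (C := B ^ 2) ((hg.norm).pow_const 2).aestronglyMeasurable
      (Eventually.of_forall fun ω => ?_)
    rw [norm_pow, norm_norm]
    exact pow_le_pow_left₀ (norm_nonneg _) (hB _) 2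
  have e1 : ∫⁻ x : E n, ENNReal.ofReal (Real.exp (-‖x‖ ^ 2)) * ‖ext ρ g x‖ₑ ^ 2
      = ENNReal.ofReal (∫ x : E n, Real.exp (-‖x‖ ^ 2) * ‖ext ρ g x‖ ^ 2) := by
    rw [ofReal_integral_eq_lintegral_ofReal i1 (Eventually.of_forall fun x => by positivity)]
    refine lintegral_congr fun x => ?_
    rw [ENNReal.ofReal_mul (Real.exp_pos _).le, ENNReal.ofReal_pow (norm_nonneg _), ofReal_norm]
  have e2 : ∫⁻ ω, ‖g ω‖ₑ ^ 2 ∂sig n = ENNReal.ofReal (∫ ω, ‖g ω‖ ^ 2 ∂sig n) := by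
    rw [ofReal_integral_eq_lintegral_ofReal i2 (Eventually.of_forall fun x => by positivity)]
    refine lintegral_congr fun x => ?_
    rw [ENNReal.ofReal_pow (norm_nonneg _), ofReal_norm]
  rw [e1, e2, ← ENNReal.ofReal_inv_of_pos (by positivity), ← ENNReal.ofReal_mul hC0,
    ← ENNReal.ofReal_mul (by positivity)]
  exact ENNReal.ofReal_le_ofReal h1

/-- the radial profile -/
noncomputable def pro (G : E n → ℂ) (x : E n) (ρ : Ioi (0 : ℝ)) : ℂ :=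
  ext ρ.1 (fun ω => G (ρ.1 • ω.1)) x

lemma measurable_pro {G : E n → ℂ} (hG : Measurable G) :
    Measurable fun q : E n × Ioi (0 : ℝ) => pro G q.1 q.2 := by
  have c1 : Continuous fun q : (E n × Ioi (0 : ℝ)) × Sp n => os q.1.2.1 q.1.1 q.2 := by
    unfold os
    fun_prop
  have c2 : Continuous fun q : (E n × Ioi (0 : ℝ)) × Sp n => (q.1.2.1 • q.2.1 : E n) := by
    fun_prop
  have m1 : Measurable fun q : (E n × Ioi (0 : ℝ)) × Sp n =>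
      os q.1.2.1 q.1.1 q.2 * G (q.1.2.1 • q.2.1) :=
    c1.measurable.mul (hG.comp c2.measurable)
  exact m1.stronglyMeasurable.integral_prod_right.measurable

/-- the dominating function -/
noncomputable def dom (G : E n → ℂ) (x : E n) : ℝ≥0∞ := ∫⁻ ρ, ‖pro G x ρ‖ₑ ∂nu n

lemma measurable_dom {G : E n → ℂ} (hG : Measurable G) : Measurable (dom G) := by
  unfold dom
  exact (measurable_pro hG).enorm.lintegral_prod_right'

lemma evo_le_dom (hn : 1 ≤ n) {G : E n → ℂ} (hG : Integrable G) (x : E n) (s : ℝ) :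
    ‖evo G x s 0‖ₑ ≤ dom G x := by
  rw [evo_eq, int_polar hn (integrable_ph_mul hG x s le_rfl)]
  refine (enorm_integral_le_lintegral_enorm _).trans (le_of_eq ?_)
  unfold dom
  refine lintegral_congr fun ρ => ?_
  have hρ : 0 < ρ.1 := ρ.2
  have e1 : ∀ ω : Sp n, ph x s 0 (ρ.1 • ω.1) * G (ρ.1 • ω.1)
      = cexp (((-(2 * Real.pi * (s * ρ.1 ^ 2)) : ℝ) : ℂ) * I) *
        (os ρ.1 x ω * G (ρ.1 • ω.1)) := by
    intro ω
    have hω : ‖(ω : E n)‖ = 1 := by simp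
    rw [← mul_assoc, os, ← Complex.exp_add, ph, norm_smul, hω, mul_one, Real.norm_eq_abs, sq_abs,
      inner_smul_right]
    congr 2
    push_cast
    ring
  simp_rw [e1]
  rw [integral_const_mul, enorm_mul]
  have e2 : ‖cexp (((-(2 * Real.pi * (s * ρ.1 ^ 2)) : ℝ) : ℂ) * I)‖ₑ = 1 := by
    rw [← ofReal_norm, Complex.norm_exp_ofReal_mul_I, ENNReal.ofReal_one]
  rw [e2, one_mul]
  rfl

/-- Cauchy-Schwarz with a weight -/
lemma cs_weight {α : Type*} [MeasurableSpace α] {μ : Measure α} {f u : α → ℝ≥0∞}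
    (hf : AEMeasurable f μ) (hu : AEMeasurable u μ) (h0 : ∀ᵐ a ∂μ, u a ≠ 0)
    (h : ∀ᵐ a ∂μ, u a = ⊤ → f a = 0) :
    (∫⁻ a, f a ∂μ) ^ 2 ≤ (∫⁻ a, (u a)⁻¹ ∂μ) * ∫⁻ a, u a * f a ^ 2 ∂μ := by
  have h1 := ENNReal.lintegral_mul_le_Lp_mul_Lq μ (p := 2) (q := 2)
    (by rw [Real.holderConjugate_iff]; norm_num)
    (f := fun a => (u a)⁻¹ ^ (1 / 2 : ℝ)) (g := fun a => u a ^ (1 / 2 : ℝ) * f a)
    (hu.inv.pow_const _) ((hu.pow_const _).mul hf)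
  have e1 : ∫⁻ a, ((fun a => (u a)⁻¹ ^ (1 / 2 : ℝ)) * fun a => u a ^ (1 / 2 : ℝ) * f a) a ∂μ
      = ∫⁻ a, f a ∂μ := by
    refine lintegral_congr_ae ?_
    filter_upwards [h0, h] with a ha hb
    simp only [Pi.mul_apply]
    by_cases ht : u a = ⊤
    · rw [hb ht, mul_zero, mul_zero]
    · rw [← mul_assoc, ← ENNReal.mul_rpow_of_nonneg _ _ (by norm_num),
        ENNReal.inv_mul_cancel ha ht, ENNReal.one_rpow, one_mul]
  have e2 : ∀ a, ((u a)⁻¹ ^ (1 / 2 : ℝ)) ^ (2 : ℝ) = (u a)⁻¹ := fun a => by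
    rw [← ENNReal.rpow_mul]; norm_num
  have e3 : ∀ a, (u a ^ (1 / 2 : ℝ) * f a) ^ (2 : ℝ) = u a * f a ^ 2 := fun a => by
    rw [ENNReal.mul_rpow_of_nonneg _ _ (by norm_num), ← ENNReal.rpow_mul]
    norm_num
  rw [e1] at h1
  simp_rw [e2, e3] at h1
  have h2 := pow_le_pow_left' h1 2
  refine h2.trans (le_of_eq ?_)
  rw [mul_pow, ← ENNReal.rpow_natCast, ← ENNReal.rpow_natCast, ← ENNReal.rpow_mul,
    ← ENNReal.rpow_mul]
  norm_num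

/-- the density -/
noncomputable def kk (n : ℕ) (ρ : Ioi (0 : ℝ)) : ℝ≥0∞ := ENNReal.ofReal (ρ.1 ^ (n - 1))

lemma kk_ne_zero (ρ : Ioi (0 : ℝ)) : kk n ρ ≠ 0 := by
  have : 0 < ρ.1 := ρ.2
  simp only [kk, ne_eq, ENNReal.ofReal_eq_zero, not_le]
  positivity

lemma kk_ne_top (ρ : Ioi (0 : ℝ)) : kk n ρ ≠ ⊤ := ENNReal.ofReal_ne_top

lemma measurable_kk : Measurable (kk n) := by
  unfold kk
  fun_prop

/-- the spherical energies -/
noncomputable def SS (G : E n → ℂ) (ρ : Ioi (0 : ℝ)) : ℝ≥0∞ :=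
  ∫⁻ ω : Sp n, ‖G (ρ.1 • ω.1)‖ₑ ^ 2 ∂sig n

lemma measurable_SS {G : E n → ℂ} (hG : Measurable G) : Measurable (SS G) := by
  have c2 : Continuous fun q : Ioi (0 : ℝ) × Sp n => (q.1.1 • q.2.1 : E n) := by fun_prop
  exact ((hG.comp c2.measurable).enorm.pow_const 2).lintegral_prod_right'

lemma measurable_slice {G : E n → ℂ} (hG : Measurable G) (ρ : ℝ) :
    Measurable fun ω : Sp n => G (ρ • ω.1) := by
  have c2 : Continuous fun ω : Sp n => (ρ • ω.1 : E n) := by fun_prop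
  exact hG.comp c2.measurable

lemma rad_pol (hn : 1 ≤ n) {v : ℝ → ℝ≥0∞} (hv : Measurable v) {G : E n → ℂ} (hG : Measurable G) :
    ∫⁻ η, v ‖η‖ * ‖G η‖ₑ ^ 2 = ∫⁻ ρ, v ρ.1 * SS G ρ ∂nu n := by
  have hm : Measurable fun η : E n => v ‖η‖ * ‖G η‖ₑ ^ 2 :=
    (hv.comp measurable_norm).mul (hG.enorm.pow_const 2)
  rw [lint_polar hn hm]
  refine lintegral_congr fun ρ => ?_
  have hρ : 0 < ρ.1 := ρ.2
  have e1 : ∀ ω : Sp n, ‖(ρ.1 • ω.1 : E n)‖ = ρ.1 := fun ω => by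
    rw [norm_smul, Real.norm_eq_abs, abs_of_pos hρ]
    simp
  simp_rw [e1]
  exact lintegral_const_mul _ ((measurable_slice hG ρ.1).enorm.pow_const 2)

lemma rad_inv {v : ℝ → ℝ≥0∞} (hv : Measurable v) :
    ∫⁻ ρ, (v ρ.1 * kk n ρ)⁻¹ ∂nu n = ∫⁻ ρ in Ioi 0, (v ρ)⁻¹ := by
  have hv'm : Measurable fun ρ : Ioi (0 : ℝ) => v ρ.1 := hv.comp measurable_subtype_coe
  have hm : Measurable fun ρ : Ioi (0 : ℝ) => (v ρ.1 * kk n ρ)⁻¹ := (hv'm.mul measurable_kk).inv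
  have e1 := lintegral_withDensity_eq_lintegral_mul
    (Measure.comap Subtype.val (volume : Measure ℝ) : Measure (Ioi (0 : ℝ)))
    (measurable_kk (n := n)) hm
  have e2 : ∫⁻ ρ, (v ρ.1 * kk n ρ)⁻¹ ∂nu n = ∫⁻ ρ : Ioi (0 : ℝ), (v ρ.1 * kk n ρ)⁻¹
    ∂((Measure.comap Subtype.val (volume : Measure ℝ) : Measure (Ioi (0 : ℝ))).withDensity (kk n)) :=
    rfl
  rw [e2, e1, ← lintegral_subtype_comap measurableSet_Ioi (fun ρ => (v ρ)⁻¹)]
  refine lintegral_congr fun ρ => ?_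
  simp only [Pi.mul_apply]
  rw [ENNReal.mul_inv (Or.inr (kk_ne_top ρ)) (Or.inr (kk_ne_zero ρ)), mul_comm, mul_assoc,
    ENNReal.inv_mul_cancel (kk_ne_zero ρ) (kk_ne_top ρ), mul_one]

lemma measurable_pro_right {G : E n → ℂ} (hG : Measurable G) (x : E n) :
    Measurable fun ρ : Ioi (0 : ℝ) => pro G x ρ := by
  have c1 : Continuous fun q : Ioi (0 : ℝ) × Sp n => os q.1.1 x q.2 := by
    unfold os
    fun_prop
  have c2 : Continuous fun q : Ioi (0 : ℝ) × Sp n => (q.1.1 • q.2.1 : E n) := by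
    fun_prop
  have m1 : Measurable fun q : Ioi (0 : ℝ) × Sp n => os q.1.1 x q.2 * G (q.1.1 • q.2.1) :=
    c1.measurable.mul (hG.comp c2.measurable)
  exact m1.stronglyMeasurable.integral_prod_right.measurable

lemma measurable_pro_left {G : E n → ℂ} (hG : Measurable G) (ρ : Ioi (0 : ℝ)) :
    Measurable fun x : E n => pro G x ρ :=
  (stronglyMeasurable_ext ρ.1 (measurable_slice hG ρ.1)).measurable

lemma rad_cs {v : ℝ → ℝ≥0∞} (hv : Measurable v) (hv0 : ∀ ρ, v ρ ≠ 0) {G : E n → ℂ}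
    (hG : Measurable G) (hE : ∫⁻ ρ, v ρ.1 * SS G ρ ∂nu n ≠ ⊤) (x : E n) :
    dom G x ^ 2 ≤ (∫⁻ ρ in Ioi 0, (v ρ)⁻¹) *
      ∫⁻ ρ, v ρ.1 * kk n ρ * ‖pro G x ρ‖ₑ ^ 2 ∂nu n := by
  have hv'm : Measurable fun ρ : Ioi (0 : ℝ) => v ρ.1 := hv.comp measurable_subtype_coe
  have hae : ∀ᵐ ρ ∂nu n, v ρ.1 * SS G ρ < ⊤ := ae_lt_top (hv'm.mul (measurable_SS hG)) hE
  rw [← rad_inv (n := n) hv]
  unfold dom
  refine cs_weight (measurable_pro_right hG x).enorm.aemeasurable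
    (hv'm.mul measurable_kk).aemeasurable ?_ ?_
  · exact Eventually.of_forall fun ρ => mul_ne_zero (hv0 _) (kk_ne_zero _)
  · filter_upwards [hae] with ρ hρ ht
    have h1 : v ρ.1 = ⊤ := by
      by_contra hne
      exact ENNReal.mul_ne_top hne (kk_ne_top ρ) ht
    have h2 : SS G ρ = 0 := by
      by_contra hne
      rw [h1, ENNReal.top_mul hne] at hρ
      exact lt_irrefl _ hρ
    have h3 : ∀ᵐ ω ∂sig n, G (ρ.1 • ω.1) = 0 := by
      have h4 := (lintegral_eq_zero_iff ((measurable_slice hG ρ.1).enorm.pow_const 2)).1 h2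
      filter_upwards [h4] with ω hω
      simpa using hω
    have h5 : pro G x ρ = 0 := by
      unfold pro ext
      refine integral_eq_zero_of_ae ?_
      filter_upwards [h3] with ω hω
      rw [hω, mul_zero]
      rfl
    rw [h5, enorm_zero]

lemma measurable_W : Measurable fun x : E n => ENNReal.ofReal (Real.exp (-‖x‖ ^ 2)) := by
  fun_prop

lemma rad_s3 (hn : 1 ≤ n) (h : SphG n) (c : ℝ≥0∞) {G : E n → ℂ} (hG : Measurable G) {B : ℝ}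
    (hB : ∀ η, ‖G η‖ ≤ B) (ρ : Ioi (0 : ℝ)) :
    ∫⁻ x : E n, ENNReal.ofReal (Real.exp (-‖x‖ ^ 2)) * (c * kk n ρ * ‖pro G x ρ‖ₑ ^ 2)
      ≤ ENNReal.ofReal (C0 n) * (c * SS G ρ) := by
  have h1 := ext_lint hn h ρ.2 (measurable_slice hG ρ.1) (B := B) fun ω => hB _
  have e1 : ∀ x : E n, ENNReal.ofReal (Real.exp (-‖x‖ ^ 2)) * (c * kk n ρ * ‖pro G x ρ‖ₑ ^ 2)
      = c * kk n ρ * (ENNReal.ofReal (Real.exp (-‖x‖ ^ 2)) * ‖pro G x ρ‖ₑ ^ 2) := fun x => by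
    ring
  have hm : Measurable fun x : E n => ENNReal.ofReal (Real.exp (-‖x‖ ^ 2)) * ‖pro G x ρ‖ₑ ^ 2 :=
    measurable_W.mul ((measurable_pro_left hG ρ).enorm.pow_const 2)
  simp_rw [e1]
  rw [lintegral_const_mul _ hm]
  calc c * kk n ρ * ∫⁻ x : E n, ENNReal.ofReal (Real.exp (-‖x‖ ^ 2)) * ‖pro G x ρ‖ₑ ^ 2
      ≤ c * kk n ρ * (ENNReal.ofReal (C0 n) * (kk n ρ)⁻¹ * SS G ρ) := mul_le_mul_right h1 _
    _ = (kk n ρ * (kk n ρ)⁻¹) * (ENNReal.ofReal (C0 n) * (c * SS G ρ)) := by ring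
    _ = _ := by rw [ENNReal.mul_inv_cancel (kk_ne_zero ρ) (kk_ne_top ρ), one_mul]

lemma measurable_joint {v : ℝ → ℝ≥0∞} (hv : Measurable v) {G : E n → ℂ} (hG : Measurable G) :
    Measurable fun q : E n × Ioi (0 : ℝ) => ENNReal.ofReal (Real.exp (-‖q.1‖ ^ 2)) *
      (v q.2.1 * kk n q.2 * ‖pro G q.1 q.2‖ₑ ^ 2) := by
  have hv'm : Measurable fun ρ : Ioi (0 : ℝ) => v ρ.1 := hv.comp measurable_subtype_coe
  exact (measurable_W.comp measurable_fst).mul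
    (((hv'm.mul measurable_kk).comp measurable_snd).mul ((measurable_pro hG).enorm.pow_const 2))

/-- the maximal bound for radial weights -/
theorem dom_bound (hn : 1 ≤ n) (h : SphG n) {v : ℝ → ℝ≥0∞} (hv : Measurable v)
    (hv0 : ∀ ρ, v ρ ≠ 0) {G : E n → ℂ} (hG : Measurable G) {B : ℝ} (hB : ∀ η, ‖G η‖ ≤ B)
    (hE : ∫⁻ η, v ‖η‖ * ‖G η‖ₑ ^ 2 ≠ ⊤) :
    ∫⁻ x : E n, ENNReal.ofReal (Real.exp (-‖x‖ ^ 2)) * dom G x ^ 2
      ≤ (∫⁻ ρ in Ioi 0, (v ρ)⁻¹) * (ENNReal.ofReal (C0 n) * ∫⁻ η, v ‖η‖ * ‖G η‖ₑ ^ 2) := by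
  have hv'm : Measurable fun ρ : Ioi (0 : ℝ) => v ρ.1 := hv.comp measurable_subtype_coe
  rw [rad_pol hn hv hG] at hE ⊢
  have s1 : ∀ x : E n, ENNReal.ofReal (Real.exp (-‖x‖ ^ 2)) *
      ((∫⁻ ρ in Ioi 0, (v ρ)⁻¹) * ∫⁻ ρ, v ρ.1 * kk n ρ * ‖pro G x ρ‖ₑ ^ 2 ∂nu n)
      = (∫⁻ ρ in Ioi 0, (v ρ)⁻¹) * ∫⁻ ρ, ENNReal.ofReal (Real.exp (-‖x‖ ^ 2)) *
          (v ρ.1 * kk n ρ * ‖pro G x ρ‖ₑ ^ 2) ∂nu n := by
    intro x
    have hm : Measurable fun ρ : Ioi (0 : ℝ) => v ρ.1 * kk n ρ * ‖pro G x ρ‖ₑ ^ 2 :=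
      (hv'm.mul measurable_kk).mul ((measurable_pro_right hG x).enorm.pow_const 2)
    rw [lintegral_const_mul _ hm]
    ring
  have hjm := measurable_joint hv hG
  have s2 : ∫⁻ x : E n, (∫⁻ ρ, ENNReal.ofReal (Real.exp (-‖x‖ ^ 2)) *
          (v ρ.1 * kk n ρ * ‖pro G x ρ‖ₑ ^ 2) ∂nu n)
      = ∫⁻ ρ, (∫⁻ x : E n, ENNReal.ofReal (Real.exp (-‖x‖ ^ 2)) *
          (v ρ.1 * kk n ρ * ‖pro G x ρ‖ₑ ^ 2)) ∂nu n :=
    lintegral_lintegral_swap hjm.aemeasurable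
  have hjx : Measurable fun x : E n => ∫⁻ ρ, ENNReal.ofReal (Real.exp (-‖x‖ ^ 2)) *
          (v ρ.1 * kk n ρ * ‖pro G x ρ‖ₑ ^ 2) ∂nu n := hjm.lintegral_prod_right'
  calc ∫⁻ x : E n, ENNReal.ofReal (Real.exp (-‖x‖ ^ 2)) * dom G x ^ 2
      ≤ ∫⁻ x : E n, ENNReal.ofReal (Real.exp (-‖x‖ ^ 2)) *
          ((∫⁻ ρ in Ioi 0, (v ρ)⁻¹) * ∫⁻ ρ, v ρ.1 * kk n ρ * ‖pro G x ρ‖ₑ ^ 2 ∂nu n) :=
        lintegral_mono fun x => mul_le_mul_right (rad_cs hv hv0 hG hE x) _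
    _ = (∫⁻ ρ in Ioi 0, (v ρ)⁻¹) * ∫⁻ ρ, (∫⁻ x : E n, ENNReal.ofReal (Real.exp (-‖x‖ ^ 2)) *
          (v ρ.1 * kk n ρ * ‖pro G x ρ‖ₑ ^ 2)) ∂nu n := by
        simp_rw [s1]
        rw [lintegral_const_mul _ hjx, s2]
    _ ≤ (∫⁻ ρ in Ioi 0, (v ρ)⁻¹) * ∫⁻ ρ, ENNReal.ofReal (C0 n) * (v ρ.1 * SS G ρ) ∂nu n :=
        mul_le_mul_right (lintegral_mono fun ρ => rad_s3 hn h _ hG hB ρ) _
    _ = _ := by
        have hm : Measurable fun ρ : Ioi (0 : ℝ) => v ρ.1 * SS G ρ :=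
          hv'm.mul (measurable_SS hG)
        rw [lintegral_const_mul _ hm]

/-- `MP` for weights above a radial weight with integrable inverse -/
theorem MP_radial (hn : 1 ≤ n) (h : SphG n) {v : ℝ → ℝ≥0∞} (hv : Measurable v)
    (hv0 : ∀ ρ, v ρ ≠ 0) (hJ : ∫⁻ ρ in Ioi 0, (v ρ)⁻¹ ≠ ⊤) {w : E n → ℝ≥0∞}
    (hw : ∀ η, v ‖η‖ ≤ w η) : MP w := by
  intro r ε hε
  set K : ℝ≥0∞ := (∫⁻ ρ in Ioi 0, (v ρ)⁻¹) * ENNReal.ofReal (C0 n) + 1 with hK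
  have hKt : K ≠ ⊤ := by
    simp only [hK]
    finiteness
  have hK0 : K ≠ 0 := by simp [hK]
  set c : ℝ≥0∞ := ENNReal.ofReal (Real.exp (-(r : ℝ) ^ 2) * ε ^ 2) with hc
  have hc0 : c ≠ 0 := by
    simp only [hc, ne_eq, ENNReal.ofReal_eq_zero, not_le]
    positivity
  have hct : c ≠ ⊤ := ENNReal.ofReal_ne_top
  refine ⟨ENNReal.ofReal ε * c / K, ENNReal.div_pos (mul_ne_zero (by simpa using hε) hc0) hKt,
    fun G hG hEn => ?_⟩
  obtain ⟨B, hB⟩ := hG.bdd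
  have hEv : ∫⁻ η, v ‖η‖ * ‖G η‖ₑ ^ 2 ≤ En w G := by
    unfold En
    refine lintegral_mono fun η => ?_
    exact mul_le_mul_left (hw η) _
  have hE : ∫⁻ η, v ‖η‖ * ‖G η‖ₑ ^ 2 ≠ ⊤ := ne_top_of_le_ne_top hG.en.ne hEv
  have h1 := dom_bound hn h hv hv0 hG.meas hB hE
  have hW : Measurable fun x : E n => ENNReal.ofReal (Real.exp (-‖x‖ ^ 2)) * dom G x ^ 2 :=
    (by fun_prop : Measurable fun x : E n => ENNReal.ofReal (Real.exp (-‖x‖ ^ 2))).mul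
      ((measurable_dom hG.meas).pow_const 2)
  have h2 := mul_meas_ge_le_lintegral (μ := (volume : Measure (E n))) hW c
  have h3 : mset G (Ioo (-(r : ℝ)) r) ε ∩ Metric.ball 0 r
      ⊆ {x : E n | c ≤ ENNReal.ofReal (Real.exp (-‖x‖ ^ 2)) * dom G x ^ 2} := by
    rintro x ⟨⟨s, -, hs⟩, hx⟩
    rw [mem_ball_zero_iff] at hx
    simp only [Set.mem_ofPred_eq, hc]
    rw [ENNReal.ofReal_mul (Real.exp_pos _).le, ENNReal.ofReal_pow hε.le]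
    refine mul_le_mul' (ENNReal.ofReal_le_ofReal (Real.exp_le_exp.2 ?_)) (pow_le_pow_left' ?_ 2)
    · have : ‖x‖ ^ 2 ≤ (r : ℝ) ^ 2 := pow_le_pow_left₀ (norm_nonneg _) hx.le 2
      linarith
    · refine le_trans ?_ (evo_le_dom hn hG.integrable x s)
      rw [← ofReal_norm]
      exact ENNReal.ofReal_le_ofReal hs.le
  have h4 : c * volume (mset G (Ioo (-(r : ℝ)) r) ε ∩ Metric.ball 0 r) ≤ c * ENNReal.ofReal ε := by
    calc c * volume (mset G (Ioo (-(r : ℝ)) r) ε ∩ Metric.ball 0 r)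
        ≤ c * volume {x : E n | c ≤ ENNReal.ofReal (Real.exp (-‖x‖ ^ 2)) * dom G x ^ 2} :=
          mul_le_mul_right (measure_mono h3) _
      _ ≤ _ := h2
      _ ≤ _ := h1
      _ ≤ K * (ENNReal.ofReal ε * c / K) := by
          rw [← mul_assoc]
          exact mul_le_mul' (by rw [hK]; exact le_self_add) (hEv.trans hEn)
      _ = c * ENNReal.ofReal ε := by
          rw [ENNReal.mul_div_cancel hK0 hKt, mul_comm]
  exact (ENNReal.mul_le_mul_iff_right hc0 hct).1 h4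

end Vale.Agent.P076.R2.H831
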