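import Mathlib.MeasureTheory.Constructions.HaarToSphere
import Vale.Agent.P076.Statement

/-!
# P076 : definitions for the statement on sparse sets of frequencies
-/

open MeasureTheory Filter Topology
open scoped ENNReal

namespace Vale.Agent.P076.R2

/-- The surface measure on the unit sphere of `ℝⁿ`. -/
noncomputable def surf (n : ℕ) : Measure (Metric.sphere (0 : EuclideanSpace ℝ (Fin n)) 1) :=
  (volume : Measure (EuclideanSpace ℝ (Fin n))).toSphere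

/-- The ball of radius `δ` around the point `ρ ω` of the sphere of radius `ρ` (as a subset of the
unit sphere). -/
def cap {n : ℕ} (ρ δ : ℝ) (ω : Metric.sphere (0 : EuclideanSpace ℝ (Fin n)) 1) :
    Set (Metric.sphere (0 : EuclideanSpace ℝ (Fin n)) 1) :=
  {ω' | ‖ρ • ω.1 - ρ • ω'.1‖ < δ}

/-- The surface measure of `Ω` in the balls of radius `δ` around points of the sphere of radius `ρ`
is at most `θ ρ`. -/
def DensityLE {n : ℕ} (Ω : Set (Fin n → ℝ)) (θ : ℝ → ℝ≥0∞) (δ : ℝ) : Prop :=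
  ∀ ρ : ℝ, 0 < ρ → ∀ ω : Metric.sphere (0 : EuclideanSpace ℝ (Fin n)) 1,
    ENNReal.ofReal (ρ ^ (n - 1)) * surf n {ω' | ω' ∈ cap ρ δ ω ∧ (ρ • ω'.1).ofLp ∈ Ω} ≤ θ ρ

/-- The surface integral of `1 / w` over the balls of radius `δ` around points of the sphere of
radius `ρ` is at most `θ ρ`. -/
def InverseLE {n : ℕ} (w : (Fin n → ℝ) → ℝ≥0∞) (θ : ℝ → ℝ≥0∞) (δ : ℝ) : Prop :=
  ∀ ρ : ℝ, 0 < ρ → ∀ ω : Metric.sphere (0 : EuclideanSpace ℝ (Fin n)) 1,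
    ENNReal.ofReal (ρ ^ (n - 1)) * ∫⁻ ω' in cap ρ δ ω, (w (ρ • ω'.1).ofLp)⁻¹ ∂surf n ≤ θ ρ

/-- The union of the tubes `|ξ - (ξ·e) e| ≤ b`, `(e, b) ∈ T k`, in the shells
`2 ^ k ≤ |ξ| < 2 ^ (k + 1)`. -/
def tubes {n : ℕ} (T : ℕ → Finset ((Fin n → ℝ) × ℝ)) : Set (Fin n → ℝ) :=
  {ξ | ∃ k, ∃ p ∈ T k, 2 ^ k ≤ nrm ξ ∧ nrm ξ < 2 ^ (k + 1) ∧
    nrm (ξ - (∑ i, ξ i * p.1 i) • p.1) ≤ p.2}

/-- The directions are unit vectors, `b ≤ 2 ^ (k - 1)`, and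
`∑_k √(k+1) 2^(k(1/2-2s)) ∑_{(e,b) ∈ T k} max(1, b / 2^(k/2))^(n-1) < ∞`. -/
def FewTubes {n : ℕ} (s : ℝ) (T : ℕ → Finset ((Fin n → ℝ) × ℝ)) : Prop :=
  (∀ k, ∀ p ∈ T k, nrm p.1 = 1 ∧ p.2 ≤ 2 ^ k / 2) ∧
    Summable fun k : ℕ => √((k : ℝ) + 1) * (2 : ℝ) ^ ((k : ℝ) * (1 / 2 - 2 * s)) *
      ∑ p ∈ T k, (max 1 (p.2 / (2 : ℝ) ^ ((k : ℝ) / 2))) ^ (n - 1)

/-- The points `ξ` with `|ξ - l| ≤ |ξ| ^ (-a)` for some `l ∈ L`. -/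
def balls {n : ℕ} (a : ℝ) (L : Set (Fin n → ℝ)) : Set (Fin n → ℝ) :=
  {ξ | ∃ l ∈ L, nrm (ξ - l) ≤ nrm ξ ^ (-a)}

/-- Any two distinct points of `L` have distance at least `τ`. -/
def SeparatedBy {n : ℕ} (τ : ℝ) (L : Set (Fin n → ℝ)) : Prop :=
  ∀ x ∈ L, ∀ y ∈ L, x ≠ y → τ ≤ nrm (x - y)

end Vale.Agent.P076.R2
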