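import Vale.Agent.P076.R2.H45.Tubes
import Vale.Agent.P076.R2.H831.Nea

/-!
# P076 : the maximal principle for few tubes (cost of a tube: its width)
-/

open MeasureTheory Complex FourierTransform Filter Topology Set
open scoped ENNReal NNReal

namespace Vale.Agent.P076.R2.H831.V2

open Vale.Agent.P076 Vale.Agent.P076.H791 Vale.Agent.P076.R2.H45

variable {n : ℕ}

/-- the number of pieces -/
noncomputable def LL2 (n k : ℕ) : ℝ := √(1 + 6 * n * Real.log (RR k))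

lemma LL_ge2 {k : ℕ} (hk : 3 ≤ k) : 1 ≤ LL2 n k := by
  unfold LL2
  rw [Real.one_le_sqrt]
  have := Real.log_nonneg (RR_ge hk)
  have h2 : 0 ≤ 6 * (n : ℝ) * Real.log (RR k) := by positivity
  linarith

lemma LL_sq2 {k : ℕ} (hk : 3 ≤ k) : LL2 n k ^ 2 = 1 + 6 * n * Real.log (RR k) := by
  unfold LL2
  rw [Real.sq_sqrt]
  have := Real.log_nonneg (RR_ge hk)
  positivity

lemma LL_le2 {k : ℕ} (hn : 1 ≤ n) (hk : 3 ≤ k) : LL2 n k ≤ √(6 * n) * √((k : ℝ) + 1) := by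
  unfold LL2
  rw [← Real.sqrt_mul (by positivity)]
  apply Real.sqrt_le_sqrt
  have hn1 : (1 : ℝ) ≤ n := by exact_mod_cast hn
  have h1 : Real.log (RR k) ≤ k := by
    have h2 : RR k ≤ Real.exp k := by
      have h3 : RR k ≤ 2 ^ k := by
        unfold RR
        exact div_le_self (by positivity) (by norm_num)
      have h4 : (2 : ℝ) ^ k ≤ Real.exp 1 ^ k := by
        gcongr
        have := Real.add_one_le_exp (1 : ℝ)
        linarith
      rw [← Real.exp_nat_mul] at h4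
      simp only [mul_one] at h4
      linarith
    have h5 := Real.log_le_log (lt_of_lt_of_le one_pos (RR_ge hk)) h2
    rwa [Real.log_exp] at h5
  have h6 : 6 * (n : ℝ) * Real.log (RR k) ≤ 6 * n * k := by gcongr
  nlinarith

lemma par2 {k : ℕ} (hn : 1 ≤ n) (hk : 3 ≤ k) {x c : ℝ} (hx : x ≤ 2 ^ k / 2)
    (h1 : RR k ≤ |c|) (h2 : |c| ≤ 3 * RR k) :
    Par2 n (RR k) (LL2 n k) (max x ((2 : ℝ) ^ ((k : ℝ) / 2))) c (8 * n) 1 where
  R1 := RR_ge hk
  L1 := LL_ge2 hk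
  K1 := by
    have hn1 : (1 : ℝ) ≤ n := by exact_mod_cast hn
    linarith
  LK := by
    rw [LL_sq2 hk]
    have hn1 : (1 : ℝ) ≤ n := by exact_mod_cast hn
    have h3 := Real.log_le_sub_one_of_pos (lt_of_lt_of_le one_pos (RR_ge hk))
    have h4 : 6 * (n : ℝ) * Real.log (RR k) ≤ 6 * n * (RR k - 1) := by gcongr
    have h5 := RR_ge hk
    nlinarith
  Rs := sig_ge k x
  sR := by
    have hn1 : (1 : ℝ) ≤ n := by exact_mod_cast hn
    have h5 := RR_ge hk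
    have e : (8 : ℝ) * RR k = 2 ^ k := by unfold RR; ring
    have h6 : (2 : ℝ) ^ ((k : ℝ) / 2) ≤ 2 ^ k := by
      rw [← Real.rpow_natCast]
      refine Real.rpow_le_rpow_of_exponent_le (by norm_num) ?_
      have : (0 : ℝ) ≤ k := k.cast_nonneg
      linarith
    have h7 : (2 : ℝ) ^ k ≤ 8 * n * RR k := by
      rw [← e]
      nlinarith
    have h8 : (0 : ℝ) < 2 ^ k := by positivity
    exact max_le (by linarith) (by linarith)
  c1 := h1
  c2 := h2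
  ex := by
    rw [LL_sq2 hk]
    have hR0 : 0 < RR k := lt_of_lt_of_le one_pos (RR_ge hk)
    have h3 := Real.log_nonneg (RR_ge hk)
    have h4 : RR k ^ n = Real.exp ((n : ℝ) * Real.log (RR k)) := by
      rw [Real.exp_nat_mul, Real.exp_log hR0]
    rw [h4, ← Real.exp_add, Real.exp_le_one_iff]
    have h5 := Real.pi_gt_three
    have h6 : 0 ≤ (n : ℝ) * Real.log (RR k) := by positivity
    nlinarith

/-- the centres -/
noncomputable def cc2 (n k j : ℕ) : ℝ := RR k + j * (RR k / LL2 n k)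

/-- the number of centres -/
noncomputable def JJ2 (n k : ℕ) : ℕ := ⌊2 * LL2 n k⌋₊ + 1

lemma cc_bounds2 {k j : ℕ} (hk : 3 ≤ k) (hj : j ∈ Finset.range (JJ2 n k)) :
    RR k ≤ cc2 n k j ∧ cc2 n k j ≤ 3 * RR k := by
  have hR0 : 0 < RR k := lt_of_lt_of_le one_pos (RR_ge hk)
  have hL1 := LL_ge2 (n := n) hk
  have hL0 : 0 < LL2 n k := by linarith
  have h1 : (j : ℝ) ≤ 2 * LL2 n k := by
    rw [Finset.mem_range, JJ2, Nat.lt_succ_iff] at hj
    exact (Nat.le_floor_iff (by positivity)).1 hj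
  constructor
  · unfold cc2
    have : 0 ≤ (j : ℝ) * (RR k / LL2 n k) := by positivity
    linarith
  · unfold cc2
    have h2 : (j : ℝ) * (RR k / LL2 n k) ≤ 2 * LL2 n k * (RR k / LL2 n k) := by gcongr
    have h3 : 2 * LL2 n k * (RR k / LL2 n k) = 2 * RR k := by field_simp
    linarith

lemma exists_center2 {k : ℕ} (hk : 3 ≤ k) {u : ℝ} (h1 : RR k ≤ u) (h2 : u ≤ 3 * RR k) :
    ∃ j ∈ Finset.range (JJ2 n k), |u - cc2 n k j| ≤ RR k / LL2 n k := by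
  have hR0 : 0 < RR k := lt_of_lt_of_le one_pos (RR_ge hk)
  have hL1 := LL_ge2 (n := n) hk
  have hL0 : 0 < LL2 n k := by linarith
  have hρ : 0 < RR k / LL2 n k := by positivity
  set y : ℝ := (u - RR k) / (RR k / LL2 n k) with hy
  have hy0 : 0 ≤ y := div_nonneg (by linarith) hρ.le
  have hy2 : y ≤ 2 * LL2 n k := by
    rw [hy, div_le_iff₀ hρ]
    have h3 : 2 * LL2 n k * (RR k / LL2 n k) = 2 * RR k := by field_simp
    linarith
  have hu : u = RR k + y * (RR k / LL2 n k) := by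
    rw [hy, div_mul_cancel₀ _ hρ.ne']
    ring
  refine ⟨⌊y⌋₊, ?_, ?_⟩
  · rw [Finset.mem_range, JJ2, Nat.lt_succ_iff]
    exact Nat.floor_le_floor hy2
  · have h3 := Nat.floor_le hy0
    have h4 := Nat.lt_floor_add_one y
    have h5 : u - cc2 n k ⌊y⌋₊ = (y - ⌊y⌋₊) * (RR k / LL2 n k) := by
      rw [cc2, hu]
      ring
    rw [h5, abs_of_nonneg (mul_nonneg (by linarith) hρ.le)]
    calc (y - ⌊y⌋₊) * (RR k / LL2 n k) ≤ 1 * (RR k / LL2 n k) := by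
          gcongr
          linarith
      _ = _ := one_mul _

/-- the majorant of a tube -/
noncomputable def tub2 (k : ℕ) (p : E n × ℝ) (η : E n) : ℝ :=
  ∑ j ∈ Finset.range (JJ2 n k), (gg p.1 (RR k) (LL2 n k) (max p.2 ((2 : ℝ) ^ ((k : ℝ) / 2))) (cc2 n k j) η +
    gg p.1 (RR k) (LL2 n k) (max p.2 ((2 : ℝ) ^ ((k : ℝ) / 2))) (-cc2 n k j) η)

/-- on the tube the majorant is bounded below -/
lemma tub_ge2 {k : ℕ} (hk : 3 ≤ k) {p : E n × ℝ} (hp : ‖p.1‖ = 1) (hp2 : p.2 ≤ 2 ^ k / 2) {η : E n}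
    (h1 : 2 ^ k ≤ ‖(2 * Real.pi) • η‖) (h2 : ‖(2 * Real.pi) • η‖ < 2 ^ (k + 1))
    (h3 : ‖(2 * Real.pi) • η - (inner ℝ ((2 * Real.pi) • η) p.1 : ℝ) • p.1‖ ≤ p.2) :
    Real.exp (-5) ≤ tub2 k p η := by
  have hR1 := RR_ge hk
  have hR0 : 0 < RR k := lt_of_lt_of_le one_pos hR1
  have hL1 := LL_ge2 (n := n) hk
  have hL0 : 0 < LL2 n k := by linarith
  have hpi3 := Real.pi_gt_three
  have hpi4 := Real.pi_lt_d2
  set u : ℝ := inner ℝ η p.1 with hu
  set σ : ℝ := max p.2 ((2 : ℝ) ^ ((k : ℝ) / 2)) with hσ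
  have hσ0 : 0 < σ := lt_of_lt_of_le (by positivity) (le_max_right _ _)
  have hp0 : 0 ≤ p.2 := (norm_nonneg _).trans h3
  have hR8 : (2 : ℝ) ^ k = 8 * RR k := by unfold RR; ring
  -- perpendicular part
  have e1 : ‖(2 * Real.pi) • η - (inner ℝ ((2 * Real.pi) • η) p.1 : ℝ) • p.1‖ ^ 2 =
      (2 * Real.pi) ^ 2 * (‖η‖ ^ 2 - u ^ 2) := by
    rw [inner_smul_left, norm_sub_sq_real, norm_smul, norm_smul, inner_smul_left, inner_smul_right,
      hp, ← hu]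
    simp only [RCLike.conj_to_real, Real.norm_eq_abs, mul_one]
    rw [abs_of_pos (by positivity), sq_abs]
    ring
  have e2 : (2 * Real.pi) ^ 2 * (‖η‖ ^ 2 - u ^ 2) ≤ p.2 ^ 2 := by
    rw [← e1]
    gcongr
  rw [norm_smul, Real.norm_eq_abs, abs_of_pos (by positivity), hR8] at h1
  rw [norm_smul, Real.norm_eq_abs, abs_of_pos (by positivity), pow_succ, hR8] at h2
  rw [hR8] at hp2
  have hη0 : 0 ≤ ‖η‖ := norm_nonneg η
  have e3 : (8 * RR k) ^ 2 ≤ (2 * Real.pi) ^ 2 * ‖η‖ ^ 2 := by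
    rw [← mul_pow]
    gcongr
  have e4 : p.2 ^ 2 ≤ (4 * RR k) ^ 2 := by
    gcongr
    linarith
  have hpisq : Real.pi ^ 2 ≤ 12 := by nlinarith
  have e5 : RR k ^ 2 ≤ u ^ 2 := by
    have h6 : 48 * RR k ^ 2 ≤ (2 * Real.pi) ^ 2 * u ^ 2 := by nlinarith
    have h7 : (2 * Real.pi) ^ 2 * u ^ 2 ≤ 48 * u ^ 2 := by nlinarith [sq_nonneg u]
    linarith
  have e6 : RR k ≤ |u| := by
    rw [← abs_of_pos hR0]
    exact sq_le_sq.1 e5
  have e7 : |u| ≤ 3 * RR k := by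
    have h6 : |u| ≤ ‖η‖ := by
      have := abs_real_inner_le_norm η p.1
      rwa [hp, mul_one] at this
    nlinarith
  have e8 : (σ ^ 2)⁻¹ * (‖η‖ ^ 2 - u ^ 2) ≤ 1 / 36 := by
    rw [inv_mul_le_iff₀ (by positivity)]
    have h6 : p.2 ^ 2 ≤ σ ^ 2 := by
      gcongr
      exact le_max_left _ _
    have h7 : 0 ≤ ‖η‖ ^ 2 - u ^ 2 := by
      have h8 : 0 ≤ (2 * Real.pi) ^ 2 * (‖η‖ ^ 2 - u ^ 2) := by rw [← e1]; positivity
      exact nonneg_of_mul_nonneg_right h8 (by positivity)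
    have h9 : (36 : ℝ) ≤ (2 * Real.pi) ^ 2 := by nlinarith
    have h10 := mul_le_mul_of_nonneg_right h9 h7
    linarith
  have key : ∀ c : ℝ, |u - c| ≤ RR k / LL2 n k →
      Real.exp (-5) ≤ gg p.1 (RR k) (LL2 n k) σ c η := by
    intro c hc
    unfold gg
    rw [← hu]
    apply Real.exp_le_exp.2
    have h6 : (LL2 n k / RR k) ^ 2 * (u - c) ^ 2 ≤ 1 := by
      have h7 : (u - c) ^ 2 ≤ (RR k / LL2 n k) ^ 2 := by
        rw [← sq_abs]
        gcongr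
      calc (LL2 n k / RR k) ^ 2 * (u - c) ^ 2 ≤ (LL2 n k / RR k) ^ 2 * (RR k / LL2 n k) ^ 2 := by
            gcongr
        _ = 1 := by field_simp
    nlinarith
  have nn : ∀ j ∈ Finset.range (JJ2 n k), 0 ≤ gg p.1 (RR k) (LL2 n k) σ (cc2 n k j) η +
      gg p.1 (RR k) (LL2 n k) σ (-cc2 n k j) η := fun j _ =>
    add_nonneg (gg_nonneg _ _ _ _ _ _) (gg_nonneg _ _ _ _ _ _)
  unfold tub2
  rcases le_total 0 u with hu0 | hu0
  · rw [abs_of_nonneg hu0] at e6 e7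
    obtain ⟨j, hj, hjc⟩ := exists_center2 (n := n) hk e6 e7
    refine le_trans ?_ (Finset.single_le_sum nn hj)
    have := key _ hjc
    have h9 := gg_nonneg p.1 (RR k) (LL2 n k) σ (-cc2 n k j) η
    linarith
  · rw [abs_of_nonpos hu0] at e6 e7
    obtain ⟨j, hj, hjc⟩ := exists_center2 (n := n) hk e6 e7
    refine le_trans ?_ (Finset.single_le_sum nn hj)
    have h10 : |u - -cc2 n k j| ≤ RR k / LL2 n k := by
      rw [← abs_neg]
      rw [show -(u - -cc2 n k j) = -u - cc2 n k j by ring]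
      exact hjc
    have := key _ h10
    have h9 := gg_nonneg p.1 (RR k) (LL2 n k) σ (cc2 n k j) η
    linarith

/-- the TT* bound for a tube -/
lemma TR_tub2 (hn : 1 ≤ n) {r : ℕ} {C : ℝ} (hC : 0 ≤ C)
    (h : ∀ R L σ c : ℝ, Par2 n R L σ c (8 * n) 1 → ∀ e : E n, ‖e‖ = 1 →
      TTr r (fun η => ENNReal.ofReal (gg e R L σ c η)) (ENNReal.ofReal (C * σ)))
    {k : ℕ} (hk : 3 ≤ k) {p : E n × ℝ} (hp : ‖p.1‖ = 1) (hp2 : p.2 ≤ 2 ^ k / 2) :
    TR r (tub2 k p) (∑ _j ∈ Finset.range (JJ2 n k),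
      (C * max p.2 ((2 : ℝ) ^ ((k : ℝ) / 2)) + C * max p.2 ((2 : ℝ) ^ ((k : ℝ) / 2)))) := by
  have hR0 : 0 < RR k := lt_of_lt_of_le one_pos (RR_ge hk)
  have hm0 : 0 ≤ max p.2 ((2 : ℝ) ^ ((k : ℝ) / 2)) := le_max_of_le_right (by positivity)
  have key : ∀ c : ℝ, RR k ≤ |c| → |c| ≤ 3 * RR k →
      TR r (gg p.1 (RR k) (LL2 n k) (max p.2 ((2 : ℝ) ^ ((k : ℝ) / 2))) c)
        (C * max p.2 ((2 : ℝ) ^ ((k : ℝ) / 2))) := by
    intro c hc1 hc2
    exact ⟨measurable_gg _ _ _ _ _, fun η => gg_nonneg _ _ _ _ _ _, by positivity,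
      h _ _ _ _ (par2 (x := p.2) hn hk hp2 hc1 hc2) p.1 hp⟩
  unfold tub2
  refine TR.sum _ fun j hj => ?_
  obtain ⟨h1, h2⟩ := cc_bounds2 hk hj
  have h3 : |cc2 n k j| = cc2 n k j := abs_of_pos (lt_of_lt_of_le hR0 h1)
  refine TR.add (key _ (by rw [h3]; exact h1) (by rw [h3]; exact h2))
    (key _ (by rw [abs_neg, h3]; exact h1) (by rw [abs_neg, h3]; exact h2))

/-- the majorant of a shell -/
noncomputable def shf2 (s : ℝ) (T : ℕ → Finset (E n × ℝ)) (k : ℕ) (η : E n) : ℝ :=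
  if 3 ≤ k then (Real.exp 5 * (2 : ℝ) ^ (-(2 * s * k))) * ∑ p ∈ T k, tub2 k p η else 0

/-- the summands of the hypothesis -/
noncomputable def ak2 (s : ℝ) (T : ℕ → Finset (E n × ℝ)) (k : ℕ) : ℝ :=
  √((k : ℝ) + 1) * (2 : ℝ) ^ (-(2 * s * k)) * ∑ p ∈ T k, max p.2 ((2 : ℝ) ^ ((k : ℝ) / 2))

lemma ak_nonneg2 (s : ℝ) (T : ℕ → Finset (E n × ℝ)) (k : ℕ) : 0 ≤ ak2 s T k := by
  unfold ak2
  refine mul_nonneg (by positivity) (Finset.sum_nonneg fun p _ => ?_)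
  exact le_max_of_le_right (by positivity)

lemma JJ_le2 {k : ℕ} (hn : 1 ≤ n) (hk : 3 ≤ k) :
    (JJ2 n k : ℝ) ≤ 3 * (√(6 * n) * √((k : ℝ) + 1)) := by
  have hL1 := LL_ge2 (n := n) hk
  have h1 : ((⌊2 * LL2 n k⌋₊ : ℕ) : ℝ) ≤ 2 * LL2 n k := Nat.floor_le (by linarith)
  have h2 := LL_le2 hn hk
  unfold JJ2
  push_cast
  linarith

/-- the constant -/
noncomputable def DD2 (n : ℕ) (C : ℝ) : ℝ :=
  Real.exp 5 * (3 * √(6 * n)) * (2 * C)

lemma DD_nonneg2 {C : ℝ} (hC : 0 ≤ C) : 0 ≤ DD2 n C := by unfold DD2; positivity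

lemma TR_shf2 (hn : 1 ≤ n) {r : ℕ} {C : ℝ} (hC : 0 ≤ C)
    (h : ∀ R L σ c : ℝ, Par2 n R L σ c (8 * n) 1 → ∀ e : E n, ‖e‖ = 1 →
      TTr r (fun η => ENNReal.ofReal (gg e R L σ c η)) (ENNReal.ofReal (C * σ)))
    (s : ℝ) (T : ℕ → Finset (E n × ℝ))
    (hT : ∀ k, ∀ p ∈ T k, ‖p.1‖ = 1 ∧ p.2 ≤ 2 ^ k / 2) (k : ℕ) :
    Measurable (shf2 s T k) ∧ TTr r (fun η => ENNReal.ofReal (shf2 s T k η))
      (ENNReal.ofReal (DD2 n C * ak2 s T k)) := by
  by_cases hk : 3 ≤ k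
  · have h1 := (TR.sum (T k) fun p hp => TR_tub2 hn hC h hk (hT k p hp).1 (hT k p hp).2).smul
      (c := Real.exp 5 * (2 : ℝ) ^ (-(2 * s * k))) (by positivity)
    have e1 : (fun η => (Real.exp 5 * (2 : ℝ) ^ (-(2 * s * k))) * ∑ p ∈ T k, tub2 k p η) =
        shf2 s T k := by
      funext η
      simp only [shf2, hk, if_true]
    rw [e1] at h1
    refine ⟨h1.m, h1.tt.mono (fun η => le_rfl) (ENNReal.ofReal_le_ofReal ?_)⟩
    simp only [Finset.sum_const, Finset.card_range, nsmul_eq_mul]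
    have hJ := JJ_le2 hn hk
    have e3 : ∀ p ∈ T k, (JJ2 n k : ℝ) * (C * max p.2 ((2 : ℝ) ^ ((k : ℝ) / 2)) +
        C * max p.2 ((2 : ℝ) ^ ((k : ℝ) / 2))) ≤
        (3 * √(6 * n)) * (2 * C) * √((k : ℝ) + 1) * max p.2 ((2 : ℝ) ^ ((k : ℝ) / 2)) := by
      intro p _
      have h2 : 0 ≤ max p.2 ((2 : ℝ) ^ ((k : ℝ) / 2)) := le_max_of_le_right (by positivity)
      set X : ℝ := max p.2 ((2 : ℝ) ^ ((k : ℝ) / 2)) with hX
      calc (JJ2 n k : ℝ) * (C * X + C * X)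
          ≤ (3 * (√(6 * n) * √((k : ℝ) + 1))) * (C * X + C * X) := by gcongr
        _ = _ := by ring
    calc Real.exp 5 * (2 : ℝ) ^ (-(2 * s * k)) * ∑ p ∈ T k, (JJ2 n k : ℝ) *
        (C * max p.2 ((2 : ℝ) ^ ((k : ℝ) / 2)) + C * max p.2 ((2 : ℝ) ^ ((k : ℝ) / 2)))
        ≤ Real.exp 5 * (2 : ℝ) ^ (-(2 * s * k)) * ∑ p ∈ T k,
          ((3 * √(6 * n)) * (2 * C) * √((k : ℝ) + 1) * max p.2 ((2 : ℝ) ^ ((k : ℝ) / 2))) := by
          refine mul_le_mul_of_nonneg_left (Finset.sum_le_sum e3) (by positivity)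
      _ = DD2 n C * ak2 s T k := by
          rw [← Finset.mul_sum, DD2, ak2]
          ring
  · have e1 : shf2 s T k = fun _ => 0 := by
      funext η
      simp only [shf2, hk, if_false]
    rw [e1]
    refine ⟨measurable_const, ?_⟩
    intro A u g a
    simp

/-- **MP for sparse directions** -/
theorem MP_tubes2 (hn : 1 ≤ n) {s : ℝ} (hs : 0 ≤ s) (T : ℕ → Finset (E n × ℝ))
    (hT : ∀ k, ∀ p ∈ T k, ‖p.1‖ = 1 ∧ p.2 ≤ 2 ^ k / 2)
    (hN : Summable fun k : ℕ => √((k : ℝ) + 1) * (2 : ℝ) ^ (-(2 * s * k)) *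
      ∑ p ∈ T k, max p.2 ((2 : ℝ) ^ ((k : ℝ) / 2)))
    {w : E n → ℝ≥0∞} (hw : Measurable w) (hw1 : ∀ η, 1 ≤ w η)
    (hw2 : ∀ η, w η ≠ ⊤ → ENNReal.ofReal ((1 + ‖(2 * Real.pi) • η‖ ^ 2) ^ s) ≤ w η ∧
      ∃ k, ∃ p ∈ T k, 2 ^ k ≤ ‖(2 * Real.pi) • η‖ ∧ ‖(2 * Real.pi) • η‖ < 2 ^ (k + 1) ∧
        ‖(2 * Real.pi) • η - (inner ℝ ((2 * Real.pi) • η) p.1 : ℝ) • p.1‖ ≤ p.2) :
    MP w := by
  classical
  refine MP_of_TT hw hw1 fun r => ?_
  have hn1 : (1 : ℝ) ≤ n := by exact_mod_cast hn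
  obtain ⟨C, hC, h⟩ := TTr_gg2 hn r (K := 8 * n) (C0 := 1) zero_le_one (by linarith)
  have hsh := TR_shf2 hn hC h s T hT
  have hak : Summable (ak2 s T) := hN
  have hlow : Measurable ((Metric.ball (0 : E n) 2).indicator fun _ => (1 : ℝ≥0∞)) :=
    measurable_const.indicator Metric.isOpen_ball.measurableSet
  have h1 := TTr.tsum (fun k => ENNReal.measurable_ofReal.comp (hsh k).1) fun k => (hsh k).2
  have h2 := TTr.add hlow (TTr_triv r hlow) h1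
  have hfin : (∫⁻ η, (Metric.ball (0 : E n) 2).indicator (fun _ => (1 : ℝ≥0∞)) η) *
      volume (Metric.ball (0 : E n) r) + ∑' k, ENNReal.ofReal (DD2 n C * ak2 s T k) ≠ ⊤ := by
    refine ENNReal.add_ne_top.2 ⟨ENNReal.mul_ne_top ?_ measure_ball_lt_top.ne, ?_⟩
    · rw [lintegral_indicator Metric.isOpen_ball.measurableSet]
      simp only [lintegral_const, one_mul, Measure.restrict_apply_univ]
      exact measure_ball_lt_top.ne
    · rw [← ENNReal.ofReal_tsum_of_nonneg (fun k => mul_nonneg (DD_nonneg2 hC) (ak_nonneg2 s T k))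
        (hak.mul_left _)]
      exact ENNReal.ofReal_ne_top
  refine ⟨((∫⁻ η, (Metric.ball (0 : E n) 2).indicator (fun _ => (1 : ℝ≥0∞)) η) *
      volume (Metric.ball (0 : E n) r) + ∑' k, ENNReal.ofReal (DD2 n C * ak2 s T k)).toNNReal, ?_⟩
  rw [ENNReal.coe_toNNReal hfin]
  refine h2.mono (fun η => ?_) le_rfl
  by_cases hwt : w η = ⊤
  · rw [hwt, ENNReal.inv_top]
    exact zero_le
  obtain ⟨hlb, k, p, hp, hk1, hk2, hk3⟩ := hw2 η hwt
  obtain ⟨hp1, hp2⟩ := hT k p hp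
  have hpi3 := Real.pi_gt_three
  by_cases hk : 3 ≤ k
  · refine le_trans ?_ le_add_self
    refine le_trans ?_ (ENNReal.le_tsum k)
    have h3 := tub_ge2 hk hp1 hp2 hk1 hk2 hk3
    have hpos : (0 : ℝ) < (1 + ‖(2 * Real.pi) • η‖ ^ 2) ^ s := by positivity
    calc (w η)⁻¹ ≤ (ENNReal.ofReal ((1 + ‖(2 * Real.pi) • η‖ ^ 2) ^ s))⁻¹ :=
          ENNReal.inv_le_inv.2 hlb
      _ = ENNReal.ofReal (((1 + ‖(2 * Real.pi) • η‖ ^ 2) ^ s)⁻¹) :=
          (ENNReal.ofReal_inv_of_pos hpos).symm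
      _ ≤ ENNReal.ofReal (shf2 s T k η) := by
          refine ENNReal.ofReal_le_ofReal ?_
          have h4 : ((1 + ‖(2 * Real.pi) • η‖ ^ 2) ^ s)⁻¹ ≤ (2 : ℝ) ^ (-(2 * s * k)) := by
            have h5 : (2 : ℝ) ^ (-(2 * s * k)) = (((2 : ℝ) ^ k) ^ 2) ^ (-s) := by
              rw [← pow_mul, ← Real.rpow_natCast, ← Real.rpow_mul (by norm_num)]
              congr 1
              push_cast
              ring
            rw [h5, ← Real.rpow_neg (by positivity)]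
            refine Real.rpow_le_rpow_of_nonpos (by positivity) ?_ (by linarith)
            have h6 : ((2 : ℝ) ^ k) ^ 2 ≤ ‖(2 * Real.pi) • η‖ ^ 2 := by gcongr
            linarith
          refine h4.trans ?_
          simp only [shf2, hk, if_true]
          have h7 : tub2 k p η ≤ ∑ q ∈ T k, tub2 k q η := by
            refine Finset.single_le_sum (f := fun q => tub2 k q η) (fun q _ => ?_) hp
            exact Finset.sum_nonneg fun j _ =>
              add_nonneg (gg_nonneg _ _ _ _ _ _) (gg_nonneg _ _ _ _ _ _)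
          have h8 : Real.exp 5 * Real.exp (-5) = 1 := by
            rw [← Real.exp_add]; simp
          calc (2 : ℝ) ^ (-(2 * s * k)) = (Real.exp 5 * Real.exp (-5)) * (2 : ℝ) ^ (-(2 * s * k)) := by
                rw [h8, one_mul]
            _ = (Real.exp 5 * (2 : ℝ) ^ (-(2 * s * k))) * Real.exp (-5) := by ring
            _ ≤ (Real.exp 5 * (2 : ℝ) ^ (-(2 * s * k))) * ∑ q ∈ T k, tub2 k q η := by
                refine mul_le_mul_of_nonneg_left (h3.trans h7) (by positivity)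
  · refine le_trans ?_ le_self_add
    have hmem : η ∈ Metric.ball (0 : E n) 2 := by
      rw [mem_ball_zero_iff]
      rw [norm_smul, Real.norm_eq_abs, abs_of_pos (by positivity)] at hk2
      have h4 : (2 : ℝ) ^ (k + 1) ≤ 2 ^ 3 := pow_le_pow_right₀ (by norm_num) (by omega)
      by_contra hcon
      rw [not_lt] at hcon
      nlinarith
    rw [indicator_of_mem hmem]
    exact ENNReal.inv_le_one.2 (hw1 η)

end Vale.Agent.P076.R2.H831.V2
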