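import Vale.Agent.P076.R2.H45.Tubes
import Vale.Agent.P076.R2.H831.Fin3

/-!
# P076 : the tubes, on the frequency side of the problem
-/

open MeasureTheory Complex FourierTransform Filter Topology Set
open scoped ENNReal NNReal

namespace Vale.Agent.P076.R2.H831

open Vale.Agent.P076 Vale.Agent.P076.H791

variable {n : ℕ}

/-- the union of the pieces of the tubes -/
def TubeSet (T : ℕ → Finset ((Fin n → ℝ) × ℝ)) : Set (Fin n → ℝ) :=
  {ξ | ∃ k, ∃ p ∈ T k, 2 ^ k ≤ nrm ξ ∧ nrm ξ < 2 ^ (k + 1) ∧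
    nrm (ξ - (∑ i, ξ i * p.1 i) • p.1) ≤ p.2}

lemma measurable_nrm : Measurable (nrm : (Fin n → ℝ) → ℝ) := by
  unfold nrm
  fun_prop

lemma measurableSet_tubes (T : ℕ → Finset ((Fin n → ℝ) × ℝ)) : MeasurableSet (TubeSet T) := by
  have e : TubeSet T = ⋃ k, ⋃ p ∈ T k, {ξ | 2 ^ k ≤ nrm ξ ∧ nrm ξ < 2 ^ (k + 1) ∧
      nrm (ξ - (∑ i, ξ i * p.1 i) • p.1) ≤ p.2} := by
    ext ξ
    simp only [TubeSet, Set.mem_iUnion, Set.mem_ofPred_eq, exists_prop]
  rw [e]
  refine MeasurableSet.iUnion fun k => (T k).measurableSet_biUnion fun p _ => ?_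
  have m1 : Measurable fun ξ : Fin n → ℝ => nrm (ξ - (∑ i, ξ i * p.1 i) • p.1) := by
    refine measurable_nrm.comp ?_
    fun_prop
  exact (measurableSet_le measurable_const measurable_nrm).inter
    ((measurableSet_lt measurable_nrm measurable_const).inter
      (measurableSet_le m1 measurable_const))

/-- the embedding of the data -/
def embT : (Fin n → ℝ) × ℝ ↪ E n × ℝ where
  toFun p := (toE p.1, p.2)
  inj' p q h := by
    obtain ⟨h1, h2⟩ := Prod.mk.inj h
    have h3 : p.1 = q.1 := by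
      funext i
      have := congrArg (fun v : E n => v i) h1
      simpa only [toE_apply] using this
    exact Prod.ext h3 h2

/-- **tubes are good** -/
theorem good_tubes (hn : 1 ≤ n) {s : ℝ} (hs : 0 ≤ s) (T : ℕ → Finset ((Fin n → ℝ) × ℝ))
    (hT : ∀ k, ∀ p ∈ T k, nrm p.1 = 1 ∧ p.2 ≤ 2 ^ k / 2)
    (hN : Summable fun k : ℕ => √((k : ℝ) + 1) * (2 : ℝ) ^ ((k : ℝ) * (1 / 2 - 2 * s)) *
      ∑ p ∈ T k, (max 1 (p.2 / (2 : ℝ) ^ ((k : ℝ) / 2))) ^ (n - 1)) :
    Good s (TubeSet T) := by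
  refine Vale.Agent.P076.R2.H45.MP_tubes hn hs (fun k => (T k).map embT) ?_ ?_
    (measurable_wt (measurable_hwt s (measurableSet_tubes T))) (fun η => one_le_hwt hs _ _) ?_
  · intro k p hp
    rw [Finset.mem_map] at hp
    obtain ⟨q, hq, rfl⟩ := hp
    have h1 := (hT k q hq).1
    rw [nrm_eq] at h1
    exact ⟨h1, (hT k q hq).2⟩
  · simp only [Finset.sum_map]
    exact hN
  · intro η hη
    unfold Vale.Agent.P076.H791.wt hwt at hη ⊢
    have hnr : nrm (WithLp.ofLp ((2 * Real.pi) • η)) = ‖(2 * Real.pi) • η‖ := by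
      rw [nrm_eq]
      rfl
    by_cases h1 : WithLp.ofLp ((2 * Real.pi) • η) ∈ TubeSet T
    · rw [if_pos h1, hnr]
      refine ⟨le_rfl, ?_⟩
      obtain ⟨k, p, hp, h2, h3, h4⟩ := h1
      rw [hnr] at h2 h3
      refine ⟨k, embT p, Finset.mem_map_of_mem _ hp, h2, h3, ?_⟩
      rw [nrm_eq] at h4
      have h5 : (∑ i, WithLp.ofLp ((2 * Real.pi) • η) i * p.1 i) =
          inner ℝ ((2 * Real.pi) • η) (toE p.1) :=
        (inner_toE (WithLp.ofLp ((2 * Real.pi) • η)) p.1).symm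
      rw [h5] at h4
      exact h4
    · rw [if_neg h1] at hη
      exact absurd rfl hη

end Vale.Agent.P076.R2.H831
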