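import Vale.Agent.P076.R2.H831.Tu2
import Vale.Agent.P076.R2.H831.Tub
import Vale.Agent.P076.R2.H831.Sta

/-!
# P076 : few tubes, on the frequency side of the problem
-/

open MeasureTheory Complex FourierTransform Filter Topology Set
open scoped ENNReal NNReal

namespace Vale.Agent.P076.R2.H831

open Vale.Agent.P076 Vale.Agent.P076.H791

variable {n : ℕ}

/-- **tubes are good**, with the width as the cost of a tube -/
theorem good_tubes2 (hn : 1 ≤ n) {s : ℝ} (hs : 0 ≤ s) (T : ℕ → Finset ((Fin n → ℝ) × ℝ))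
    (hT : ∀ k, ∀ p ∈ T k, nrm p.1 = 1 ∧ p.2 ≤ 2 ^ k / 2)
    (hN : Summable fun k : ℕ => √((k : ℝ) + 1) * (2 : ℝ) ^ (-(2 * s * k)) *
      ∑ p ∈ T k, max p.2 ((2 : ℝ) ^ ((k : ℝ) / 2))) :
    Good s (TubeSet T) := by
  refine V2.MP_tubes2 hn hs (fun k => (T k).map embT) ?_ ?_
    (measurable_wt (measurable_hwt s (measurableSet_tubes T))) (fun η => one_le_hwt hs _ _) ?_
  · intro k p hp
    rw [Finset.mem_map] at hp
    obtain ⟨q, hq, rfl⟩ := hp
    have h1 := (hT k q hq).1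
    rw [nrm_eq] at h1
    exact ⟨h1, (hT k q hq).2⟩
  · simp only [Finset.sum_map]
    exact hN
  · intro η hη
    unfold Vale.Agent.P076.H791.wt hwt at hη ⊢
    have hnr : nrm (WithLp.ofLp ((2 * Real.pi) • η)) = ‖(2 * Real.pi) • η‖ := by
      rw [nrm_eq]
      rfl
    by_cases h1 : WithLp.ofLp ((2 * Real.pi) • η) ∈ TubeSet T
    · rw [if_pos h1, hnr]
      refine ⟨le_rfl, ?_⟩
      obtain ⟨k, p, hp, h2, h3, h4⟩ := h1
      rw [hnr] at h2 h3
      refine ⟨k, embT p, Finset.mem_map_of_mem _ hp, h2, h3, ?_⟩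
      rw [nrm_eq] at h4
      have h5 : (∑ i, WithLp.ofLp ((2 * Real.pi) • η) i * p.1 i) =
          inner ℝ ((2 * Real.pi) • η) (toE p.1) :=
        (inner_toE (WithLp.ofLp ((2 * Real.pi) • η)) p.1).symm
      rw [h5] at h4
      exact h4
    · rw [if_neg h1] at hη
      exact absurd rfl hη

end Vale.Agent.P076.R2.H831
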