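import Vale.Agent.P076.R2.H831.Rad
import Vale.Agent.P076.R2.H415.Sph
import Vale.Agent.P076.H791.Zero
import Vale.Agent.P076.H791.Law

/-!
# Union of weights; from the maximal estimate to strong convergence
-/

open MeasureTheory Complex FourierTransform Filter Topology Set
open scoped ENNReal NNReal

namespace Vale.Agent.P076.R2.H831

open Vale.Agent.P076 Vale.Agent.P076.H791

variable {n : ℕ}

lemma sphG (hn : 1 ≤ n) : SphG n := fun _ ha ω => Vale.Agent.P076.H415.sphere_gauss hn ha ω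

/-- the maximal estimate for radial weights -/
theorem MP_rad (hn : 1 ≤ n) {v : ℝ → ℝ≥0∞} (hv : Measurable v) (hv0 : ∀ ρ, v ρ ≠ 0)
    (hJ : ∫⁻ ρ in Ioi (0 : ℝ), (v ρ)⁻¹ ≠ ⊤) {w : E n → ℝ≥0∞} (hw : ∀ η, v ‖η‖ ≤ w η) : MP w :=
  MP_radial hn (sphG hn) hv hv0 hJ hw

/-- two weights -/
theorem MP_union {w1 w2 w : E n → ℝ≥0∞} (h1 : MP w1) (h2 : MP w2) (hw1 : Measurable w1)
    (hw : Measurable w) (h : ∀ η, w1 η ≤ w η ∨ w2 η ≤ w η) : MP w := by
  intro r ε hε
  obtain ⟨a, ha, hA⟩ := h1 r (ε / 2) (by positivity)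
  obtain ⟨b, hb, hB⟩ := h2 r (ε / 2) (by positivity)
  refine ⟨min a b, lt_min ha hb, fun G hG hE => ?_⟩
  set S : Set (E n) := {η | w1 η ≤ w η} with hS
  have hSm : MeasurableSet S := measurableSet_le hw1 hw
  set G1 : E n → ℂ := S.indicator G with hG1
  set G2 : E n → ℂ := Sᶜ.indicator G with hG2
  have hsum : G1 + G2 = G := Set.indicator_self_add_compl S G
  have e1 : En w1 G1 ≤ En w G := by
    unfold En
    refine lintegral_mono fun η => ?_
    by_cases hη : η ∈ S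
    · rw [hG1, Set.indicator_of_mem hη]
      gcongr
      exact hη
    · rw [hG1, Set.indicator_of_notMem hη]
      simp
  have e2 : En w2 G2 ≤ En w G := by
    unfold En
    refine lintegral_mono fun η => ?_
    by_cases hη : η ∈ S
    · rw [hG2, Set.indicator_of_notMem (by simpa using hη)]
      simp
    · rw [hG2, Set.indicator_of_mem (by simpa using hη)]
      gcongr
      exact (h η).resolve_left hη
  obtain ⟨c, hc⟩ := hG.bdd
  obtain ⟨R, hR⟩ := hG.supp
  have n1 : Nice w1 G1 := by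
    refine ⟨hG.meas.indicator hSm, ⟨c, fun η => (norm_indicator_le_norm_self _ _).trans (hc η)⟩,
      ⟨R, fun η hη => hR η fun h0 => hη ?_⟩, e1.trans_lt hG.en⟩
    by_cases hm : η ∈ S
    · rw [hG1, Set.indicator_of_mem hm, h0]
    · rw [hG1, Set.indicator_of_notMem hm]
  have n2 : Nice w2 G2 := by
    refine ⟨hG.meas.indicator hSm.compl,
      ⟨c, fun η => (norm_indicator_le_norm_self _ _).trans (hc η)⟩,
      ⟨R, fun η hη => hR η fun h0 => hη ?_⟩, e2.trans_lt hG.en⟩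
    by_cases hm : η ∈ Sᶜ
    · rw [hG2, Set.indicator_of_mem hm, h0]
    · rw [hG2, Set.indicator_of_notMem hm]
  have hsub : mset G (Ioo (-(r : ℝ)) r) ε ∩ Metric.ball 0 r ⊆
      (mset G1 (Ioo (-(r : ℝ)) r) (ε / 2) ∩ Metric.ball 0 r) ∪
        (mset G2 (Ioo (-(r : ℝ)) r) (ε / 2) ∩ Metric.ball 0 r) := by
    rintro x ⟨⟨s, hs, hx⟩, hxr⟩
    rw [← hsum, evo_add' n1.integrable n2.integrable x s le_rfl] at hx
    have h3 := norm_add_le (evo G1 x s 0) (evo G2 x s 0)
    by_cases h4 : ε / 2 < ‖evo G1 x s 0‖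
    · exact Or.inl ⟨⟨s, hs, h4⟩, hxr⟩
    · refine Or.inr ⟨⟨s, hs, ?_⟩, hxr⟩
      rw [not_lt] at h4
      linarith
  calc volume (mset G (Ioo (-(r : ℝ)) r) ε ∩ Metric.ball 0 r)
      ≤ volume (mset G1 (Ioo (-(r : ℝ)) r) (ε / 2) ∩ Metric.ball 0 r) +
        volume (mset G2 (Ioo (-(r : ℝ)) r) (ε / 2) ∩ Metric.ball 0 r) :=
        (measure_mono hsub).trans (measure_union_le _ _)
    _ ≤ ENNReal.ofReal (ε / 2) + ENNReal.ofReal (ε / 2) := by
        gcongr
        · exact hA G1 n1 (e1.trans (hE.trans (min_le_left _ _)))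
        · exact hB G2 n2 (e2.trans (hE.trans (min_le_right _ _)))
    _ = ENNReal.ofReal ε := by
        rw [← ENNReal.ofReal_add (by positivity) (by positivity)]
        congr 1
        ring

/-- monotonicity in the weight -/
theorem MP_mono {w1 w : E n → ℝ≥0∞} (h1 : MP w1) (h : ∀ η, w1 η ≤ w η) : MP w := by
  intro r ε hε
  obtain ⟨a, ha, hA⟩ := h1 r ε hε
  refine ⟨a, ha, fun G hG hE => ?_⟩
  have e1 : En w1 G ≤ En w G := by
    unfold En
    refine lintegral_mono fun η => ?_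
    gcongr
    exact h η
  exact hA G ⟨hG.meas, hG.bdd, hG.supp, e1.trans_lt hG.en⟩ (e1.trans hE)

/-- scaling of the weight -/
theorem MP_scale {w1 w : E n → ℝ≥0∞} (h1 : MP w1) {c : ℝ≥0∞} (hct : c ≠ ⊤)
    (h : ∀ η, w1 η ≤ c * w η) : MP w := by
  intro r ε hε
  obtain ⟨a, ha, hA⟩ := h1 r ε hε
  refine ⟨a / c, ENNReal.div_pos ha.ne' hct, fun G hG hE => ?_⟩
  have e1 : En w1 G ≤ c * En w G := by
    unfold En
    rw [← lintegral_const_mul' _ _ hct]
    refine lintegral_mono fun η => ?_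
    rw [← mul_assoc]
    gcongr
    exact h η
  refine hA G ⟨hG.meas, hG.bdd, hG.supp, e1.trans_lt (ENNReal.mul_lt_top hct.lt_top hG.en)⟩ ?_
  refine e1.trans ?_
  calc c * En w G ≤ c * (a / c) := by gcongr
    _ ≤ a := ENNReal.mul_div_le

/-- from the maximal estimate to strong convergence -/
theorem strong_of_MP (w : (Fin n → ℝ) → ℝ≥0∞) (hw : Measurable w) (hw1 : ∀ ξ, 1 ≤ w ξ)
    (h : MP (Vale.Agent.P076.H791.wt w)) {f g : (Fin n → ℝ) → ℂ} (hfg : IsFourierPair f g)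
    (hE : ∫⁻ ξ, w ξ * ‖g ξ‖ₑ ^ 2 < ⊤) : ConvergesStrongly f g := by
  have hwt := measurable_wt hw
  have hwt1 : ∀ η, 1 ≤ Vale.Agent.P076.H791.wt w η := fun η => hw1 _
  obtain ⟨F, hf, hg⟩ := exists_lp hfg
  have hE2 : En (Vale.Agent.P076.H791.wt w) (fun η => (𝓕 F : Lp ℂ 2 (volume : Measure (E n))) η) < ⊤ := by
    have h1 : ∫⁻ ξ, w ξ * ‖g ξ‖ₑ ^ 2 = ∫⁻ ξ, w ξ * ‖freq F ξ‖ₑ ^ 2 := by
      refine lintegral_congr_ae ?_
      filter_upwards [hg] with ξ hξ
      rw [hξ]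
    rw [h1, energy_freq] at hE
    by_contra hcon
    rw [not_lt, top_le_iff] at hcon
    rw [hcon, ENNReal.mul_top ofReal_pos_scale] at hE
    exact lt_irrefl _ hE
  unfold ConvergesStrongly
  filter_upwards [ae_toE (pos_data hwt hwt1 h F hE2), hf] with x hx hfx
  obtain ⟨u, hu, hu0, hut⟩ := hx
  refine ⟨fun t => u (2 * Real.pi * t), hu.comp (continuous_const.mul continuous_id), ?_,
    fun t => ?_⟩
  · simp only [mul_zero]
    rw [hu0, hfx]
    rfl
  · have h2 : Tendsto (fun b : ℝ => 4 * Real.pi ^ 2 * b) (𝓝[>] 0) (𝓝[>] 0) := by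
      refine tendsto_nhdsWithin_iff.2 ⟨?_, ?_⟩
      · have : Tendsto (fun b : ℝ => 4 * Real.pi ^ 2 * b) (𝓝 0) (𝓝 (4 * Real.pi ^ 2 * 0)) :=
          (continuous_const.mul continuous_id).tendsto 0
        rw [mul_zero] at this
        exact this.mono_left nhdsWithin_le_nhds
      · filter_upwards [self_mem_nhdsWithin] with b hb
        have hb' : (0:ℝ) < b := hb
        exact Set.mem_Ioi.2 (by positivity)
    refine ((hut (2 * Real.pi * t)).comp h2).congr fun a => ?_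
    rw [evolve_congr hg, evolve_freq, schrReg_eq_evo]
    rfl

end Vale.Agent.P076.R2.H831
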